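/-
S0453 blueprint: definitions and exact statements of the work packages (no proofs).
Math: see `results.approach` of row S0453 in the team DB (Caputo's N=3 reduction for pair blocks).

Conventions.  All sums are plain finite sums (no probability normalisation) unless `avg` is written.
-/
import Mathlib
import Crest.Prelude.Def_SwitchChain

set_option autoImplicit false
open Finset

namespace Crest.Agent.S0453Lib

/-! ## Generic conditional expectation on a finset -/
section Cond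
variable {α κ : Type*} [DecidableEq α] [DecidableEq κ]

/-- average of `f` over a finset (junk value `0` on the empty set) -/
noncomputable def avg (s : Finset α) (f : α → ℝ) : ℝ := (∑ x ∈ s, f x) / s.card

/-- the fibre of `key` through `x`, inside `S` -/
def fib (S : Finset α) (key : α → κ) (x : α) : Finset α := S.filter fun y => key y = key x

/-- conditional expectation of `f` given `key`, inside `S`. -/
noncomputable def cexp (S : Finset α) (key : α → κ) (f : α → ℝ) (x : α) : ℝ := avg (fib S key x) f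

/-- `f - E[f | key]` -/
noncomputable def dev (S : Finset α) (key : α → κ) (f : α → ℝ) (x : α) : ℝ := f x - cexp S key f x

/-- covariance of `f` and `g` under the uniform law on `s`. -/
noncomputable def cov (s : Finset α) (f g : α → ℝ) : ℝ :=
  avg s (fun x => f x * g x) - avg s f * avg s g

/-- **WP Spectral.** Poincaré inequality from an operator inequality `T² ≥ cT`, where `T = Σᵢ devᵢ`
(a sum of orthogonal projections).  If `f` invariant under all fibres (all `dev` vanish on `S`)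
forces `f` constant on `S`, then `c Σ (f - mean)² ≤ Σᵢ ‖devᵢ f‖²`. -/
def SpectralLemma : Prop :=
  ∀ {α κ ι : Type} [DecidableEq α] [DecidableEq κ] [DecidableEq ι] (S : Finset α)
    (I : Finset ι) (key : ι → α → κ) (c : ℝ), 0 < c →
    (∀ f : α → ℝ, c * ∑ i ∈ I, ∑ x ∈ S, dev S (key i) f x ^ 2
        ≤ ∑ x ∈ S, (∑ i ∈ I, dev S (key i) f x) ^ 2) →
    (∀ f : α → ℝ, (∀ i ∈ I, ∀ x ∈ S, dev S (key i) f x = 0) → ∀ x ∈ S, ∀ y ∈ S, f x = f y) →
    ∀ f : α → ℝ, c * ∑ x ∈ S, (f x - avg S f) ^ 2 ≤ ∑ i ∈ I, ∑ x ∈ S, dev S (key i) f x ^ 2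

end Cond

/-! ## Johnson slices -/
section Johnson
variable {β : Type*} [DecidableEq β]

/-- ordered-edge energy on the slice `W.powersetCard k`: each undirected Johnson edge is seen twice. -/
noncomputable def jen (W : Finset β) (k : ℕ) (g : Finset β → ℝ) : ℝ :=
  ∑ X ∈ W.powersetCard k, ∑ c ∈ X, ∑ e ∈ W \ X, (g X - g (insert e (X.erase c))) ^ 2

/-- indicator that `X` separates `c` and `e`. -/
def sep (c e : β) (X : Finset β) : ℝ := if (c ∈ X ↔ e ∈ X) then 0 else 1

/-- **WP Johnson-gap.** `2 M Σ (g - mean)² ≤ jen g` (spectral gap `M` of `J(M,k)`).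
Math: Caputo. With `R_ce g X = g X - g (swap c e X)`, `L = Σ_{c≠e} R_ce` (ordered), `‖Lg‖² ≥ 2M ⟨g,Lg⟩`:
disjoint transpositions give squares, a triple gives `Σ_{τ<τ'} ⟨R_τ g,R_τ' g⟩ = ¼ Σ_τ ‖R_τ g‖²` (slices are binary). Then
use `SpectralLemma`-type reasoning (or an independent proof, e.g. induction on `M`). -/
def JohnsonGap : Prop :=
  ∀ {β : Type} [DecidableEq β] (W : Finset β) (k : ℕ) (g : Finset β → ℝ),
    2 * (W.card : ℝ) * ∑ X ∈ W.powersetCard k, (g X - avg (W.powersetCard k) g) ^ 2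
      ≤ jen W k g

/-- **WP Johnson-frame.** for every `g` on the slice,
`Σ_{c≠e in W} cov(g, sep c e)² / π ≤ M · (1/N) Σ (g - mean)²`, `π = avg (sep c e)` (`x/0 = 0`).
Math: put `y_ce = cov(g, sep c e)`, `F = Σ_{c≠e} y_ce sep c e`; then `Σ y² = cov(g,F) ≤ √(Var g Var F)`
and `Var F ≤ π M Σ y²`: apply `JohnsonGap` to `F`; `F X - F (X-u+v) = 2 Σ_{z≠u,v} (y_uz - y_vz) (1 - 2·1_X z)`;
second moment: `Σ_{X°} (Σ u_z ς_z)² = N' (Σu² + ρ((Σu)²-Σu²))`, `ρ∈[-1,1]` the same for all `(u,v)`; then with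
`T_u = Σ_z y_uz`: `Σ_{u≠v} Σ_z (y_uz - y_vz)² = 2(M-1)‖y‖²-2ΣT²`, `Σ_{u≠v}(T_u-T_v)² = 2MΣT²-2(ΣT)²`,
`ΣT²-(ΣT)²/M ≤ (M-2)/2 ‖y‖²` (here `‖y‖²=Σ_{c≠e}y²`); linear in `ρ`, check `ρ=±1`: `≤ M²‖y‖²`. -/
def JohnsonFrame : Prop :=
  ∀ {β : Type} [DecidableEq β] (W : Finset β) (k : ℕ) (g : Finset β → ℝ),
    ∑ c ∈ W, ∑ e ∈ W.erase c,
        cov (W.powersetCard k) g (sep c e) ^ 2 / avg (W.powersetCard k) (sep c e)
      ≤ (W.card : ℝ) * (avg (W.powersetCard k) fun X => (g X - avg (W.powersetCard k) g) ^ 2)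

end Johnson

/-! ## The 3-row lemma -/
section ThreeRow
variable {ι : Type*} [Fintype ι] [DecidableEq ι]

/-- 3-row 0/1 tables with column sums `r` and row sums `k`. -/
def tabs (r : ι → ℕ) (k : Fin 3 → ℕ) : Finset (Fin 3 → Finset ι) :=
  (Finset.univ.filter fun S : Fin 3 → Finset ι =>
    (∀ z, (Finset.univ.filter fun i => z ∈ S i).card = r z) ∧ ∀ i, (S i).card = k i)

/-- **WP ThreeRow.** The three row-projections satisfy `Π₁+Π₂+Π₃ ≤ 2` on mean-zero functions, in the form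
needed for the Bochner argument: the cross terms of the complementary projections are nonnegative. -/
def ThreeRowLemma : Prop :=
  ∀ {ι : Type} [Fintype ι] [DecidableEq ι] (r : ι → ℕ) (k : Fin 3 → ℕ)
    (f : (Fin 3 → Finset ι) → ℝ),
    0 ≤ ∑ S ∈ tabs r k,
      (dev (tabs r k) (· 0) f S * dev (tabs r k) (· 1) f S
        + dev (tabs r k) (· 0) f S * dev (tabs r k) (· 2) f S
        + dev (tabs r k) (· 1) f S * dev (tabs r k) (· 2) f S)

end ThreeRow

/-! ## The two-block lemmas -/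
section TwoBlock
variable {α 𝒳 𝒵 : Type*} [DecidableEq α] [DecidableEq 𝒳] [DecidableEq 𝒵]

/-- **WP TwoBlockRect.** If `(A, C)` is a product coordinate system on `S`
(every pair of an `A`-value and a `C`-value of `S` is realised exactly once) then the cross term is `≥ 0`. -/
def TwoBlockRect : Prop :=
  ∀ {α 𝒳 𝒵 : Type} [DecidableEq α] [DecidableEq 𝒳] [DecidableEq 𝒵]
    (S : Finset α) (A : α → 𝒳) (C : α → 𝒵) (f : α → ℝ),
    (∀ x ∈ S, ∀ y ∈ S, (S.filter fun z => A z = A x ∧ C z = C y).card = 1) →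
    0 ≤ ∑ x ∈ S, dev S C f x * dev S A f x

/-- **WP TwoBlockCross.** `τa` is a function of `A`, `τc` a function of `C`; the number of points of `S`
with a prescribed `A`-value and `C`-value is `1_{τa} + 1_{τc}`.  `D ⊆ S ∩ {τa, τc}` and `ι : D → S \ D` is injective
and preserves `(A, C)`.  Then
`Σ dev_C f · dev_A f ≥ ½ Σ_D (f - f∘ι)² - ½ (Ψ₁ + Ψ₂)`, with
`Ψ₁ = Σ_{x∈S, τc x} cov(fib_C x; f, τa)² / avg(fib_C x; τa)`, `Ψ₂` symmetric. -/
def TwoBlockCross : Prop :=
  ∀ {α 𝒳 𝒵 : Type} [DecidableEq α] [DecidableEq 𝒳] [DecidableEq 𝒵]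
    (S : Finset α) (A : α → 𝒳) (C : α → 𝒵) (τa τc : α → Prop)
    [DecidablePred τa] [DecidablePred τc] (f : α → ℝ) (D : Finset α) (ν : α → α),
    (∀ x ∈ S, ∀ y ∈ S, A x = A y → (τa x ↔ τa y)) →
    (∀ x ∈ S, ∀ y ∈ S, C x = C y → (τc x ↔ τc y)) →
    (∀ x ∈ S, ∀ y ∈ S, ((S.filter fun z => A z = A x ∧ C z = C y).card : ℕ)
        = (if τa x then 1 else 0) + (if τc y then 1 else 0)) →
    D ⊆ S →
    (∀ x ∈ D, τa x ∧ τc x ∧ ν x ∈ S ∧ ν x ∉ D ∧ A (ν x) = A x ∧ C (ν x) = C x) →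
    (1 / 2 : ℝ) * ∑ x ∈ D, (f x - f (ν x)) ^ 2
      - (1 / 2 : ℝ) * (∑ x ∈ S, (if τc x then
            cov (fib S C x) f (fun y => if τa y then 1 else 0) ^ 2
              / avg (fib S C x) (fun y => if τa y then 1 else 0) else 0)
          + ∑ x ∈ S, (if τa x then
            cov (fib S A x) f (fun y => if τc y then 1 else 0) ^ 2
              / avg (fib S A x) (fun y => if τc y then 1 else 0) else 0))
      ≤ ∑ x ∈ S, dev S C f x * dev S A f x

end TwoBlock

/-! ## Graphs -/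
section Graph
variable {V : Type*} [Fintype V] [DecidableEq V]

/-- A simple graph as a symmetric irreflexive Boolean adjacency function. -/
@[ext] structure Gr (V : Type*) where
  adj : V → V → Bool
  symm : ∀ u v, adj u v = adj v u
  irrefl : ∀ u, adj u u = false

instance : DecidableEq (Gr V) := fun x y =>
  decidable_of_iff (x.adj = y.adj) ⟨fun h => Gr.ext h, fun h => by rw [h]⟩

noncomputable instance : Fintype (Gr V) := Fintype.ofInjective Gr.adj (fun _ _ h => Gr.ext h)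

/-- degree -/
def Gr.deg (x : Gr V) (v : V) : ℕ := (Finset.univ.filter fun u => x.adj v u = true).card

/-- The realizations of a degree vector. -/
noncomputable def Om (d : V → ℕ) : Finset (Gr V) := Finset.univ.filter fun x => ∀ v, x.deg v = d v

/-- the adjacency data of `x` with all pairs meeting `{a,b}` blanked, except the pair `ab` itself.
Conditioning on `keyP a b` resamples the rows `a`, `b` of `x`. -/
def keyP (a b : V) (x : Gr V) : V → V → Bool := fun u v =>
  if (u = a ∨ u = b ∨ v = a ∨ v = b) ∧ ¬ ((u = a ∧ v = b) ∨ (u = b ∧ v = a)) then false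
  else x.adj u v

/-- `(a,b,c,e)` is a switch at `x`: edges `ac`, `be` present, `ae`, `bc` absent, all distinct. -/
def Sw (x : Gr V) (a b c e : V) : Prop :=
  a ≠ b ∧ a ≠ c ∧ a ≠ e ∧ b ≠ c ∧ b ≠ e ∧ c ≠ e ∧
    x.adj a c = true ∧ x.adj b e = true ∧ x.adj a e = false ∧ x.adj b c = false

instance (x : Gr V) (a b c e : V) : Decidable (Sw x a b c e) := by unfold Sw; infer_instance

/-- the four (unordered) pairs toggled by the switch `(a,b,c,e)` -/
def togP (a b c e u v : V) : Prop :=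
  (u = a ∧ v = c) ∨ (u = c ∧ v = a) ∨ (u = b ∧ v = e) ∨ (u = e ∧ v = b) ∨
    (u = a ∧ v = e) ∨ (u = e ∧ v = a) ∨ (u = b ∧ v = c) ∨ (u = c ∧ v = b)

instance (a b c e u v : V) : Decidable (togP a b c e u v) := by unfold togP; infer_instance

/-- perform the switch: toggle the pairs `ac, be, ae, bc`. -/
def swp (x : Gr V) (a b c e : V) : Gr V where
  adj u v := if u ≠ v ∧ togP a b c e u v then !(x.adj u v) else x.adj u v
  symm u v := by
    have h1 : (u ≠ v ∧ togP a b c e u v) ↔ (v ≠ u ∧ togP a b c e v u) := by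
      unfold togP; constructor <;> (rintro ⟨h, h'⟩; refine ⟨Ne.symm h, ?_⟩; tauto)
    by_cases h : u ≠ v ∧ togP a b c e u v
    · rw [if_pos h, if_pos (h1.1 h), x.symm u v]
    · rw [if_neg h, if_neg (fun h' => h (h1.2 h')), x.symm u v]
  irrefl u := by simp [x.irrefl u]

/-- one labelled term of the energy -/
noncomputable def swTerm (f : Gr V → ℝ) (x : Gr V) (a b c e : V) : ℝ :=
  if Sw x a b c e then (f x - f (swp x a b c e)) ^ 2 else 0

/-- energy of the moves that only rewire rows `a,b`. -/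
noncomputable def swE₂ (d : V → ℕ) (f : Gr V → ℝ) (a b : V) : ℝ :=
  ∑ x ∈ Om d, ∑ c, ∑ e, swTerm f x a b c e

/-- the total labelled energy. Each undirected edge of the switch graph is counted exactly `8` times. -/
noncomputable def swE (d : V → ℕ) (f : Gr V → ℝ) : ℝ := ∑ a, ∑ b, swE₂ d f a b

/-- the term `Ψ(a,b,c,e)`. -/
noncomputable def Psi (d : V → ℕ) (f : Gr V → ℝ) (a b c e : V) : ℝ :=
  ∑ x ∈ Om d, if x.adj a c ≠ x.adj b c ∧ x.adj a e ≠ x.adj b e then
      cov (fib (Om d) (keyP a b) x) f (fun y => if y.adj a c ≠ y.adj a e then 1 else 0) ^ 2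
        / avg (fib (Om d) (keyP a b) x) (fun y => if y.adj a c ≠ y.adj a e then 1 else 0)
    else 0

/-- shorthand: `D_ab f = f - E[f | keyP a b]` on `Om d`. -/
noncomputable def DD (d : V → ℕ) (f : Gr V → ℝ) (a b : V) (x : Gr V) : ℝ :=
  dev (Om d) (keyP a b) f x

end Graph

/-- **WP StepVar** (from `JohnsonGap`): on each fibre of `keyP a b`, Johnson gap with `M ≥ 2`. -/
def StepVar : Prop :=
  ∀ {V : Type} [Fintype V] [DecidableEq V] (d : V → ℕ) (f : Gr V → ℝ) (a b : V), a ≠ b →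
    ∑ x ∈ Om d, DD d f a b x ^ 2 ≤ (1 / 4 : ℝ) * swE₂ d f a b

/-- **WP StepFrame** (from `JohnsonGap` and `JohnsonFrame`). -/
def StepFrame : Prop :=
  ∀ {V : Type} [Fintype V] [DecidableEq V] (d : V → ℕ) (f : Gr V → ℝ) (a b : V), a ≠ b →
    ∑ c, ∑ e, (if c ≠ a ∧ c ≠ b ∧ e ≠ a ∧ e ≠ b ∧ c ≠ e then Psi d f a b c e else 0)
      ≤ (1 / 2 : ℝ) * swE₂ d f a b

/-- **WP StepTriple** (from `ThreeRowLemma`). -/
def StepTriple : Prop :=
  ∀ {V : Type} [Fintype V] [DecidableEq V] (d : V → ℕ) (f : Gr V → ℝ) (a b c : V),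
    a ≠ b → a ≠ c → b ≠ c →
    0 ≤ ∑ x ∈ Om d, (DD d f a b x * DD d f a c x + DD d f a b x * DD d f b c x
        + DD d f a c x * DD d f b c x)

/-- **WP StepDisjoint** (from `TwoBlockCross`). -/
def StepDisjoint : Prop :=
  ∀ {V : Type} [Fintype V] [DecidableEq V] (d : V → ℕ) (f : Gr V → ℝ) (a b c e : V),
    a ≠ b → a ≠ c → a ≠ e → b ≠ c → b ≠ e → c ≠ e →
    (1 / 2 : ℝ) * ∑ x ∈ Om d, swTerm f x a b c e
        - (1 / 2 : ℝ) * (Psi d f a b c e + Psi d f c e a b)
      ≤ ∑ x ∈ Om d, DD d f a b x * DD d f c e x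

/-- **WP Connect**: a function invariant on the fibres of all `keyP a b` is constant on `Om d`. -/
def Connect : Prop :=
  ∀ {V : Type} [Fintype V] [DecidableEq V] (d : V → ℕ) (f : Gr V → ℝ),
    (∀ a b : V, a ≠ b → ∀ x ∈ Om d, DD d f a b x = 0) → ∀ x ∈ Om d, ∀ y ∈ Om d, f x = f y

/-- **WP Main** (Bochner assembly): the Poincaré inequality in labelled-energy form. -/
def Poincare : Prop :=
  ∀ {V : Type} [Fintype V] [DecidableEq V] (d : V → ℕ) (f : Gr V → ℝ),
    ∑ x ∈ Om d, (f x - avg (Om d) f) ^ 2 ≤ swE d f / 8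

/-! ## The kernel -/

/-- **WP Markov.** Abstract: from a Poincaré inequality to total variation decay. -/
def MarkovTV : Prop :=
  ∀ {α : Type} [Fintype α] [DecidableEq α] (K : Matrix α α ℝ) (Ω : Finset α) (Λ : ℝ),
    Ω.Nonempty → 1 ≤ Λ →
    (∀ x y, 0 ≤ K x y) → (∀ x y, K x y = K y x) → (∀ x, ∑ y, K x y = 1) → (∀ x, 1 / 2 ≤ K x x) →
    (∀ x ∈ Ω, ∀ y, y ∉ Ω → K x y = 0) →
    (∀ f : α → ℝ, ∑ x ∈ Ω, (f x - avg Ω f) ^ 2
        ≤ Λ * ∑ x ∈ Ω, f x * (f x - ∑ y ∈ Ω, K x y * f y)) →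
    ∀ (t : ℕ), ∀ x ∈ Ω, Crest.SwitchChain.tvDist (fun y => (K ^ t) x y) (Crest.SwitchChain.unifOn Ω)
      ≤ (1 / 2 : ℝ) * Real.sqrt ((Ω.card : ℝ) * (1 - 1 / Λ) ^ t)

/-- **WP Kernel.** All facts on `kernel n` and the reduction of its Dirichlet form to `swE`.  -/
def KernelFacts : Prop :=
  ∀ (n : ℕ), 4 ≤ n → (∀ x y, 0 ≤ Crest.SwitchChain.kernel n x y) ∧
    (∀ x y, Crest.SwitchChain.kernel n x y = Crest.SwitchChain.kernel n y x) ∧
    (∀ x, ∑ y, Crest.SwitchChain.kernel n x y = 1) ∧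
    (∀ x, 1 / 2 ≤ Crest.SwitchChain.kernel n x x) ∧
    ∀ d : Fin n → ℕ, (∀ x ∈ Crest.SwitchChain.realizations d, ∀ y,
        y ∉ Crest.SwitchChain.realizations d → Crest.SwitchChain.kernel n x y = 0)

/-- **WP Kernel 2.** `Poincare` implies the Poincaré inequality for `kernel n` with `Λ = 12·C(n,4)`.
(Math: `Edge`-sets ≃ `Gr (Fin n)`, realizations ≃ `Om`; the Dirichlet form of `kernel n` on the realizations
is `(1/(24 C(n,4))) Σ_G Σ_{proposals} (f G - f (result))²`, and each labelled `Sw x a b c e` yields a proposal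
`S={a,b,c,e}, F={ac,be}, F'={ae,bc}`, with at most `4` labellings per proposal; so `swE ≤ 4 Σ_G Σ_proposals`.) -/
def KernelPoincare : Prop :=
  ∀ (n : ℕ), 4 ≤ n → ∀ (d : Fin n → ℕ) (f : Finset (Crest.SwitchChain.Edge n) → ℝ),
    ∑ G ∈ Crest.SwitchChain.realizations d, (f G - avg (Crest.SwitchChain.realizations d) f) ^ 2
      ≤ (12 * (n.choose 4 : ℝ)) * ∑ G ∈ Crest.SwitchChain.realizations d,
          f G * (f G - ∑ G' ∈ Crest.SwitchChain.realizations d,
            Crest.SwitchChain.kernel n G G' * f G')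

end Crest.Agent.S0453Lib
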