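/-
S0453 W1: conditional expectations on finsets, `eigBound` and `SpectralLemma`.
-/
import Crest.Agent.S0453Lib.Spec

set_option autoImplicit false
set_option linter.unusedSectionVars false
set_option linter.unusedSimpArgs false
set_option linter.unusedVariables false
open Finset

namespace Crest.Agent.S0453Lib

section Basic
variable {α κ : Type*} [DecidableEq α] [DecidableEq κ]

lemma mem_fib {S : Finset α} {key : α → κ} {x y : α} :
    y ∈ fib S key x ↔ y ∈ S ∧ key y = key x := by
  simp [fib]

lemma self_mem_fib {S : Finset α} {key : α → κ} {x : α} (hx : x ∈ S) : x ∈ fib S key x :=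
  mem_fib.2 ⟨hx, rfl⟩

lemma fib_subset {S : Finset α} {key : α → κ} {x : α} : fib S key x ⊆ S := filter_subset _ _

lemma fib_nonempty {S : Finset α} {key : α → κ} {x : α} (hx : x ∈ S) : (fib S key x).Nonempty :=
  ⟨x, self_mem_fib hx⟩

lemma fib_eq_of_key_eq {S : Finset α} {key : α → κ} {x y : α} (h : key x = key y) :
    fib S key x = fib S key y := by
  ext z; simp [fib, h]

lemma cexp_eq_of_key_eq {S : Finset α} {key : α → κ} (f : α → ℝ) {x y : α} (h : key x = key y) :
    cexp S key f x = cexp S key f y := by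
  simp [cexp, fib_eq_of_key_eq h]

lemma avg_congr {s : Finset α} {f g : α → ℝ} (h : ∀ x ∈ s, f x = g x) : avg s f = avg s g := by
  simp only [avg]
  rw [Finset.sum_congr rfl h]

lemma avg_add (s : Finset α) (f g : α → ℝ) : avg s (f + g) = avg s f + avg s g := by
  simp only [avg, Pi.add_apply, Finset.sum_add_distrib, add_div]

lemma avg_smul (s : Finset α) (c : ℝ) (f : α → ℝ) : avg s (c • f) = c * avg s f := by
  simp only [avg, Pi.smul_apply, smul_eq_mul, ← Finset.mul_sum, mul_div_assoc]

lemma avg_const {s : Finset α} (hs : s.Nonempty) (c : ℝ) : avg s (fun _ => c) = c := by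
  have : (s.card : ℝ) ≠ 0 := by exact_mod_cast hs.card_ne_zero
  simp only [avg, Finset.sum_const, nsmul_eq_mul]
  field_simp

lemma sum_sub_avg {s : Finset α} (hs : s.Nonempty) (f : α → ℝ) :
    ∑ x ∈ s, (f x - avg s f) = 0 := by
  have : (s.card : ℝ) ≠ 0 := by exact_mod_cast hs.card_ne_zero
  simp only [Finset.sum_sub_distrib, Finset.sum_const, nsmul_eq_mul, avg]
  field_simp
  ring

/-- `dev` on `S` only depends on the values on `S`. -/
lemma dev_congr {S : Finset α} {key : α → κ} {f g : α → ℝ} (h : ∀ x ∈ S, f x = g x) {x : α}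
    (hx : x ∈ S) : dev S key f x = dev S key g x := by
  simp only [dev, cexp]
  rw [h x hx, avg_congr (fun y hy => h y (fib_subset hy))]

lemma dev_add (S : Finset α) (key : α → κ) (f g : α → ℝ) (x : α) :
    dev S key (f + g) x = dev S key f x + dev S key g x := by
  simp only [dev, cexp, avg_add, Pi.add_apply]
  ring

lemma dev_smul (S : Finset α) (key : α → κ) (c : ℝ) (f : α → ℝ) (x : α) :
    dev S key (c • f) x = c * dev S key f x := by
  simp only [dev, cexp, avg_smul, Pi.smul_apply, smul_eq_mul]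
  ring

lemma dev_sub_const {S : Finset α} (key : α → κ) (f : α → ℝ) (c : ℝ) {x : α} (hx : x ∈ S) :
    dev S key (fun y => f y - c) x = dev S key f x := by
  have hs := fib_nonempty (key := key) hx
  have h1 : (s' : Finset α) → s'.Nonempty → avg s' (fun y => f y - c) = avg s' f - c := by
    intro s' hs'
    have : (s'.card : ℝ) ≠ 0 := by exact_mod_cast hs'.card_ne_zero
    simp only [avg, Finset.sum_sub_distrib, Finset.sum_const, nsmul_eq_mul]
    field_simp
  simp only [dev, cexp]
  rw [h1 _ hs]
  ring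

/-- Sums over `S` are sums over the fibres. -/
lemma sum_fib (S : Finset α) (key : α → κ) (F : α → ℝ) :
    ∑ k ∈ S.image key, ∑ x ∈ S.filter (fun y => key y = k), F x = ∑ x ∈ S, F x :=
  Finset.sum_fiberwise_of_maps_to (fun x hx => Finset.mem_image_of_mem key hx) F

/-- A function of the key is orthogonal to `dev`. -/
lemma sum_dev_mul_factor (S : Finset α) (key : α → κ) (f φ : α → ℝ)
    (hφ : ∀ x ∈ S, ∀ y ∈ S, key x = key y → φ x = φ y) :
    ∑ x ∈ S, dev S key f x * φ x = 0 := by
  rw [← sum_fib S key]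
  refine Finset.sum_eq_zero fun k hk => ?_
  obtain ⟨x₀, hx₀, rfl⟩ := Finset.mem_image.1 hk
  have hsub : ∀ x ∈ S.filter (fun y => key y = key x₀),
      dev S key f x * φ x = (f x - avg (fib S key x₀) f) * φ x₀ := by
    intro x hx
    obtain ⟨hxS, hxk⟩ := Finset.mem_filter.1 hx
    simp only [dev, cexp]
    rw [fib_eq_of_key_eq hxk, hφ x hxS x₀ hx₀ hxk]
  rw [Finset.sum_congr rfl hsub, ← Finset.sum_mul]
  have := sum_sub_avg (fib_nonempty (key := key) hx₀) f
  simp only [fib] at this ⊢
  rw [this, zero_mul]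

lemma sum_dev_mul_cexp (S : Finset α) (key : α → κ) (f g : α → ℝ) :
    ∑ x ∈ S, dev S key f x * cexp S key g x = 0 :=
  sum_dev_mul_factor S key f _ fun _ _ _ _ h => cexp_eq_of_key_eq g h

/-- `D` is an orthogonal projection: `⟨Df, g⟩ = ⟨Df, Dg⟩`. -/
lemma sum_dev_mul (S : Finset α) (key : α → κ) (f g : α → ℝ) :
    ∑ x ∈ S, dev S key f x * g x = ∑ x ∈ S, dev S key f x * dev S key g x := by
  have h := sum_dev_mul_cexp S key f g
  rw [← sub_eq_zero, ← Finset.sum_sub_distrib, ← h]
  refine Finset.sum_congr rfl fun x _ => ?_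
  simp only [dev]
  ring

/-- `D` is symmetric. -/
lemma sum_dev_symm (S : Finset α) (key : α → κ) (f g : α → ℝ) :
    ∑ x ∈ S, dev S key f x * g x = ∑ x ∈ S, f x * dev S key g x := by
  rw [sum_dev_mul, ← Finset.sum_congr rfl (fun x _ => mul_comm (dev S key g x) (dev S key f x)),
    ← sum_dev_mul]
  exact Finset.sum_congr rfl fun x _ => mul_comm _ _

lemma sum_mul_dev_self (S : Finset α) (key : α → κ) (f : α → ℝ) :
    ∑ x ∈ S, f x * dev S key f x = ∑ x ∈ S, dev S key f x ^ 2 := by
  rw [← sum_dev_symm, sum_dev_mul]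
  exact Finset.sum_congr rfl fun x _ => by ring

end Basic

section Eig

/-- The extension by zero of a function on the subtype of `S`. -/
noncomputable def extZero {α : Type*} [DecidableEq α] (S : Finset α) (g : S → ℝ) : α → ℝ :=
  fun a => if h : a ∈ S then g ⟨a, h⟩ else 0

/-- Variational bound from the spectral theorem: if every eigenfunction with eigenvalue `> lam`
is constant on `S`, then `⟨f, T f⟩ ≤ lam ‖f‖²` on mean-zero functions. -/
theorem eigBound {α : Type*} [DecidableEq α] (S : Finset α) (T : (α → ℝ) → (α → ℝ)) (lam : ℝ)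
    (hloc : ∀ f g : α → ℝ, (∀ x ∈ S, f x = g x) → ∀ x ∈ S, T f x = T g x)
    (hadd : ∀ f g : α → ℝ, ∀ x ∈ S, T (f + g) x = T f x + T g x)
    (hsmul : ∀ (c : ℝ) (f : α → ℝ), ∀ x ∈ S, T (c • f) x = c * T f x)
    (hsymm : ∀ f g : α → ℝ, ∑ x ∈ S, T f x * g x = ∑ x ∈ S, f x * T g x)
    (heig : ∀ (h : α → ℝ) (μ : ℝ), lam < μ → (∀ x ∈ S, T h x = μ * h x) →
      ∀ x ∈ S, ∀ y ∈ S, h x = h y) :
    ∀ f : α → ℝ, ∑ x ∈ S, f x = 0 → ∑ x ∈ S, f x * T f x ≤ lam * ∑ x ∈ S, f x ^ 2 := by
  classical
  intro f hf0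
  let ex : EuclideanSpace ℝ S → α → ℝ := fun g => extZero S (fun x => g x)
  have hex : ∀ (g : EuclideanSpace ℝ S) (x : S), ex g x = g x := by
    intro g x
    simp [ex, extZero]
  -- the operator
  let T' : EuclideanSpace ℝ S →ₗ[ℝ] EuclideanSpace ℝ S :=
    { toFun := fun g => WithLp.toLp 2 (fun x : S => T (ex g) x)
      map_add' := by
        intro u v
        ext x
        have h1 : ex (u + v) = ex u + ex v := by
          funext a
          by_cases ha : a ∈ S <;> simp [ex, extZero, ha]
        simp only [PiLp.add_apply]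
        rw [h1]
        exact hadd _ _ _ x.2
      map_smul' := by
        intro c u
        ext x
        have h1 : ex (c • u) = c • ex u := by
          funext a
          by_cases ha : a ∈ S <;> simp [ex, extZero, ha]
        simp only [RingHom.id_apply, PiLp.smul_apply, smul_eq_mul]
        rw [h1]
        exact hsmul _ _ _ x.2 }
  have hT'apply : ∀ (g : EuclideanSpace ℝ S) (x : S), T' g x = T (ex g) x := fun _ _ => rfl
  have hinner : ∀ u v : EuclideanSpace ℝ S, inner ℝ u v = ∑ x : S, u x * v x := by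
    intro u v
    rw [PiLp.inner_apply]
    exact Finset.sum_congr rfl fun x _ => by simp [mul_comm]
  have hsumS : ∀ F : α → ℝ, ∑ x : S, F x = ∑ x ∈ S, F x := fun F => Finset.sum_coe_sort S F
  have hTsymm : T'.IsSymmetric := by
    intro u v
    rw [hinner, hinner]
    have h1 := hsymm (ex u) (ex v)
    rw [← hsumS, ← hsumS] at h1
    simp only [hex] at h1
    exact h1
  have hn : Module.finrank ℝ (EuclideanSpace ℝ S) = Fintype.card S := finrank_euclideanSpace
  let b := hTsymm.eigenvectorBasis hn
  let ev := hTsymm.eigenvalues hn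
  have hev : ∀ j, T' (b j) = ev j • b j := fun j => hTsymm.apply_eigenvectorBasis hn j
  let g : EuclideanSpace ℝ S := WithLp.toLp 2 (fun x : S => f x)
  have hg : ∀ x : S, g x = f x := fun _ => rfl
  have hexg : ∀ x ∈ S, ex g x = f x := by
    intro x hx
    simpa [hg] using hex g ⟨x, hx⟩
  -- the quadratic form in the eigenbasis
  have hq : inner ℝ g (T' g) = ∑ j, ev j * (inner ℝ g (b j)) ^ 2 := by
    rw [← b.sum_inner_mul_inner g (T' g)]
    refine Finset.sum_congr rfl fun j _ => ?_
    rw [← hTsymm (b j) g, hev, real_inner_smul_left, real_inner_comm g (b j)]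
    ring
  have hnorm : inner ℝ g g = ∑ j, (inner ℝ g (b j)) ^ 2 := by
    rw [← b.sum_inner_mul_inner g g]
    refine Finset.sum_congr rfl fun j _ => ?_
    rw [real_inner_comm g (b j)]
    ring
  have hterm : ∀ j, ev j * (inner ℝ g (b j)) ^ 2 ≤ lam * (inner ℝ g (b j)) ^ 2 := by
    intro j
    by_cases hj : lam < ev j
    · -- eigenfunction with a large eigenvalue: constant, so orthogonal to `g`
      have hconst := heig (ex (b j)) (ev j) hj (by
        intro x hx
        have h1 := hT'apply (b j) ⟨x, hx⟩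
        rw [hev] at h1
        simp only [PiLp.smul_apply, smul_eq_mul] at h1
        rw [← h1, hex (b j) ⟨x, hx⟩])
      have hzero : inner ℝ g (b j) = 0 := by
        by_cases hS : S.Nonempty
        · obtain ⟨x₀, hx₀⟩ := hS
          rw [hinner, ← Finset.sum_congr rfl (fun (x : S) _ => by
            rw [hg, ← hex (b j) x, hconst x x.2 x₀ hx₀])]
          rw [hsumS (fun x => f x * ex (b j) x₀), ← Finset.sum_mul, hf0, zero_mul]
        · rw [Finset.not_nonempty_iff_eq_empty] at hS
          subst hS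
          rw [hinner]
          simp
      rw [hzero]
      simp
    · exact mul_le_mul_of_nonneg_right (not_lt.1 hj) (by positivity)
  have h3 : ∑ x ∈ S, f x * T f x = inner ℝ g (T' g) := by
    rw [hinner, ← hsumS]
    refine Finset.sum_congr rfl fun x _ => ?_
    rw [hg, hT'apply, hloc f (ex g) (fun y hy => (hexg y hy).symm) x x.2]
  have h4 : ∑ x ∈ S, f x ^ 2 = inner ℝ g g := by
    rw [hinner, ← hsumS]
    exact Finset.sum_congr rfl fun x _ => by rw [hg, sq]
  rw [h3, h4, hq, hnorm, Finset.mul_sum]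
  exact Finset.sum_le_sum fun j _ => hterm j

end Eig

theorem spectralLemma : SpectralLemma := by
  intro α κ ι _ _ _ S I key c hc hB hK f
  classical
  by_cases hS : S.Nonempty
  swap
  · rw [Finset.not_nonempty_iff_eq_empty] at hS
    subst hS
    simp
  -- the operator `-T`
  let T : (α → ℝ) → (α → ℝ) := fun f x => - ∑ i ∈ I, dev S (key i) f x
  have hloc : ∀ f g : α → ℝ, (∀ x ∈ S, f x = g x) → ∀ x ∈ S, T f x = T g x := by
    intro f g h x hx
    simp only [T]
    rw [Finset.sum_congr rfl fun i _ => dev_congr h hx]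
  have hadd : ∀ f g : α → ℝ, ∀ x ∈ S, T (f + g) x = T f x + T g x := by
    intro f g x _
    simp only [T, dev_add, Finset.sum_add_distrib]
    ring
  have hsmul : ∀ (c : ℝ) (f : α → ℝ), ∀ x ∈ S, T (c • f) x = c * T f x := by
    intro c f x _
    simp only [T, dev_smul, ← Finset.mul_sum]
    ring
  have hsymm : ∀ f g : α → ℝ, ∑ x ∈ S, T f x * g x = ∑ x ∈ S, f x * T g x := by
    intro f g
    simp only [T, neg_mul, mul_neg, Finset.sum_neg_distrib, Finset.sum_mul, Finset.mul_sum]
    rw [neg_inj, Finset.sum_comm]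
    conv_rhs => rw [Finset.sum_comm]
    exact Finset.sum_congr rfl fun i _ => sum_dev_symm S (key i) f g
  have hform : ∀ f : α → ℝ, ∑ x ∈ S, f x * T f x = - ∑ i ∈ I, ∑ x ∈ S, dev S (key i) f x ^ 2 := by
    intro f
    simp only [T, mul_neg, Finset.sum_neg_distrib, Finset.mul_sum]
    rw [neg_inj, Finset.sum_comm]
    exact Finset.sum_congr rfl fun i _ => sum_mul_dev_self S (key i) f
  have heig : ∀ (h : α → ℝ) (μ : ℝ), -c < μ → (∀ x ∈ S, T h x = μ * h x) →
      ∀ x ∈ S, ∀ y ∈ S, h x = h y := by
    intro h μ hμ hh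
    -- write `Σ‖Dᵢh‖² = -μ‖h‖²`
    set N : ℝ := ∑ x ∈ S, h x ^ 2 with hN
    have hN0 : 0 ≤ N := Finset.sum_nonneg fun _ _ => by positivity
    set Q : ℝ := ∑ i ∈ I, ∑ x ∈ S, dev S (key i) h x ^ 2 with hQ
    have hQ0 : 0 ≤ Q := Finset.sum_nonneg fun _ _ => Finset.sum_nonneg fun _ _ => by positivity
    have h1 : Q = -μ * N := by
      have := hform h
      rw [Finset.sum_congr rfl (fun x hx => by rw [hh x hx])] at this
      have h' : ∑ x ∈ S, h x * (μ * h x) = μ * N := by
        rw [hN, Finset.mul_sum]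
        exact Finset.sum_congr rfl fun x _ => by ring
      rw [h'] at this
      linarith
    have h2 : c * Q ≤ μ ^ 2 * N := by
      have := hB h
      have h3 : ∑ x ∈ S, (∑ i ∈ I, dev S (key i) h x) ^ 2 = μ ^ 2 * N := by
        rw [hN, Finset.mul_sum]
        refine Finset.sum_congr rfl fun x hx => ?_
        have := hh x hx
        simp only [T] at this
        have h4 : ∑ i ∈ I, dev S (key i) h x = - (μ * h x) := by linarith
        rw [h4]
        ring
      rw [h3] at this
      exact this
    -- hence `Q = 0`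
    have hQz : Q = 0 := by
      by_cases hNz : N = 0
      · rw [h1, hNz, mul_zero]
      · have hNpos : 0 < N := lt_of_le_of_ne hN0 (Ne.symm hNz)
        have hμ0 : μ ≤ 0 := by
          by_contra hcon
          push Not at hcon
          have : -μ * N < 0 := by nlinarith
          linarith
        -- `c (-μ) N ≤ μ² N` forces `μ = 0`
        have h5 : c * (-μ) ≤ μ ^ 2 := by
          have : c * (-μ) * N ≤ μ ^ 2 * N := by
            calc c * (-μ) * N = c * Q := by rw [h1]; ring
              _ ≤ _ := h2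
          exact le_of_mul_le_mul_right this hNpos
        have hμz : μ = 0 := by
          by_contra hne
          have hneg : μ < 0 := lt_of_le_of_ne hμ0 hne
          have h6 : c ≤ -μ := by nlinarith
          linarith
        rw [h1, hμz]
        simp
    -- so all deviations vanish
    apply hK h
    intro i hi x hx
    have h7 : ∑ x ∈ S, dev S (key i) h x ^ 2 = 0 := by
      refine le_antisymm ?_ (Finset.sum_nonneg fun _ _ => by positivity)
      calc ∑ x ∈ S, dev S (key i) h x ^ 2 ≤ Q :=
            Finset.single_le_sum (f := fun i => ∑ x ∈ S, dev S (key i) h x ^ 2)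
              (fun _ _ => Finset.sum_nonneg fun _ _ => by positivity) hi
        _ = 0 := hQz
    have h8 := (Finset.sum_eq_zero_iff_of_nonneg (fun _ _ => by positivity)).1 h7 x hx
    simpa using h8
  -- apply to `f - avg`
  let f₀ : α → ℝ := fun x => f x - avg S f
  have hf₀ : ∑ x ∈ S, f₀ x = 0 := sum_sub_avg hS f
  have h1 := eigBound S T (-c) hloc hadd hsmul hsymm heig f₀ hf₀
  rw [hform] at h1
  have h2 : ∀ i ∈ I, ∑ x ∈ S, dev S (key i) f₀ x ^ 2 = ∑ x ∈ S, dev S (key i) f x ^ 2 := by
    intro i _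
    exact Finset.sum_congr rfl fun x hx => by
      simp only [f₀]
      rw [dev_sub_const (key i) f (avg S f) hx]
  rw [Finset.sum_congr rfl h2] at h1
  have h3 : ∑ x ∈ S, f₀ x ^ 2 = ∑ x ∈ S, (f x - avg S f) ^ 2 := rfl
  rw [h3] at h1
  linarith

end Crest.Agent.S0453Lib
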