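import Crest.Agent.S0453Lib.Spec

set_option autoImplicit false
set_option linter.unusedSectionVars false
set_option linter.unusedSimpArgs false
open Finset

namespace Crest.Agent.S0453Lib
namespace ConnectAux

variable {V : Type} [Fintype V] [DecidableEq V]

/-- number of disagreements in row `v` -/
def rowD (x y : Gr V) (v : V) : ℕ := (univ.filter fun w => x.adj v w ≠ y.adj v w).card

lemma rowD_comm (x y : Gr V) (v : V) : rowD x y v = rowD y x v := by
  unfold rowD; congr 1; ext w; simp [ne_comm]

lemma card_filter_swap (r r' : V → Bool) (p q : V) (hpq : p ≠ q) (hp : r p = true) (hq : r q = false)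
    (hp' : r' p = false) (hq' : r' q = true) (hother : ∀ u, u ≠ p → u ≠ q → r' u = r u) :
    (univ.filter fun u => r' u = true).card = (univ.filter fun u => r u = true).card := by
  apply Finset.card_equiv (Equiv.swap p q)
  intro u
  simp only [mem_filter, mem_univ, true_and]
  by_cases hup : u = p
  · subst hup; rw [Equiv.swap_apply_left]; simp [hp', hq]
  by_cases huq : u = q
  · subst huq; rw [Equiv.swap_apply_right]; simp [hp, hq']
  rw [Equiv.swap_apply_of_ne_of_ne hup huq, hother u hup huq]

theorem swp_deg {x : Gr V} {a b c e : V} (h : Sw x a b c e) (w : V) :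
    (swp x a b c e).deg w = x.deg w := by
  obtain ⟨hab, hac, hae, hbc, hbe, hce, h1, h2, h3, h4⟩ := h
  have hba := hab.symm; have hca := hac.symm; have hea := hae.symm
  have hcb := hbc.symm; have heb := hbe.symm; have hec := hce.symm
  have h1' : x.adj c a = true := by rw [x.symm]; exact h1
  have h2' : x.adj e b = true := by rw [x.symm]; exact h2
  have h3' : x.adj e a = false := by rw [x.symm]; exact h3
  have h4' : x.adj c b = false := by rw [x.symm]; exact h4
  unfold Gr.deg
  by_cases hwa : w = a
  · subst hwa
    apply card_filter_swap _ _ c e hce h1 h3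
    · simp [swp, togP, h1, hac, hab, hae]
    · simp [swp, togP, h3, hac, hab, hae]
    · intro u hu1 hu2
      simp [swp, togP, hac, hab, hae, hu1, hu2]
  by_cases hwb : w = b
  · subst hwb
    apply card_filter_swap _ _ e c hce.symm h2 h4
    · simp [swp, togP, h2, hab.symm, hbc, hbe]
    · simp [swp, togP, h4, hab.symm, hbc, hbe]
    · intro u hu1 hu2
      simp [swp, togP, hba, hbc, hbe, hu1, hu2]
  by_cases hwc : w = c
  · subst hwc
    apply card_filter_swap _ _ a b hab h1' h4'
    · simp [swp, togP, h1', hca, hcb, hce]
    · simp [swp, togP, h4', hca, hcb, hce]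
    · intro u hu1 hu2
      simp [swp, togP, hca, hcb, hce, hu1, hu2]
  by_cases hwe : w = e
  · subst hwe
    apply card_filter_swap _ _ b a hba h2' h3'
    · simp [swp, togP, h2', hea, heb, hec]
    · simp [swp, togP, h3', hea, heb, hec]
    · intro u hu1 hu2
      simp [swp, togP, hea, heb, hec, hu1, hu2]
  congr 1
  ext u
  simp [swp, togP, hwa, hwb, hwc, hwe]

theorem swp_mem_Om {d : V → ℕ} {x : Gr V} (hx : x ∈ Om d) {a b c e : V} (h : Sw x a b c e) :
    swp x a b c e ∈ Om d := by
  simp only [Om, mem_filter, mem_univ, true_and] at hx ⊢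
  intro v; rw [swp_deg h, hx]

theorem keyP_swp {x : Gr V} {a b c e : V} (h : Sw x a b c e) :
    keyP a b (swp x a b c e) = keyP a b x := by
  obtain ⟨hab, hac, hae, hbc, hbe, hce, h1, h2, h3, h4⟩ := h
  funext u v
  unfold keyP
  split_ifs with h5
  · rfl
  · have : ¬ (u ≠ v ∧ togP a b c e u v) := by
      rintro ⟨_, h6⟩
      apply h5
      unfold togP at h6
      refine ⟨by tauto, ?_⟩
      rintro (⟨rfl, rfl⟩ | ⟨rfl, rfl⟩)
      · simp_all
      · simp_all
    simp [swp, this]

theorem const_of_key {d : V → ℕ} {f : Gr V → ℝ} {a b : V}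
    (h : ∀ x ∈ Om d, DD d f a b x = 0) {x y : Gr V} (hx : x ∈ Om d) (hy : y ∈ Om d)
    (hk : keyP a b y = keyP a b x) : f y = f x := by
  have h1 := h x hx
  have h2 := h y hy
  unfold DD dev cexp at h1 h2
  have : fib (Om d) (keyP a b) y = fib (Om d) (keyP a b) x := by
    unfold fib; rw [hk]
  rw [this] at h2
  linarith

/-- The toggled pairs avoid a set `U` that contains none of the four vertices. -/
lemma swp_adj_of_mem_U {x : Gr V} {a b c e u w : V} (hua : u ≠ a) (hub : u ≠ b) (huc : u ≠ c)
    (hue : u ≠ e) : (swp x a b c e).adj u w = x.adj u w := by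
  have : ¬ (u ≠ w ∧ togP a b c e u w) := by
    rintro ⟨_, h6⟩
    unfold togP at h6
    tauto
  simp [swp, this]

/-- A switch `(v,c,a,b)` decreases the disagreement in row `v`. -/
lemma rowD_swp_lt {x y : Gr V} {v a b c : V} (h : Sw x v c a b) (hya : y.adj v a = false)
    (hyb : y.adj v b = true) : rowD (swp x v c a b) y v < rowD x y v := by
  obtain ⟨hvc, hva, hvb, hca, hcb, hab, h1, h2, h3, h4⟩ := h
  unfold rowD
  apply Finset.card_lt_card
  rw [Finset.ssubset_iff_of_subset]
  · refine ⟨a, ?_, ?_⟩
    · simp [h1, hya]
    · simp [swp, togP, h1, hya, hva, hvc, hvb]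
  · intro w hw
    simp only [mem_filter, mem_univ, true_and] at hw ⊢
    by_cases hwa : w = a
    · subst hwa; simp [h1, hya]
    by_cases hwb : w = b
    · subst hwb; simp [h3, hyb]
    have : (swp x v c a b).adj v w = x.adj v w := by
      simp [swp, togP, hwa, hwb, hvc, hva, hvb]
    rwa [this] at hw

lemma row_sum (x : Gr V) (a : V) :
    (∑ c, (if x.adj a c = true then (1:ℤ) else 0)) = x.deg a := by
  unfold Gr.deg
  rw [Finset.card_filter]
  push_cast
  rfl

/-- find the third vertex -/
theorem exists_c {d : V → ℕ} {x y : Gr V} (hx : x ∈ Om d) (hy : y ∈ Om d) (U : Finset V) {v a b : V}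
    (hU : ∀ u ∈ U, ∀ w, x.adj u w = y.adj u w) (hva : v ≠ a) (hvb : v ≠ b) (hab : a ≠ b)
    (h1 : x.adj v a = true) (h2 : y.adj v a = false) (h3 : x.adj v b = false)
    (h4 : y.adj v b = true) :
    ∃ c, c ∉ U ∧ c ≠ v ∧ c ≠ a ∧ c ≠ b ∧
      ((x.adj b c = true ∧ x.adj a c = false) ∨ (y.adj a c = true ∧ y.adj b c = false)) := by
  by_contra hcon
  push Not at hcon
  simp only [Om, mem_filter, mem_univ, true_and] at hx hy
  -- the term
  let s : Gr V → V → V → ℤ := fun g p c => if g.adj p c = true then (1:ℤ) else 0
  let t : V → ℤ := fun c => (s x b c - s x a c) - (s y b c - s y a c)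
  have hsum : ∑ c, t c = 0 := by
    simp only [t, s, Finset.sum_sub_distrib, row_sum, hx, hy]
    ring
  have hsx : ∀ g : Gr V, ∀ p q, s g p q = s g q p := by
    intro g p q; simp only [s]; rw [g.symm]
  have hself : ∀ g : Gr V, ∀ p, s g p p = 0 := by
    intro g p; simp [s, g.irrefl]
  have htv : t v = -2 := by
    simp only [t]
    rw [hsx x b v, hsx x a v, hsx y b v, hsx y a v]
    simp [s, h1, h2, h3, h4]
  have htab : t a + t b = 0 := by
    simp only [t]
    rw [hself x a, hself y a, hself x b, hself y b, hsx x a b, hsx y a b]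
    ring
  have hother : ∀ c ∈ ((univ : Finset V).erase v).erase a |>.erase b, t c ≤ 0 := by
    intro c hc
    simp only [mem_erase, mem_univ, and_true] at hc
    obtain ⟨hcb, hca, hcv⟩ := hc
    by_cases hcU : c ∈ U
    · have e1 := hU c hcU a
      have e2 := hU c hcU b
      rw [x.symm c a, y.symm c a] at e1
      rw [x.symm c b, y.symm c b] at e2
      simp [t, s, e1, e2]
    · have := hcon c hcU hcv hca hcb
      have h5 : x.adj b c = true → x.adj a c = true := by
        intro h; by_contra h'; simp at h'; exact (this.1 h h')
      have h6 : y.adj a c = true → y.adj b c = true := by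
        intro h; by_contra h'; simp at h'; exact (this.2 h h')
      simp only [t, s]
      by_cases c1 : x.adj b c = true <;> by_cases c2 : x.adj a c = true <;>
        by_cases c3 : y.adj a c = true <;> by_cases c4 : y.adj b c = true <;>
        simp_all
  have hsplit : ∑ c, t c = t v + (t a + t b) + ∑ c ∈ (((univ : Finset V).erase v).erase a).erase b, t c := by
    have e1 := Finset.add_sum_erase univ t (mem_univ v)
    have e2 := Finset.add_sum_erase ((univ : Finset V).erase v) t
      (show a ∈ (univ : Finset V).erase v by simp [hva.symm])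
    have e3 := Finset.add_sum_erase (((univ : Finset V).erase v).erase a) t
      (show b ∈ ((univ : Finset V).erase v).erase a by simp [hvb.symm, hab.symm])
    linarith
  have hle : ∑ c ∈ (((univ : Finset V).erase v).erase a).erase b, t c ≤ 0 :=
    Finset.sum_nonpos hother
  rw [hsplit, htv, htab] at hsum
  linarith

/-- if two rows of the same degree differ there is a place of each kind -/
theorem exists_ab {d : V → ℕ} {x y : Gr V} (hx : x ∈ Om d) (hy : y ∈ Om d) {v w : V}
    (h : x.adj v w ≠ y.adj v w) :
    ∃ a b, x.adj v a = true ∧ y.adj v a = false ∧ x.adj v b = false ∧ y.adj v b = true := by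
  simp only [Om, mem_filter, mem_univ, true_and] at hx hy
  have hdeg : x.deg v = y.deg v := by rw [hx, hy]
  have hdz : (∑ c, ((if x.adj v c = true then (1:ℤ) else 0) - (if y.adj v c = true then (1:ℤ) else 0))) = 0 := by
    rw [Finset.sum_sub_distrib, row_sum, row_sum, hdeg]; ring
  have key1 : ∃ a, x.adj v a = true ∧ y.adj v a = false := by
    by_contra hcon
    push Not at hcon
    have hle : ∀ c ∈ (univ : Finset V), ((if x.adj v c = true then (1:ℤ) else 0) - (if y.adj v c = true then (1:ℤ) else 0)) ≤ 0 := by
      intro c _
      by_cases c1 : x.adj v c = true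
      · have := hcon c c1
        simp at this
        simp [c1, this]
      · by_cases c2 : y.adj v c = true <;> simp [c1, c2]
    have hzero := (Finset.sum_eq_zero_iff_of_nonpos hle).1 hdz w (mem_univ w)
    apply h
    by_cases c1 : x.adj v w = true <;> by_cases c2 : y.adj v w = true <;> simp_all
  have key2 : ∃ b, x.adj v b = false ∧ y.adj v b = true := by
    by_contra hcon
    push Not at hcon
    have hle : ∀ c ∈ (univ : Finset V), 0 ≤ ((if x.adj v c = true then (1:ℤ) else 0) - (if y.adj v c = true then (1:ℤ) else 0)) := by
      intro c _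
      by_cases c1 : y.adj v c = true
      · by_cases c2 : x.adj v c = true
        · simp [c1, c2]
        · have := hcon c (by simpa using c2)
          simp_all
      · by_cases c2 : x.adj v c = true <;> simp [c1, c2]
    have hzero := (Finset.sum_eq_zero_iff_of_nonneg hle).1 hdz w (mem_univ w)
    apply h
    by_cases c1 : x.adj v w = true <;> by_cases c2 : y.adj v w = true <;> simp_all
  obtain ⟨a, ha1, ha2⟩ := key1
  obtain ⟨b, hb1, hb2⟩ := key2
  exact ⟨a, b, ha1, ha2, hb1, hb2⟩

/-- The main induction. -/
theorem main_agree {d : V → ℕ} {f : Gr V → ℝ}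
    (hsw : ∀ x ∈ Om d, ∀ a b c e, Sw x a b c e → f (swp x a b c e) = f x) :
    ∀ (n : ℕ) (U : Finset V), Uᶜ.card = n → ∀ x ∈ Om d, ∀ y ∈ Om d,
      (∀ u ∈ U, ∀ w, x.adj u w = y.adj u w) → f x = f y := by
  intro n
  induction n with
  | zero =>
    intro U hU x _ y _ hxy
    have hU' : U = univ := by
      rw [Finset.card_eq_zero, Finset.compl_eq_empty_iff] at hU; exact hU
    have : x = y := by
      apply Gr.ext; funext u w; exact hxy u (by simp [hU']) w
    rw [this]
  | succ n ih =>
    intro U hU
    have hne : Uᶜ.Nonempty := by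
      rw [← Finset.card_pos]; omega
    obtain ⟨v, hv⟩ := hne
    have hvU : v ∉ U := by simpa using hv
    have hU2 : (insert v U)ᶜ.card = n := by
      rw [Finset.compl_insert, Finset.card_erase_of_mem hv, hU]; rfl
    -- inner induction
    have inner : ∀ (m : ℕ) (x y : Gr V), x ∈ Om d → y ∈ Om d → rowD x y v = m →
        (∀ u ∈ U, ∀ w, x.adj u w = y.adj u w) → f x = f y := by
      intro m
      induction m using Nat.strong_induction_on with
      | _ m ihm =>
        intro x y hx hy hm hxy
        by_cases hrow : ∀ w, x.adj v w = y.adj v w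
        · apply ih (insert v U) hU2 x hx y hy
          intro u hu w
          rcases Finset.mem_insert.1 hu with rfl | hu
          · exact hrow w
          · exact hxy u hu w
        · push Not at hrow
          obtain ⟨w, hw⟩ := hrow
          obtain ⟨a, b, h1, h2, h3, h4⟩ := exists_ab hx hy hw
          have hva : v ≠ a := by
            rintro rfl; rw [x.irrefl] at h1; exact absurd h1 (by simp)
          have hvb : v ≠ b := by
            rintro rfl; rw [y.irrefl] at h4; exact absurd h4 (by simp)
          have hab : a ≠ b := by
            rintro rfl; rw [h1] at h3; exact absurd h3 (by simp)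
          have haU : a ∉ U := by
            intro ha
            have := hxy a ha v
            rw [x.symm, y.symm, h1, h2] at this
            exact absurd this (by simp)
          have hbU : b ∉ U := by
            intro hb
            have := hxy b hb v
            rw [x.symm, y.symm, h3, h4] at this
            exact absurd this (by simp)
          obtain ⟨c, hcU, hcv, hca, hcb, hc⟩ := exists_c hx hy U hxy hva hvb hab h1 h2 h3 h4
          rcases hc with ⟨h5, h6⟩ | ⟨h5, h6⟩
          · -- switch in `x`
            have hS : Sw x v c a b := by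
              refine ⟨hcv.symm, hva, hvb, hca, hcb, hab, h1, ?_, h3, ?_⟩
              · rw [x.symm]; exact h5
              · rw [x.symm]; exact h6
            have hlt := rowD_swp_lt hS h2 h4
            have hx' := swp_mem_Om hx hS
            rw [← hsw x hx _ _ _ _ hS]
            refine ihm _ (by omega) _ _ hx' hy rfl ?_
            intro u hu w
            rw [swp_adj_of_mem_U (by rintro rfl; exact hvU hu) (by rintro rfl; exact hcU hu)
              (by rintro rfl; exact haU hu) (by rintro rfl; exact hbU hu)]
            exact hxy u hu w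
          · -- switch in `y`
            have hS : Sw y v c b a := by
              refine ⟨hcv.symm, hvb, hva, hcb, hca, hab.symm, h4, ?_, h2, ?_⟩
              · rw [y.symm]; exact h5
              · rw [y.symm]; exact h6
            have hlt := rowD_swp_lt hS h3 h1
            have hy' := swp_mem_Om hy hS
            rw [← hsw y hy _ _ _ _ hS]
            refine (ihm _ ?_ _ _ hy' hx rfl ?_).symm
            · rw [rowD_comm y x] at hlt; omega
            intro u hu w
            rw [swp_adj_of_mem_U (by rintro rfl; exact hvU hu) (by rintro rfl; exact hcU hu)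
              (by rintro rfl; exact hbU hu) (by rintro rfl; exact haU hu)]
            exact (hxy u hu w).symm
    intro x hx y hy hxy
    exact inner _ x y hx hy rfl hxy

end ConnectAux

open ConnectAux in
theorem connect : Connect := by
  intro V _ _ d f h x hx y hy
  have hsw : ∀ x ∈ Om d, ∀ a b c e, Sw x a b c e → f (swp x a b c e) = f x := by
    intro x hx a b c e hS
    exact const_of_key (h a b hS.1) hx (swp_mem_Om hx hS) (keyP_swp hS)
  exact main_agree hsw _ ∅ rfl x hx y hy (by simp)

end Crest.Agent.S0453Lib
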