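/-
S0453 W8: StepDisjoint from TwoBlockCross.
-/
import Mathlib
import Crest.Agent.S0453Lib.Spec

set_option autoImplicit false
set_option linter.unusedSectionVars false
open Finset

namespace Crest.Agent.S0453Lib

namespace FibDisjoint

variable {V : Type} [Fintype V] [DecidableEq V]

/-- the set of "other" vertices -/
def Zs (a b c e : V) : Finset V := univ \ {a, b, c, e}

lemma mem_Zs {a b c e z : V} : z ∈ Zs a b c e ↔ z ≠ a ∧ z ≠ b ∧ z ≠ c ∧ z ≠ e := by
  simp [Zs]

lemma deg_eq_sum (x : Gr V) (v : V) : x.deg v = ∑ u, (x.adj v u).toNat := by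
  unfold Gr.deg
  rw [Finset.card_filter]
  apply Finset.sum_congr rfl
  intro u _
  cases x.adj v u <;> simp

lemma sum_split {a b c e : V} (hab : a ≠ b) (hac : a ≠ c) (hae : a ≠ e) (hbc : b ≠ c)
    (hbe : b ≠ e) (hce : c ≠ e) (g : V → ℕ) :
    ∑ u, g u = g a + g b + g c + g e + ∑ u ∈ Zs a b c e, g u := by
  have h := Finset.sum_sdiff (f := g) (Finset.subset_univ ({a, b, c, e} : Finset V))
  rw [← h]
  have : ∑ u ∈ ({a, b, c, e} : Finset V), g u = g a + g b + g c + g e := by
    rw [Finset.sum_insert (by simp [hab, hac, hae]), Finset.sum_insert (by simp [hbc, hbe]),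
      Finset.sum_insert (by simp [hce]), Finset.sum_singleton]
    ring
  rw [this]
  simp only [Zs]
  ring

lemma deg_split {a b c e : V} (hab : a ≠ b) (hac : a ≠ c) (hae : a ≠ e) (hbc : b ≠ c)
    (hbe : b ≠ e) (hce : c ≠ e) (x : Gr V) (v : V) :
    x.deg v = (x.adj v a).toNat + (x.adj v b).toNat + (x.adj v c).toNat + (x.adj v e).toNat
      + ∑ u ∈ Zs a b c e, (x.adj v u).toNat := by
  rw [deg_eq_sum, sum_split hab hac hae hbc hbe hce]

/-- sector key -/
def sec (a b c e : V) (x : Gr V) : (V → V → Bool) × Bool × Bool × (V → ℕ) :=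
  (fun u v => if u ∈ Zs a b c e ∧ v ∈ Zs a b c e then x.adj u v else false,
   x.adj a b, x.adj c e,
   fun z => if z ∈ Zs a b c e then (x.adj a z).toNat + (x.adj b z).toNat else 0)

/-- facts extracted from equal sectors. -/
lemma sec_inner {a b c e : V} {x y : Gr V} (h : sec a b c e x = sec a b c e y) {u v : V}
    (hu : u ∈ Zs a b c e) (hv : v ∈ Zs a b c e) : x.adj u v = y.adj u v := by
  have := congrFun (congrFun (congrArg Prod.fst h) u) v
  simp only [sec] at this
  rwa [if_pos ⟨hu, hv⟩, if_pos ⟨hu, hv⟩] at this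

lemma sec_ab {a b c e : V} {x y : Gr V} (h : sec a b c e x = sec a b c e y) :
    x.adj a b = y.adj a b := congrArg (fun t => t.2.1) h

lemma sec_ce {a b c e : V} {x y : Gr V} (h : sec a b c e x = sec a b c e y) :
    x.adj c e = y.adj c e := congrArg (fun t => t.2.2.1) h

lemma sec_r {a b c e : V} {x y : Gr V} (h : sec a b c e x = sec a b c e y) {z : V}
    (hz : z ∈ Zs a b c e) :
    (x.adj a z).toNat + (x.adj b z).toNat = (y.adj a z).toNat + (y.adj b z).toNat := by
  have := congrFun (congrArg (fun t => t.2.2.2) h) z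
  simp only [sec] at this
  rwa [if_pos hz, if_pos hz] at this

lemma sec_mk {a b c e : V} {x y : Gr V}
    (h1 : ∀ u v, u ∈ Zs a b c e → v ∈ Zs a b c e → x.adj u v = y.adj u v)
    (h2 : x.adj a b = y.adj a b) (h3 : x.adj c e = y.adj c e)
    (h4 : ∀ z, z ∈ Zs a b c e →
      (x.adj a z).toNat + (x.adj b z).toNat = (y.adj a z).toNat + (y.adj b z).toNat) :
    sec a b c e x = sec a b c e y := by
  unfold sec
  refine Prod.ext ?_ (Prod.ext h2 (Prod.ext h3 ?_))
  · funext u v
    show (if u ∈ Zs a b c e ∧ v ∈ Zs a b c e then x.adj u v else false)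
      = (if u ∈ Zs a b c e ∧ v ∈ Zs a b c e then y.adj u v else false)
    by_cases h : u ∈ Zs a b c e ∧ v ∈ Zs a b c e
    · rw [if_pos h, if_pos h, h1 u v h.1 h.2]
    · rw [if_neg h, if_neg h]
  · funext z
    show (if z ∈ Zs a b c e then (x.adj a z).toNat + (x.adj b z).toNat else 0)
      = (if z ∈ Zs a b c e then (y.adj a z).toNat + (y.adj b z).toNat else 0)
    by_cases h : z ∈ Zs a b c e
    · rw [if_pos h, if_pos h, h4 z h]
    · rw [if_neg h, if_neg h]

/-- entries not blanked by `keyP a b` coincide -/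
lemma keyP_adj {a b : V} {x y : Gr V} (h : keyP a b x = keyP a b y) {u v : V}
    (huv : ¬ ((u = a ∨ u = b ∨ v = a ∨ v = b) ∧ ¬ ((u = a ∧ v = b) ∨ (u = b ∧ v = a)))) :
    x.adj u v = y.adj u v := by
  have := congrFun (congrFun h u) v
  simpa only [keyP, if_neg huv] using this

lemma keyP_eq_of {a b : V} {x y : Gr V}
    (h : ∀ u v, ¬ ((u = a ∨ u = b ∨ v = a ∨ v = b) ∧ ¬ ((u = a ∧ v = b) ∨ (u = b ∧ v = a))) →
      x.adj u v = y.adj u v) : keyP a b x = keyP a b y := by
  funext u v
  unfold keyP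
  by_cases huv : (u = a ∨ u = b ∨ v = a ∨ v = b) ∧ ¬ ((u = a ∧ v = b) ∨ (u = b ∧ v = a))
  · rw [if_pos huv, if_pos huv]
  · rw [if_neg huv, if_neg huv, h u v huv]

section Main

variable {a b c e : V} (hab : a ≠ b) (hac : a ≠ c) (hae : a ≠ e) (hbc : b ≠ c)
    (hbe : b ≠ e) (hce : c ≠ e)

include hac hae hbc hbe in
/-- `keyP c e` determines the sector. -/
lemma sec_of_keyCE {x y : Gr V} (h : keyP c e x = keyP c e y) :
    sec a b c e x = sec a b c e y := by
  apply sec_mk
  · intro u v hu hv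
    rw [mem_Zs] at hu hv
    exact keyP_adj h (by tauto)
  · exact keyP_adj h (by
      have := hac; have := hae; have := hbc; have := hbe; tauto)
  · exact keyP_adj h (by tauto)
  · intro z hz
    rw [mem_Zs] at hz
    have h1 : x.adj a z = y.adj a z := keyP_adj h (by
      have := hac; have := hae; tauto)
    have h2 : x.adj b z = y.adj b z := keyP_adj h (by
      have := hbc; have := hbe; tauto)
    rw [h1, h2]

include hab hac hae hbc hbe hce in
/-- `keyP a b` determines the sector on `Om d`. -/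
lemma sec_of_keyAB {d : V → ℕ} {x y : Gr V} (hx : x ∈ Om d) (hy : y ∈ Om d)
    (h : keyP a b x = keyP a b y) :
    sec a b c e x = sec a b c e y := by
  apply sec_mk
  · intro u v hu hv
    rw [mem_Zs] at hu hv
    exact keyP_adj h (by tauto)
  · exact keyP_adj h (by tauto)
  · exact keyP_adj h (by
      have := hac; have := hae; have := hbc; have := hbe; tauto)
  · intro z hz
    have hz' := hz
    rw [mem_Zs] at hz'
    have hdx : x.deg z = d z := (Finset.mem_filter.1 hx).2 z
    have hdy : y.deg z = d z := (Finset.mem_filter.1 hy).2 z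
    rw [deg_split hab hac hae hbc hbe hce] at hdx hdy
    have h1 : x.adj z c = y.adj z c := keyP_adj h (by
      have := hac; have := hbc; tauto)
    have h2 : x.adj z e = y.adj z e := keyP_adj h (by
      have := hae; have := hbe; tauto)
    have h3 : ∑ u ∈ Zs a b c e, (x.adj z u).toNat = ∑ u ∈ Zs a b c e, (y.adj z u).toNat := by
      apply Finset.sum_congr rfl
      intro u hu
      rw [mem_Zs] at hu
      have : x.adj z u = y.adj z u := keyP_adj h (by tauto)
      rw [this]
    rw [h1, h2, h3] at hdx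
    rw [x.symm a z, x.symm b z, y.symm a z, y.symm b z]
    omega

/-- `t(x)` the number of cross edges -/
def tt (a b c e : V) (x : Gr V) : ℕ :=
  (x.adj a c).toNat + (x.adj a e).toNat + (x.adj b c).toNat + (x.adj b e).toNat

include hab hac hae hbc hbe hce in
/-- `t` is constant on sectors. -/
lemma tt_eq_of_sec {d : V → ℕ} {x y : Gr V} (hx : x ∈ Om d) (hy : y ∈ Om d)
    (h : sec a b c e x = sec a b c e y) : tt a b c e x = tt a b c e y := by
  have hax : x.deg a = d a := (Finset.mem_filter.1 hx).2 a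
  have hay : y.deg a = d a := (Finset.mem_filter.1 hy).2 a
  have hbx : x.deg b = d b := (Finset.mem_filter.1 hx).2 b
  have hby : y.deg b = d b := (Finset.mem_filter.1 hy).2 b
  rw [deg_split hab hac hae hbc hbe hce] at hax hay hbx hby
  have h1 : x.adj a b = y.adj a b := sec_ab h
  have h2 : x.adj b a = y.adj b a := by rw [x.symm, y.symm, h1]
  have h3 : ∑ u ∈ Zs a b c e, (x.adj a u).toNat + ∑ u ∈ Zs a b c e, (x.adj b u).toNat
      = ∑ u ∈ Zs a b c e, (y.adj a u).toNat + ∑ u ∈ Zs a b c e, (y.adj b u).toNat := by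
    rw [← Finset.sum_add_distrib, ← Finset.sum_add_distrib]
    exact Finset.sum_congr rfl fun u hu => sec_r h hu
  simp only [x.irrefl, y.irrefl] at hax hay hbx hby
  rw [h1] at hax
  rw [h2] at hbx
  unfold tt
  simp only [Bool.toNat_false] at hax hay hbx hby
  omega

include hab hac hae hbc hbe hce in
lemma sa_of_keyCE {d : V → ℕ} {x y : Gr V} (hx : x ∈ Om d) (hy : y ∈ Om d)
    (h : keyP c e x = keyP c e y) :
    (x.adj a c).toNat + (x.adj a e).toNat = (y.adj a c).toNat + (y.adj a e).toNat := by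
  have hax : x.deg a = d a := (Finset.mem_filter.1 hx).2 a
  have hay : y.deg a = d a := (Finset.mem_filter.1 hy).2 a
  rw [deg_split hab hac hae hbc hbe hce] at hax hay
  have h1 : x.adj a b = y.adj a b := keyP_adj h (by tauto)
  have h3 : ∑ u ∈ Zs a b c e, (x.adj a u).toNat = ∑ u ∈ Zs a b c e, (y.adj a u).toNat := by
    apply Finset.sum_congr rfl
    intro u hu
    rw [mem_Zs] at hu
    have : x.adj a u = y.adj a u := keyP_adj h (by tauto)
    rw [this]
  simp only [x.irrefl, y.irrefl] at hax hay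
  rw [h1, h3] at hax
  omega

include hab hac hae hbc hbe hce in
lemma sb_of_keyCE {d : V → ℕ} {x y : Gr V} (hx : x ∈ Om d) (hy : y ∈ Om d)
    (h : keyP c e x = keyP c e y) :
    (x.adj b c).toNat + (x.adj b e).toNat = (y.adj b c).toNat + (y.adj b e).toNat := by
  have hax : x.deg b = d b := (Finset.mem_filter.1 hx).2 b
  have hay : y.deg b = d b := (Finset.mem_filter.1 hy).2 b
  rw [deg_split hab hac hae hbc hbe hce] at hax hay
  have h1 : x.adj b a = y.adj b a := keyP_adj h (by tauto)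
  have h3 : ∑ u ∈ Zs a b c e, (x.adj b u).toNat = ∑ u ∈ Zs a b c e, (y.adj b u).toNat := by
    apply Finset.sum_congr rfl
    intro u hu
    rw [mem_Zs] at hu
    have : x.adj b u = y.adj b u := keyP_adj h (by tauto)
    rw [this]
  simp only [x.irrefl, y.irrefl] at hax hay
  rw [h1, h3] at hax
  omega

include hab hac hae hbc hbe hce in
lemma sc_of_keyAB {d : V → ℕ} {x y : Gr V} (hx : x ∈ Om d) (hy : y ∈ Om d)
    (h : keyP a b x = keyP a b y) :
    (x.adj a c).toNat + (x.adj b c).toNat = (y.adj a c).toNat + (y.adj b c).toNat := by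
  have hax : x.deg c = d c := (Finset.mem_filter.1 hx).2 c
  have hay : y.deg c = d c := (Finset.mem_filter.1 hy).2 c
  rw [deg_split hab hac hae hbc hbe hce] at hax hay
  have h1 : x.adj c e = y.adj c e := keyP_adj h (by
    have := hac; have := hae; have := hbc; have := hbe; tauto)
  have h3 : ∑ u ∈ Zs a b c e, (x.adj c u).toNat = ∑ u ∈ Zs a b c e, (y.adj c u).toNat := by
    apply Finset.sum_congr rfl
    intro u hu
    rw [mem_Zs] at hu
    have : x.adj c u = y.adj c u := keyP_adj h (by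
      have := hac; have := hbc; tauto)
    rw [this]
  simp only [x.irrefl, y.irrefl] at hax hay
  rw [h1, h3, x.symm c a, x.symm c b] at hax
  rw [y.symm c a, y.symm c b] at hay
  omega

include hab hac hae hbc hbe hce in
lemma se_of_keyAB {d : V → ℕ} {x y : Gr V} (hx : x ∈ Om d) (hy : y ∈ Om d)
    (h : keyP a b x = keyP a b y) :
    (x.adj a e).toNat + (x.adj b e).toNat = (y.adj a e).toNat + (y.adj b e).toNat := by
  have hax : x.deg e = d e := (Finset.mem_filter.1 hx).2 e
  have hay : y.deg e = d e := (Finset.mem_filter.1 hy).2 e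
  rw [deg_split hab hac hae hbc hbe hce] at hax hay
  have h1 : x.adj e c = y.adj e c := keyP_adj h (by
    have := hac; have := hae; have := hbc; have := hbe; tauto)
  have h3 : ∑ u ∈ Zs a b c e, (x.adj e u).toNat = ∑ u ∈ Zs a b c e, (y.adj e u).toNat := by
    apply Finset.sum_congr rfl
    intro u hu
    rw [mem_Zs] at hu
    have : x.adj e u = y.adj e u := keyP_adj h (by
      have := hae; have := hbe; tauto)
    rw [this]
  simp only [x.irrefl, y.irrefl] at hax hay
  rw [h1, h3, x.symm e a, x.symm e b] at hax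
  rw [y.symm e a, y.symm e b] at hay
  omega


/-! ### Gluing -/

/-- adjacency of the glued graph -/
def gAdj (a b c e : V) (x y : Gr V) (p q r w : Bool) (u v : V) : Bool :=
  if (u = a ∧ v = c) ∨ (u = c ∧ v = a) then p
  else if (u = a ∧ v = e) ∨ (u = e ∧ v = a) then q
  else if (u = b ∧ v = c) ∨ (u = c ∧ v = b) then r
  else if (u = b ∧ v = e) ∨ (u = e ∧ v = b) then w
  else if u = c ∨ u = e ∨ v = c ∨ v = e then y.adj u v
  else x.adj u v

omit hab hac hae hbc hbe hce in
lemma pair_symm (u v a c : V) :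
    ((u = a ∧ v = c) ∨ (u = c ∧ v = a)) ↔ ((v = a ∧ u = c) ∨ (v = c ∧ u = a)) := by
  constructor
  · rintro (⟨h1, h2⟩ | ⟨h1, h2⟩)
    · exact Or.inr ⟨h2, h1⟩
    · exact Or.inl ⟨h2, h1⟩
  · rintro (⟨h1, h2⟩ | ⟨h1, h2⟩)
    · exact Or.inr ⟨h2, h1⟩
    · exact Or.inl ⟨h2, h1⟩

lemma gAdj_symm (x y : Gr V) (p q r w : Bool) (u v : V) :
    gAdj a b c e x y p q r w u v = gAdj a b c e x y p q r w v u := by
  unfold gAdj
  have h5 : (u = c ∨ u = e ∨ v = c ∨ v = e) ↔ (v = c ∨ v = e ∨ u = c ∨ u = e) := by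
    constructor
    · rintro (h | h | h | h)
      · exact Or.inr (Or.inr (Or.inl h))
      · exact Or.inr (Or.inr (Or.inr h))
      · exact Or.inl h
      · exact Or.inr (Or.inl h)
    · rintro (h | h | h | h)
      · exact Or.inr (Or.inr (Or.inl h))
      · exact Or.inr (Or.inr (Or.inr h))
      · exact Or.inl h
      · exact Or.inr (Or.inl h)
  simp only [pair_symm u v a c, pair_symm u v a e, pair_symm u v b c, pair_symm u v b e, h5,
    x.symm u v, y.symm u v]

include hac hae hbc hbe in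
lemma gAdj_irrefl (x y : Gr V) (p q r w : Bool) (u : V) :
    gAdj a b c e x y p q r w u u = false := by
  unfold gAdj
  have h1 : ¬ ((u = a ∧ u = c) ∨ (u = c ∧ u = a)) := by
    rintro (⟨h, h'⟩ | ⟨h, h'⟩) <;> subst_vars <;> simp_all
  have h2 : ¬ ((u = a ∧ u = e) ∨ (u = e ∧ u = a)) := by
    rintro (⟨h, h'⟩ | ⟨h, h'⟩) <;> subst_vars <;> simp_all
  have h3 : ¬ ((u = b ∧ u = c) ∨ (u = c ∧ u = b)) := by
    rintro (⟨h, h'⟩ | ⟨h, h'⟩) <;> subst_vars <;> simp_all
  have h4 : ¬ ((u = b ∧ u = e) ∨ (u = e ∧ u = b)) := by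
    rintro (⟨h, h'⟩ | ⟨h, h'⟩) <;> subst_vars <;> simp_all
  rw [if_neg h1, if_neg h2, if_neg h3, if_neg h4]
  split_ifs
  · exact y.irrefl u
  · exact x.irrefl u

/-- the glued graph -/
def glue (hac : a ≠ c) (hae : a ≠ e) (hbc : b ≠ c) (hbe : b ≠ e)
    (x y : Gr V) (p q r w : Bool) : Gr V where
  adj := gAdj a b c e x y p q r w
  symm := gAdj_symm x y p q r w
  irrefl := gAdj_irrefl hac hae hbc hbe x y p q r w

lemma glue_adj (x y : Gr V) (p q r w : Bool) (u v : V) :
    (glue hac hae hbc hbe x y p q r w).adj u v = gAdj a b c e x y p q r w u v := rfl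

include hab hac hae hbc hbe hce in
lemma gAdj_ac (x y : Gr V) (p q r w : Bool) : gAdj a b c e x y p q r w a c = p := by
  simp [gAdj]

include hab hac hae hbc hbe hce in
lemma gAdj_ae (x y : Gr V) (p q r w : Bool) : gAdj a b c e x y p q r w a e = q := by
  simp [gAdj, hac, hab, Ne.symm hac, Ne.symm hae, Ne.symm hce, hce]

include hab hac hae hbc hbe hce in
lemma gAdj_bc (x y : Gr V) (p q r w : Bool) : gAdj a b c e x y p q r w b c = r := by
  simp [gAdj, Ne.symm hab, hab, Ne.symm hbc, Ne.symm hac]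

include hab hac hae hbc hbe hce in
lemma gAdj_be (x y : Gr V) (p q r w : Bool) : gAdj a b c e x y p q r w b e = w := by
  simp [gAdj, Ne.symm hab, hab, Ne.symm hbc, Ne.symm hac, Ne.symm hae, hce, Ne.symm hbe,
    Ne.symm hce]

/-- outside the cross pairs, pairs meeting `{c,e}` come from `y` -/
lemma gAdj_y (x y : Gr V) (p q r w : Bool) {u v : V}
    (h0 : ¬ ((u = a ∨ u = b) ∧ (v = c ∨ v = e))) (h0' : ¬ ((u = c ∨ u = e) ∧ (v = a ∨ v = b)))
    (h1 : u = c ∨ u = e ∨ v = c ∨ v = e) :
    gAdj a b c e x y p q r w u v = y.adj u v := by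
  unfold gAdj
  rw [if_neg (by
      rintro (⟨h, h'⟩ | ⟨h, h'⟩)
      · exact h0 ⟨Or.inl h, Or.inl h'⟩
      · exact h0' ⟨Or.inl h, Or.inl h'⟩),
    if_neg (by
      rintro (⟨h, h'⟩ | ⟨h, h'⟩)
      · exact h0 ⟨Or.inl h, Or.inr h'⟩
      · exact h0' ⟨Or.inr h, Or.inl h'⟩),
    if_neg (by
      rintro (⟨h, h'⟩ | ⟨h, h'⟩)
      · exact h0 ⟨Or.inr h, Or.inl h'⟩
      · exact h0' ⟨Or.inl h, Or.inr h'⟩),
    if_neg (by
      rintro (⟨h, h'⟩ | ⟨h, h'⟩)
      · exact h0 ⟨Or.inr h, Or.inr h'⟩
      · exact h0' ⟨Or.inr h, Or.inr h'⟩),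
    if_pos h1]

/-- pairs not meeting `{c,e}` come from `x` -/
lemma gAdj_x (x y : Gr V) (p q r w : Bool) {u v : V}
    (h1 : ¬ (u = c ∨ u = e ∨ v = c ∨ v = e)) :
    gAdj a b c e x y p q r w u v = x.adj u v := by
  unfold gAdj
  simp only [not_or] at h1
  rw [if_neg (by rintro (⟨h, h'⟩ | ⟨h, h'⟩); exact h1.2.2.1 h'; exact h1.1 h),
    if_neg (by rintro (⟨h, h'⟩ | ⟨h, h'⟩); exact h1.2.2.2 h'; exact h1.2.1 h),
    if_neg (by rintro (⟨h, h'⟩ | ⟨h, h'⟩); exact h1.2.2.1 h'; exact h1.1 h),
    if_neg (by rintro (⟨h, h'⟩ | ⟨h, h'⟩); exact h1.2.2.2 h'; exact h1.2.1 h),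
    if_neg (by
      rintro (h | h | h | h)
      · exact h1.1 h
      · exact h1.2.1 h
      · exact h1.2.2.1 h
      · exact h1.2.2.2 h)]

include hab hac hae hbc hbe hce in
lemma glue_keyCE {x y : Gr V} (hs : sec a b c e x = sec a b c e y) (p q r w : Bool) :
    keyP c e (glue hac hae hbc hbe x y p q r w) = keyP c e x := by
  apply keyP_eq_of
  intro u v huv
  rw [glue_adj]
  by_cases h1 : u = c ∨ u = e ∨ v = c ∨ v = e
  · -- then `u,v` is the pair `ce`
    have h2 : (u = c ∧ v = e) ∨ (u = e ∧ v = c) := by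
      by_contra h2
      exact huv ⟨h1, h2⟩
    rcases h2 with ⟨hu, hv⟩ | ⟨hu, hv⟩
    · rw [hu, hv, gAdj_y (h0 := by
        rintro ⟨h | h, _⟩
        · exact hac h.symm
        · exact hbc h.symm) (h0' := by
        rintro ⟨_, h | h⟩
        · exact hae h.symm
        · exact hbe h.symm) (h1 := Or.inl rfl)]
      exact (sec_ce hs).symm
    · rw [hu, hv, gAdj_y (h0 := by
        rintro ⟨h | h, _⟩
        · exact hae h.symm
        · exact hbe h.symm) (h0' := by
        rintro ⟨_, h | h⟩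
        · exact hac h.symm
        · exact hbc h.symm) (h1 := Or.inr (Or.inl rfl))]
      rw [y.symm, x.symm]
      exact (sec_ce hs).symm
  · exact gAdj_x x y p q r w h1

include hab hac hae hbc hbe hce in
lemma glue_keyAB {x y : Gr V} (hs : sec a b c e x = sec a b c e y) (p q r w : Bool) :
    keyP a b (glue hac hae hbc hbe x y p q r w) = keyP a b y := by
  apply keyP_eq_of
  intro u v huv
  rw [glue_adj]
  by_cases h1 : u = c ∨ u = e ∨ v = c ∨ v = e
  · apply gAdj_y x y p q r w (h1 := h1)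
    · rintro ⟨hu, hv⟩
      refine huv ⟨?_, ?_⟩
      · rcases hu with hu | hu
        · exact Or.inl hu
        · exact Or.inr (Or.inl hu)
      · rintro (⟨_, h⟩ | ⟨_, h⟩) <;> rcases hv with hv | hv <;> rw [h] at hv
        · exact hbc hv
        · exact hbe hv
        · exact hac hv
        · exact hae hv
    · rintro ⟨hu, hv⟩
      refine huv ⟨?_, ?_⟩
      · rcases hv with hv | hv
        · exact Or.inr (Or.inr (Or.inl hv))
        · exact Or.inr (Or.inr (Or.inr hv))
      · rintro (⟨h, _⟩ | ⟨h, _⟩) <;> rcases hu with hu | hu <;> rw [h] at hu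
        · exact hac hu
        · exact hae hu
        · exact hbc hu
        · exact hbe hu
  · rw [gAdj_x x y p q r w h1]
    by_cases h2 : (u = a ∧ v = b) ∨ (u = b ∧ v = a)
    · rcases h2 with ⟨hu, hv⟩ | ⟨hu, hv⟩
      · rw [hu, hv]; exact sec_ab hs
      · rw [hu, hv, x.symm, y.symm]; exact sec_ab hs
    · simp only [not_or] at h1
      have h3 : ¬ (u = a ∨ u = b ∨ v = a ∨ v = b) := fun h => huv ⟨h, h2⟩
      simp only [not_or] at h3
      apply sec_inner hs
      · rw [mem_Zs]; exact ⟨h3.1, h3.2.1, h1.1, h1.2.1⟩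
      · rw [mem_Zs]; exact ⟨h3.2.2.1, h3.2.2.2, h1.2.2.1, h1.2.2.2⟩

include hab hac hae hbc hbe hce in
lemma glue_mem {d : V → ℕ} {x y : Gr V} (hx : x ∈ Om d) (hy : y ∈ Om d)
    (hs : sec a b c e x = sec a b c e y) (p q r w : Bool)
    (m1 : p.toNat + q.toNat = (x.adj a c).toNat + (x.adj a e).toNat)
    (m2 : r.toNat + w.toNat = (x.adj b c).toNat + (x.adj b e).toNat)
    (m3 : p.toNat + r.toNat = (y.adj a c).toNat + (y.adj b c).toNat)
    (m4 : q.toNat + w.toNat = (y.adj a e).toNat + (y.adj b e).toNat) :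
    glue hac hae hbc hbe x y p q r w ∈ Om d := by
  refine Finset.mem_filter.2 ⟨Finset.mem_univ _, fun v => ?_⟩
  have hdx : x.deg v = d v := (Finset.mem_filter.1 hx).2 v
  have hdy : y.deg v = d v := (Finset.mem_filter.1 hy).2 v
  set g := glue hac hae hbc hbe x y p q r w with hg
  have gac : g.adj a c = p := gAdj_ac hab hac hae hbc hbe hce x y p q r w
  have gae : g.adj a e = q := gAdj_ae hab hac hae hbc hbe hce x y p q r w
  have gbc : g.adj b c = r := gAdj_bc hab hac hae hbc hbe hce x y p q r w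
  have gbe : g.adj b e = w := gAdj_be hab hac hae hbc hbe hce x y p q r w
  have kCE : keyP c e g = keyP c e x := glue_keyCE hab hac hae hbc hbe hce hs p q r w
  have kAB : keyP a b g = keyP a b y := glue_keyAB hab hac hae hbc hbe hce hs p q r w
  rw [deg_split hab hac hae hbc hbe hce] at hdx hdy ⊢
  have hZ : ∀ v' u, v' ∉ ({c, e} : Finset V) → u ∈ Zs a b c e → g.adj v' u = x.adj v' u := by
    intro v' u hv' hu
    rw [mem_Zs] at hu
    simp only [Finset.mem_insert, Finset.mem_singleton, not_or] at hv'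
    exact keyP_adj kCE (by tauto)
  have hZ' : ∀ v' u, v' ∉ ({a, b} : Finset V) → u ∈ Zs a b c e → g.adj v' u = y.adj v' u := by
    intro v' u hv' hu
    rw [mem_Zs] at hu
    simp only [Finset.mem_insert, Finset.mem_singleton, not_or] at hv'
    exact keyP_adj kAB (by tauto)
  by_cases hva : v = a
  · subst hva
    rw [Finset.sum_congr rfl (fun u hu => by
      rw [hZ v u (by simp [hac, hae]) hu])]
    have gb : g.adj v b = x.adj v b := keyP_adj kCE (by
      have := hac; have := hae; have := hbc; have := hbe; tauto)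
    simp only [g.irrefl, x.irrefl] at hdx ⊢
    rw [gb, gac, gae]
    omega
  by_cases hvb : v = b
  · subst hvb
    rw [Finset.sum_congr rfl (fun u hu => by
      rw [hZ v u (by simp [hbc, hbe]) hu])]
    have gb : g.adj v a = x.adj v a := keyP_adj kCE (by
      have := hac; have := hae; have := hbc; have := hbe; tauto)
    simp only [g.irrefl, x.irrefl] at hdx ⊢
    rw [gb, gbc, gbe]
    omega
  by_cases hvc : v = c
  · subst hvc
    rw [Finset.sum_congr rfl (fun u hu => by
      rw [hZ' v u (by simp [Ne.symm hac, Ne.symm hbc]) hu])]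
    have gb : g.adj v e = y.adj v e := keyP_adj kAB (by
      have := hac; have := hae; have := hbc; have := hbe; tauto)
    simp only [g.irrefl, y.irrefl] at hdy ⊢
    rw [gb, g.symm v a, g.symm v b, gac, gbc]
    rw [y.symm v a, y.symm v b] at hdy
    omega
  by_cases hve : v = e
  · subst hve
    rw [Finset.sum_congr rfl (fun u hu => by
      rw [hZ' v u (by simp [Ne.symm hae, Ne.symm hbe]) hu])]
    have gb : g.adj v c = y.adj v c := keyP_adj kAB (by
      have := hac; have := hae; have := hbc; have := hbe; tauto)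
    simp only [g.irrefl, y.irrefl] at hdy ⊢
    rw [gb, g.symm v a, g.symm v b, gae, gbe]
    rw [y.symm v a, y.symm v b] at hdy
    omega
  -- `v` is in `Z`
  have hvZ : v ∈ Zs a b c e := mem_Zs.2 ⟨hva, hvb, hvc, hve⟩
  rw [Finset.sum_congr rfl (fun u hu => by
    rw [hZ v u (by simp [hvc, hve]) hu])]
  have g1 : g.adj v a = x.adj v a := keyP_adj kCE (by tauto)
  have g2 : g.adj v b = x.adj v b := keyP_adj kCE (by tauto)
  have g3 : g.adj v c = y.adj v c := keyP_adj kAB (by
    have := hac; have := hbc; tauto)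
  have g4 : g.adj v e = y.adj v e := keyP_adj kAB (by
    have := hae; have := hbe; tauto)
  have hr := sec_r hs hvZ
  have hsum : ∑ u ∈ Zs a b c e, (x.adj v u).toNat = ∑ u ∈ Zs a b c e, (y.adj v u).toNat := by
    apply Finset.sum_congr rfl
    intro u hu
    rw [sec_inner hs hvZ hu]
  rw [x.symm a v, x.symm b v, y.symm a v, y.symm b v] at hr
  rw [g1, g2, g3, g4]
  rw [hsum] at hdx ⊢
  omega

/-- the set of admissible cross patterns -/
def Yset (x1 x2 x3 x4 y1 y2 y3 y4 : Bool) : Finset (Bool × Bool × Bool × Bool) :=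
  Finset.univ.filter fun Y =>
    Y.1.toNat + Y.2.1.toNat = x1.toNat + x2.toNat ∧
    Y.2.2.1.toNat + Y.2.2.2.toNat = x3.toNat + x4.toNat ∧
    Y.1.toNat + Y.2.2.1.toNat = y1.toNat + y3.toNat ∧
    Y.2.1.toNat + Y.2.2.2.toNat = y2.toNat + y4.toNat

lemma Yset_card_ne2 : ∀ x1 x2 x3 x4 y1 y2 y3 y4 : Bool,
    x1.toNat + x2.toNat + x3.toNat + x4.toNat = y1.toNat + y2.toNat + y3.toNat + y4.toNat →
    x1.toNat + x2.toNat + x3.toNat + x4.toNat ≠ 2 →
    (Yset x1 x2 x3 x4 y1 y2 y3 y4).card = 1 := by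
  decide

lemma Yset_card_eq2 : ∀ x1 x2 x3 x4 y1 y2 y3 y4 : Bool,
    x1.toNat + x2.toNat + x3.toNat + x4.toNat = 2 →
    y1.toNat + y2.toNat + y3.toNat + y4.toNat = 2 →
    (Yset x1 x2 x3 x4 y1 y2 y3 y4).card
      = (if x1 ≠ x2 then 1 else 0) + (if y1 ≠ y3 then 1 else 0) := by
  decide


lemma prop_cross {A B C D A' B' C' D' : Prop} (n1 : C → ¬A) (n2 : C → ¬B) (n3 : D → ¬A)
    (n4 : D → ¬B) (n5 : C' → ¬A') (n6 : C' → ¬B') (n7 : D' → ¬A') (n8 : D' → ¬B')
    (b1 : C ∨ D ∨ C' ∨ D') (b2 : A ∨ B ∨ A' ∨ B') :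
    ((A ∨ B) ∧ (C' ∨ D')) ∨ ((A' ∨ B') ∧ (C ∨ D)) := by
  rcases b1 with h | h | h | h
  · rcases b2 with h' | h' | h' | h'
    · exact absurd h' (n1 h)
    · exact absurd h' (n2 h)
    · exact Or.inr ⟨Or.inl h', Or.inl h⟩
    · exact Or.inr ⟨Or.inr h', Or.inl h⟩
  · rcases b2 with h' | h' | h' | h'
    · exact absurd h' (n3 h)
    · exact absurd h' (n4 h)
    · exact Or.inr ⟨Or.inl h', Or.inr h⟩
    · exact Or.inr ⟨Or.inr h', Or.inr h⟩
  · rcases b2 with h' | h' | h' | h'
    · exact Or.inl ⟨Or.inl h', Or.inl h⟩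
    · exact Or.inl ⟨Or.inr h', Or.inl h⟩
    · exact absurd h' (n5 h)
    · exact absurd h' (n6 h)
  · rcases b2 with h' | h' | h' | h'
    · exact Or.inl ⟨Or.inl h', Or.inr h⟩
    · exact Or.inl ⟨Or.inr h', Or.inr h⟩
    · exact absurd h' (n7 h)
    · exact absurd h' (n8 h)

include hac hae hbc hbe in
lemma cross_cases {u v : V} (b1 : u = c ∨ u = e ∨ v = c ∨ v = e)
    (b2 : u = a ∨ u = b ∨ v = a ∨ v = b) :
    ((u = a ∨ u = b) ∧ (v = c ∨ v = e)) ∨ ((v = a ∨ v = b) ∧ (u = c ∨ u = e)) := by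
  apply prop_cross _ _ _ _ _ _ _ _ b1 b2
  · intro h h'; exact hac (h'.symm.trans h)
  · intro h h'; exact hbc (h'.symm.trans h)
  · intro h h'; exact hae (h'.symm.trans h)
  · intro h h'; exact hbe (h'.symm.trans h)
  · intro h h'; exact hac (h'.symm.trans h)
  · intro h h'; exact hbc (h'.symm.trans h)
  · intro h h'; exact hae (h'.symm.trans h)
  · intro h h'; exact hbe (h'.symm.trans h)

include hab hac hae hbc hbe hce in
lemma card_fil {d : V → ℕ} {x y : Gr V} (hx : x ∈ Om d) (hy : y ∈ Om d)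
    {s : (V → V → Bool) × Bool × Bool × (V → ℕ)}
    (hxs : sec a b c e x = s) (hys : sec a b c e y = s) :
    (((Om d).filter fun z => sec a b c e z = s).filter fun z =>
        keyP c e z = keyP c e x ∧ keyP a b z = keyP a b y).card
      = (Yset (x.adj a c) (x.adj a e) (x.adj b c) (x.adj b e)
              (y.adj a c) (y.adj a e) (y.adj b c) (y.adj b e)).card := by
  have hs : sec a b c e x = sec a b c e y := hxs.trans hys.symm
  apply Finset.card_bij (fun z _ => (z.adj a c, z.adj a e, z.adj b c, z.adj b e))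
  · intro z hz
    simp only [Finset.mem_filter] at hz
    obtain ⟨⟨hzO, hzs⟩, hk1, hk2⟩ := hz
    simp only [Yset, Finset.mem_filter, Finset.mem_univ, true_and]
    exact ⟨sa_of_keyCE hab hac hae hbc hbe hce hzO hx hk1,
      sb_of_keyCE hab hac hae hbc hbe hce hzO hx hk1,
      sc_of_keyAB hab hac hae hbc hbe hce hzO hy hk2,
      se_of_keyAB hab hac hae hbc hbe hce hzO hy hk2⟩
  · intro z hz z' hz' he
    simp only [Finset.mem_filter] at hz hz'
    obtain ⟨⟨hzO, hzs⟩, hk1, hk2⟩ := hz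
    obtain ⟨⟨hzO', hzs'⟩, hk1', hk2'⟩ := hz'
    simp only [Prod.mk.injEq] at he
    obtain ⟨e1, e2, e3, e4⟩ := he
    have k1 : keyP c e z = keyP c e z' := hk1.trans hk1'.symm
    have k2 : keyP a b z = keyP a b z' := hk2.trans hk2'.symm
    have key : ∀ u v, (u = a ∨ u = b) → (v = c ∨ v = e) → z.adj u v = z'.adj u v := by
      intro u v hu hv
      rcases hu with hu | hu <;> rcases hv with hv | hv <;> rw [hu, hv]
      · exact e1
      · exact e2
      · exact e3
      · exact e4
    apply Gr.ext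
    funext u v
    by_cases b1 : (u = c ∨ u = e ∨ v = c ∨ v = e) ∧ ¬ ((u = c ∧ v = e) ∨ (u = e ∧ v = c))
    · by_cases b2 : (u = a ∨ u = b ∨ v = a ∨ v = b) ∧ ¬ ((u = a ∧ v = b) ∨ (u = b ∧ v = a))
      · rcases cross_cases hac hae hbc hbe b1.1 b2.1 with ⟨h1, h2⟩ | ⟨h1, h2⟩
        · exact key u v h1 h2
        · rw [z.symm, z'.symm]; exact key v u h1 h2
      · exact keyP_adj k2 b2
    · exact keyP_adj k1 b1
  · rintro ⟨p, q, r, w⟩ hY
    simp only [Yset, Finset.mem_filter, Finset.mem_univ, true_and] at hY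
    obtain ⟨m1, m2, m3, m4⟩ := hY
    refine ⟨glue hac hae hbc hbe x y p q r w, ?_, ?_⟩
    · simp only [Finset.mem_filter]
      refine ⟨⟨glue_mem hab hac hae hbc hbe hce hx hy hs p q r w m1 m2 m3 m4, ?_⟩,
        glue_keyCE hab hac hae hbc hbe hce hs p q r w,
        glue_keyAB hab hac hae hbc hbe hce hs p q r w⟩
      rw [← hxs]
      exact sec_of_keyCE hac hae hbc hbe (glue_keyCE hab hac hae hbc hbe hce hs p q r w)
    · show ((glue hac hae hbc hbe x y p q r w).adj a c,
        (glue hac hae hbc hbe x y p q r w).adj a e,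
        (glue hac hae hbc hbe x y p q r w).adj b c,
        (glue hac hae hbc hbe x y p q r w).adj b e) = (p, q, r, w)
      rw [glue_adj, glue_adj, glue_adj, glue_adj,
        gAdj_ac hab hac hae hbc hbe hce, gAdj_ae hab hac hae hbc hbe hce,
        gAdj_bc hab hac hae hbc hbe hce, gAdj_be hab hac hae hbc hbe hce]

/-! ### The switch -/

omit hab hac hae hbc hbe hce in
lemma tog_form {u v : V} (h : togP a b c e u v) :
    ((u = a ∨ u = b) ∧ (v = c ∨ v = e)) ∨ ((u = c ∨ u = e) ∧ (v = a ∨ v = b)) := by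
  unfold togP at h
  rcases h with ⟨h1, h2⟩ | ⟨h1, h2⟩ | ⟨h1, h2⟩ | ⟨h1, h2⟩ | ⟨h1, h2⟩ | ⟨h1, h2⟩ | ⟨h1, h2⟩ | ⟨h1, h2⟩
  · exact Or.inl ⟨Or.inl h1, Or.inl h2⟩
  · exact Or.inr ⟨Or.inl h1, Or.inl h2⟩
  · exact Or.inl ⟨Or.inr h1, Or.inr h2⟩
  · exact Or.inr ⟨Or.inr h1, Or.inr h2⟩
  · exact Or.inl ⟨Or.inl h1, Or.inr h2⟩
  · exact Or.inr ⟨Or.inr h1, Or.inl h2⟩
  · exact Or.inl ⟨Or.inr h1, Or.inl h2⟩
  · exact Or.inr ⟨Or.inl h1, Or.inr h2⟩

omit hab hac hae hbc hbe hce in
lemma swp_of_not_tog (x : Gr V) {u v : V} (h : ¬ togP a b c e u v) :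
    (swp x a b c e).adj u v = x.adj u v := by
  show (if u ≠ v ∧ togP a b c e u v then !(x.adj u v) else x.adj u v) = x.adj u v
  rw [if_neg (fun h' => h h'.2)]

omit hab hac hae hbc hbe hce in
lemma swp_of_tog (x : Gr V) {u v : V} (h : togP a b c e u v) (huv : u ≠ v) :
    (swp x a b c e).adj u v = !(x.adj u v) := by
  show (if u ≠ v ∧ togP a b c e u v then !(x.adj u v) else x.adj u v) = !(x.adj u v)
  rw [if_pos ⟨huv, h⟩]

include hac hae hbc hbe in
lemma swp_keyCE (x : Gr V) : keyP c e (swp x a b c e) = keyP c e x := by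
  apply keyP_eq_of
  intro u v huv
  apply swp_of_not_tog
  intro ht
  apply huv
  rcases tog_form ht with ⟨h1, h2⟩ | ⟨h1, h2⟩
  · refine ⟨Or.inr (Or.inr h2), ?_⟩
    rintro (⟨h3, h4⟩ | ⟨h3, h4⟩) <;> rcases h1 with h1 | h1 <;> rw [h3] at h1
    · exact hac h1.symm
    · exact hbc h1.symm
    · exact hae h1.symm
    · exact hbe h1.symm
  · refine ⟨Or.elim h1 Or.inl (fun h => Or.inr (Or.inl h)), ?_⟩
    rintro (⟨h3, h4⟩ | ⟨h3, h4⟩) <;> rcases h2 with h2 | h2 <;> rw [h4] at h2
    · exact hae h2.symm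
    · exact hbe h2.symm
    · exact hac h2.symm
    · exact hbc h2.symm

include hac hae hbc hbe in
lemma swp_keyAB (x : Gr V) : keyP a b (swp x a b c e) = keyP a b x := by
  apply keyP_eq_of
  intro u v huv
  apply swp_of_not_tog
  intro ht
  apply huv
  rcases tog_form ht with ⟨h1, h2⟩ | ⟨h1, h2⟩
  · refine ⟨Or.elim h1 Or.inl (fun h => Or.inr (Or.inl h)), ?_⟩
    rintro (⟨h3, h4⟩ | ⟨h3, h4⟩) <;> rcases h2 with h2 | h2 <;> rw [h4] at h2
    · exact hbc h2
    · exact hbe h2
    · exact hac h2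
    · exact hae h2
  · refine ⟨Or.inr (Or.inr h2), ?_⟩
    rintro (⟨h3, h4⟩ | ⟨h3, h4⟩) <;> rcases h1 with h1 | h1 <;> rw [h3] at h1
    · exact hac h1
    · exact hae h1
    · exact hbc h1
    · exact hbe h1

include hab hac hae hbc hbe hce in
lemma swp_mem {d : V → ℕ} {x : Gr V} (hx : x ∈ Om d) (hsw : Sw x a b c e) :
    swp x a b c e ∈ Om d := by
  refine Finset.mem_filter.2 ⟨Finset.mem_univ _, fun v => ?_⟩
  have hdx : x.deg v = d v := (Finset.mem_filter.1 hx).2 v
  obtain ⟨_, _, _, _, _, _, s1, s2, s3, s4⟩ := hsw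
  set g := swp x a b c e with hg
  rw [deg_split hab hac hae hbc hbe hce] at hdx ⊢
  have gac : g.adj a c = false := by
    rw [hg, swp_of_tog x (Or.inl ⟨rfl, rfl⟩) hac, s1]; rfl
  have gae : g.adj a e = true := by
    rw [hg, swp_of_tog x (Or.inr (Or.inr (Or.inr (Or.inr (Or.inl ⟨rfl, rfl⟩))))) hae, s3]; rfl
  have gbc : g.adj b c = true := by
    rw [hg, swp_of_tog x (Or.inr (Or.inr (Or.inr (Or.inr (Or.inr (Or.inr (Or.inl ⟨rfl, rfl⟩)))))))
      hbc, s4]; rfl
  have gbe : g.adj b e = false := by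
    rw [hg, swp_of_tog x (Or.inr (Or.inr (Or.inl ⟨rfl, rfl⟩))) hbe, s2]; rfl
  have gab : g.adj a b = x.adj a b := by
    apply swp_of_not_tog; intro ht
    rcases tog_form ht with ⟨_, h2⟩ | ⟨h1, _⟩
    · rcases h2 with h2 | h2
      · exact hbc h2
      · exact hbe h2
    · rcases h1 with h1 | h1
      · exact hac h1
      · exact hae h1
  have gce : g.adj c e = x.adj c e := by
    apply swp_of_not_tog; intro ht
    rcases tog_form ht with ⟨h1, _⟩ | ⟨_, h2⟩
    · rcases h1 with h1 | h1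
      · exact hac h1.symm
      · exact hbc h1.symm
    · rcases h2 with h2 | h2
      · exact hae h2.symm
      · exact hbe h2.symm
  have gZ : ∀ w u, u ∈ Zs a b c e → g.adj w u = x.adj w u := by
    intro w u hu
    rw [mem_Zs] at hu
    apply swp_of_not_tog; intro ht
    rcases tog_form ht with ⟨_, h2⟩ | ⟨_, h2⟩
    · rcases h2 with h2 | h2
      · exact hu.2.2.1 h2
      · exact hu.2.2.2 h2
    · rcases h2 with h2 | h2
      · exact hu.1 h2
      · exact hu.2.1 h2
  rw [Finset.sum_congr rfl (fun u hu => by rw [gZ v u hu])]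
  by_cases hva : v = a
  · rw [hva] at hdx ⊢
    simp only [g.irrefl, x.irrefl] at hdx ⊢
    rw [gab, gac, gae]
    rw [s1, s3] at hdx
    simpa using (by simpa using hdx)
  by_cases hvb : v = b
  · rw [hvb] at hdx ⊢
    simp only [g.irrefl, x.irrefl] at hdx ⊢
    rw [g.symm b a, gab, gbc, gbe]
    rw [x.symm b a, s2, s4] at hdx
    simpa [add_comm] using (by simpa [add_comm] using hdx)
  by_cases hvc : v = c
  · rw [hvc] at hdx ⊢
    simp only [g.irrefl, x.irrefl] at hdx ⊢
    rw [g.symm c a, g.symm c b, gac, gbc, gce]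
    rw [x.symm c a, x.symm c b, s1, s4] at hdx
    simpa [add_comm] using (by simpa [add_comm] using hdx)
  by_cases hve : v = e
  · rw [hve] at hdx ⊢
    simp only [g.irrefl, x.irrefl] at hdx ⊢
    rw [g.symm e a, g.symm e b, g.symm e c, gae, gbe, gce]
    rw [x.symm e a, x.symm e b, x.symm e c, s2, s3] at hdx
    simpa [add_comm] using (by simpa [add_comm] using hdx)
  -- `v ∈ Z`
  have g1 : g.adj v a = x.adj v a := by
    apply swp_of_not_tog; intro ht
    rcases tog_form ht with ⟨h1, _⟩ | ⟨h1, _⟩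
    · rcases h1 with h1 | h1
      · exact hva h1
      · exact hvb h1
    · rcases h1 with h1 | h1
      · exact hvc h1
      · exact hve h1
  have g2 : g.adj v b = x.adj v b := by
    apply swp_of_not_tog; intro ht
    rcases tog_form ht with ⟨h1, _⟩ | ⟨h1, _⟩
    · rcases h1 with h1 | h1
      · exact hva h1
      · exact hvb h1
    · rcases h1 with h1 | h1
      · exact hvc h1
      · exact hve h1
  have g3 : g.adj v c = x.adj v c := by
    apply swp_of_not_tog; intro ht
    rcases tog_form ht with ⟨h1, _⟩ | ⟨h1, _⟩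
    · rcases h1 with h1 | h1
      · exact hva h1
      · exact hvb h1
    · rcases h1 with h1 | h1
      · exact hvc h1
      · exact hve h1
  have g4 : g.adj v e = x.adj v e := by
    apply swp_of_not_tog; intro ht
    rcases tog_form ht with ⟨h1, _⟩ | ⟨h1, _⟩
    · rcases h1 with h1 | h1
      · exact hva h1
      · exact hvb h1
    · rcases h1 with h1 | h1
      · exact hvc h1
      · exact hve h1
  rw [g1, g2, g3, g4]
  exact hdx


/-! ### Boolean facts -/

lemma bool_sa : ∀ p q p' q' : Bool, p.toNat + q.toNat = p'.toNat + q'.toNat → (p ≠ q ↔ p' ≠ q') := by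
  decide

lemma bool_t2a : ∀ p q r w : Bool, p.toNat + q.toNat + r.toNat + w.toNat = 2 →
    ((p ≠ r ∧ q ≠ w) ↔ p ≠ r) := by decide

lemma bool_t2b : ∀ p q r w : Bool, p.toNat + q.toNat + r.toNat + w.toNat = 2 →
    ((p ≠ q ∧ r ≠ w) ↔ p ≠ q) := by decide

lemma bool_imp1 : ∀ p q r w : Bool, (p ≠ r ∧ q ≠ w) → p.toNat + q.toNat + r.toNat + w.toNat = 2 := by
  decide

lemma bool_imp2 : ∀ p q r w : Bool, (p ≠ q ∧ r ≠ w) → p.toNat + q.toNat + r.toNat + w.toNat = 2 := by
  decide

/-- the summand of `Psi` -/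
noncomputable def psiT (d : V → ℕ) (f : Gr V → ℝ) (a b c e : V) (x : Gr V) : ℝ :=
  if x.adj a c ≠ x.adj b c ∧ x.adj a e ≠ x.adj b e then
      cov (fib (Om d) (keyP a b) x) f (fun y => if y.adj a c ≠ y.adj a e then 1 else 0) ^ 2
        / avg (fib (Om d) (keyP a b) x) (fun y => if y.adj a c ≠ y.adj a e then 1 else 0)
    else 0

omit hab hac hae hbc hbe hce in
lemma Psi_eq (d : V → ℕ) (f : Gr V → ℝ) (a b c e : V) :
    Psi d f a b c e = ∑ x ∈ Om d, psiT d f a b c e x := rfl

include hab hac hae hbc hbe hce in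
lemma sector (h : TwoBlockCross) (d : V → ℕ) (f : Gr V → ℝ)
    (s : (V → V → Bool) × Bool × Bool × (V → ℕ)) :
    (1 / 2 : ℝ) * ∑ x ∈ (Om d).filter (fun x => sec a b c e x = s), swTerm f x a b c e
        - (1 / 2 : ℝ) * (∑ x ∈ (Om d).filter (fun x => sec a b c e x = s), psiT d f a b c e x
          + ∑ x ∈ (Om d).filter (fun x => sec a b c e x = s), psiT d f c e a b x)
      ≤ ∑ x ∈ (Om d).filter (fun x => sec a b c e x = s), DD d f a b x * DD d f c e x := by
  set S := (Om d).filter (fun x => sec a b c e x = s) with hSdef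
  by_cases hne : S.Nonempty
  swap
  · rw [Finset.not_nonempty_iff_eq_empty] at hne
    simp [hne]
  obtain ⟨x₀, hx₀⟩ := hne
  have hS : ∀ x, x ∈ S ↔ x ∈ Om d ∧ sec a b c e x = s := fun x => by
    rw [hSdef, Finset.mem_filter]
  have fibAB : ∀ x ∈ S, fib S (keyP a b) x = fib (Om d) (keyP a b) x := by
    intro x hx
    ext y
    simp only [fib, Finset.mem_filter]
    constructor
    · rintro ⟨hy, hk⟩; exact ⟨((hS y).1 hy).1, hk⟩
    · rintro ⟨hy, hk⟩
      refine ⟨(hS y).2 ⟨hy, ?_⟩, hk⟩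
      rw [sec_of_keyAB hab hac hae hbc hbe hce hy ((hS x).1 hx).1 hk]
      exact ((hS x).1 hx).2
  have fibCE : ∀ x ∈ S, fib S (keyP c e) x = fib (Om d) (keyP c e) x := by
    intro x hx
    ext y
    simp only [fib, Finset.mem_filter]
    constructor
    · rintro ⟨hy, hk⟩; exact ⟨((hS y).1 hy).1, hk⟩
    · rintro ⟨hy, hk⟩
      refine ⟨(hS y).2 ⟨hy, ?_⟩, hk⟩
      rw [sec_of_keyCE hac hae hbc hbe hk]
      exact ((hS x).1 hx).2
  have e4 : ∑ x ∈ S, DD d f a b x * DD d f c e x
      = ∑ x ∈ S, dev S (keyP a b) f x * dev S (keyP c e) f x := by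
    apply Finset.sum_congr rfl
    intro x hx
    simp only [DD, dev, cexp]
    rw [fibAB x hx, fibCE x hx]
  rw [e4]
  have hcount : ∀ x ∈ S, ∀ y ∈ S,
      (S.filter fun z => keyP c e z = keyP c e x ∧ keyP a b z = keyP a b y).card
      = (Yset (x.adj a c) (x.adj a e) (x.adj b c) (x.adj b e)
              (y.adj a c) (y.adj a e) (y.adj b c) (y.adj b e)).card := by
    intro x hx y hy
    exact card_fil hab hac hae hbc hbe hce ((hS x).1 hx).1 ((hS y).1 hy).1 ((hS x).1 hx).2
      ((hS y).1 hy).2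
  have httS : ∀ x ∈ S, tt a b c e x = tt a b c e x₀ := by
    intro x hx
    exact tt_eq_of_sec hab hac hae hbc hbe hce ((hS x).1 hx).1 ((hS x₀).1 hx₀).1
      (((hS x).1 hx).2.trans ((hS x₀).1 hx₀).2.symm)
  by_cases ht : tt a b c e x₀ = 2
  · -- the main case
    have htS : ∀ x ∈ S, (x.adj a c).toNat + (x.adj a e).toNat + (x.adj b c).toNat
        + (x.adj b e).toNat = 2 := by
      intro x hx
      have := httS x hx
      rw [ht] at this
      exact this
    have key := h S (keyP c e) (keyP a b) (fun y => y.adj a c ≠ y.adj a e)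
      (fun y => y.adj a c ≠ y.adj b c) f (S.filter fun x => Sw x a b c e)
      (fun x => swp x a b c e) ?_ ?_ ?_ (Finset.filter_subset _ _) ?_
    · have e1 : ∑ x ∈ S, swTerm f x a b c e
          = ∑ x ∈ S.filter (fun x => Sw x a b c e), (f x - f (swp x a b c e)) ^ 2 := by
        rw [Finset.sum_filter (s := S) (fun x => Sw x a b c e)]
        rfl
      have e2 : ∑ x ∈ S, psiT d f a b c e x
          = ∑ x ∈ S, (if x.adj a c ≠ x.adj b c then
            cov (fib S (keyP a b) x) f (fun y => if y.adj a c ≠ y.adj a e then 1 else 0) ^ 2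
              / avg (fib S (keyP a b) x) (fun y => if y.adj a c ≠ y.adj a e then 1 else 0)
            else 0) := by
        apply Finset.sum_congr rfl
        intro x hx
        unfold psiT
        rw [fibAB x hx]
        exact if_congr (bool_t2a _ _ _ _ (htS x hx)) rfl rfl
      have e3 : ∑ x ∈ S, psiT d f c e a b x
          = ∑ x ∈ S, (if x.adj a c ≠ x.adj a e then
            cov (fib S (keyP c e) x) f (fun y => if y.adj a c ≠ y.adj b c then 1 else 0) ^ 2
              / avg (fib S (keyP c e) x) (fun y => if y.adj a c ≠ y.adj b c then 1 else 0)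
            else 0) := by
        apply Finset.sum_congr rfl
        intro x hx
        unfold psiT
        rw [fibCE x hx]
        have hfun : (fun y : Gr V => if y.adj c a ≠ y.adj c b then (1 : ℝ) else 0)
            = (fun y => if y.adj a c ≠ y.adj b c then 1 else 0) := by
          funext y
          rw [y.symm c a, y.symm c b]
        rw [hfun, x.symm c a, x.symm e a, x.symm c b, x.symm e b]
        exact if_congr (bool_t2b _ _ _ _ (htS x hx)) rfl rfl
      rw [e1, e2, e3]
      exact key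
    · -- τa function of A
      intro x hx y hy hk
      exact bool_sa _ _ _ _ (sa_of_keyCE hab hac hae hbc hbe hce ((hS x).1 hx).1 ((hS y).1 hy).1 hk)
    · intro x hx y hy hk
      exact bool_sa _ _ _ _ (sc_of_keyAB hab hac hae hbc hbe hce ((hS x).1 hx).1 ((hS y).1 hy).1 hk)
    · intro x hx y hy
      rw [hcount x hx y hy]
      exact Yset_card_eq2 _ _ _ _ _ _ _ _ (htS x hx) (by
        have := htS y hy
        omega)
    · intro x hx
      obtain ⟨hxS, hsw⟩ := Finset.mem_filter.1 hx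
      have hsw' := hsw
      obtain ⟨_, _, _, _, _, _, s1, s2, s3, s4⟩ := hsw'
      have hν : swp x a b c e ∈ Om d := swp_mem hab hac hae hbc hbe hce ((hS x).1 hxS).1 hsw
      refine ⟨?_, ?_, ?_, ?_, swp_keyCE hac hae hbc hbe x, swp_keyAB hac hae hbc hbe x⟩
      · simp [s1, s3]
      · simp [s1, s4]
      · refine (hS _).2 ⟨hν, ?_⟩
        rw [sec_of_keyCE hac hae hbc hbe (swp_keyCE hac hae hbc hbe x)]
        exact ((hS x).1 hxS).2
      · intro hmem
        obtain ⟨_, hsw2⟩ := Finset.mem_filter.1 hmem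
        obtain ⟨_, _, _, _, _, _, t1, _, _, _⟩ := hsw2
        have : (swp x a b c e).adj a c = !(x.adj a c) :=
          swp_of_tog x (Or.inl ⟨rfl, rfl⟩) hac
        rw [this, s1] at t1
        exact absurd t1 (by decide)
  · -- `t ≠ 2`
    have htS : ∀ x ∈ S, (x.adj a c).toNat + (x.adj a e).toNat + (x.adj b c).toNat
        + (x.adj b e).toNat ≠ 2 := by
      intro x hx h2
      apply ht
      rw [← httS x hx]
      exact h2
    have key := h S (keyP c e) (keyP a b) (fun _ => True) (fun _ => False) f ∅ id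
      (by intros; exact Iff.rfl) (by intros; exact Iff.rfl) ?_ (Finset.empty_subset _)
      (by intro x hx; simp at hx)
    · have e1 : ∑ x ∈ S, swTerm f x a b c e = 0 := by
        apply Finset.sum_eq_zero
        intro x hx
        unfold swTerm
        rw [if_neg]
        intro hsw
        obtain ⟨_, _, _, _, _, _, s1, s2, s3, s4⟩ := hsw
        apply htS x hx
        rw [s1, s2, s3, s4]
        rfl
      have e2 : ∑ x ∈ S, psiT d f a b c e x = 0 := by
        apply Finset.sum_eq_zero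
        intro x hx
        unfold psiT
        rw [if_neg]
        intro hc
        exact htS x hx (bool_imp1 _ _ _ _ hc)
      have e3 : ∑ x ∈ S, psiT d f c e a b x = 0 := by
        apply Finset.sum_eq_zero
        intro x hx
        unfold psiT
        rw [if_neg]
        rintro ⟨h1, h2⟩
        rw [x.symm c a, x.symm e a] at h1
        rw [x.symm c b, x.symm e b] at h2
        exact htS x hx (bool_imp2 _ _ _ _ ⟨h1, h2⟩)
      rw [e1, e2, e3]
      simp only [Finset.sum_empty, if_false, if_true, Finset.sum_const_zero, mul_zero, sub_zero,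
        add_zero, zero_add] at key ⊢
      have hz : ∀ (s' : Finset (Gr V)), avg s' (fun _ => (0 : ℝ)) = 0 := by
        intro s'
        simp [avg]
      simp only [hz, div_zero, Finset.sum_const_zero, mul_zero, sub_zero, zero_add, add_zero,
        sub_self] at key
      linarith
    · intro x hx y hy
      rw [hcount x hx y hy]
      have := Yset_card_ne2 (x.adj a c) (x.adj a e) (x.adj b c) (x.adj b e)
              (y.adj a c) (y.adj a e) (y.adj b c) (y.adj b e)
        (by
          have h1 := httS x hx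
          have h2 := httS y hy
          unfold tt at h1 h2
          omega) (htS x hx)
      rw [this]
      simp

end Main

/-- **WP W8**. -/
theorem stepDisjoint (h : TwoBlockCross) : StepDisjoint := by
  intro V _ _ d f a b c e hab hac hae hbc hbe hce
  have hsplit : ∀ g : Gr V → ℝ, ∑ x ∈ Om d, g x
      = ∑ s ∈ (Om d).image (sec a b c e), ∑ x ∈ (Om d).filter (fun x => sec a b c e x = s), g x := by
    intro g
    exact (Finset.sum_fiberwise_of_maps_to (fun x hx => Finset.mem_image_of_mem _ hx) g).symm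
  show (1 / 2 : ℝ) * ∑ x ∈ Om d, swTerm f x a b c e
        - (1 / 2 : ℝ) * (∑ x ∈ Om d, psiT d f a b c e x + ∑ x ∈ Om d, psiT d f c e a b x)
      ≤ ∑ x ∈ Om d, DD d f a b x * DD d f c e x
  rw [hsplit (fun x => swTerm f x a b c e), hsplit (psiT d f a b c e), hsplit (psiT d f c e a b),
    hsplit (fun x => DD d f a b x * DD d f c e x), Finset.mul_sum, ← Finset.sum_add_distrib,
    Finset.mul_sum, ← Finset.sum_sub_distrib]
  apply Finset.sum_le_sum
  intro s _
  have := sector hab hac hae hbc hbe hce h d f s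
  linarith

end FibDisjoint

theorem stepDisjoint (h : TwoBlockCross) : StepDisjoint := FibDisjoint.stepDisjoint h

end Crest.Agent.S0453Lib
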