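/-
S0453 W6: `StepVar` and `StepFrame`: on a fibre of `keyP a b` the state space is a Johnson slice.
-/
import Crest.Agent.S0453Lib.Spec

set_option autoImplicit false
set_option linter.unusedSectionVars false
set_option linter.unusedSimpArgs false
set_option linter.unusedVariables false
open Finset

namespace Crest.Agent.S0453Lib

namespace FibJohnson

section Generic
variable {α κ : Type*} [DecidableEq α] [DecidableEq κ]

lemma fib_eq_of_mem {S : Finset α} {key : α → κ} {x y : α} (h : y ∈ fib S key x) :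
    fib S key y = fib S key x := by
  unfold fib at *
  rw [Finset.mem_filter] at h
  ext z
  simp [h.2]

lemma sum_avg_fib (S : Finset α) (key : α → κ) (G : α → ℝ) :
    ∑ x ∈ S, avg (fib S key x) G = ∑ x ∈ S, G x := by
  calc ∑ x ∈ S, avg (fib S key x) G
      = ∑ x ∈ S, ∑ y ∈ S, if key y = key x then G y / ((fib S key y).card : ℝ) else 0 := by
        refine Finset.sum_congr rfl fun x _ => ?_
        unfold avg
        rw [Finset.sum_div]
        conv_lhs => rw [fib, Finset.sum_filter]
        refine Finset.sum_congr rfl fun y _ => ?_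
        split_ifs with h
        · have : (S.filter fun z => key z = key x) = fib S key y := by
            unfold fib
            ext z
            simp [h]
          rw [this]
        · rfl
    _ = ∑ y ∈ S, ∑ x ∈ S, if key y = key x then G y / ((fib S key y).card : ℝ) else 0 :=
        Finset.sum_comm
    _ = ∑ y ∈ S, G y := by
        refine Finset.sum_congr rfl fun y hy => ?_
        rw [← Finset.sum_filter, Finset.sum_const, nsmul_eq_mul]
        have hf : (S.filter fun x => key y = key x) = fib S key y := by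
          unfold fib
          ext z
          simp [eq_comm]
        rw [hf]
        have hne : ((fib S key y).card : ℝ) ≠ 0 := by
          have : y ∈ fib S key y := by simp [fib, hy]
          have h0 : 0 < (fib S key y).card := Finset.card_pos.mpr ⟨y, this⟩
          exact_mod_cast h0.ne'
        field_simp

lemma var_zero_of_card_le_one (s : Finset α) (g : α → ℝ) (h : s.card ≤ 1) :
    ∑ X ∈ s, (g X - avg s g) ^ 2 = 0 := by
  obtain h0 | h1 := Nat.le_one_iff_eq_zero_or_eq_one.mp h
  · rw [Finset.card_eq_zero.mp h0]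
    simp
  · obtain ⟨X, rfl⟩ := Finset.card_eq_one.mp h1
    simp [avg]

lemma avg_congr {s : Finset α} {g g' : α → ℝ} (h : ∀ X ∈ s, g X = g' X) : avg s g = avg s g' := by
  unfold avg
  rw [Finset.sum_congr rfl h]

lemma sum_sum_ite_mem {V : Type*} [Fintype V] [DecidableEq V] (X : Finset V) (Y : V → Finset V)
    (t : V → V → ℝ) :
    ∑ c, ∑ e, (if c ∈ X ∧ e ∈ Y c then t c e else 0) = ∑ c ∈ X, ∑ e ∈ Y c, t c e := by
  have h : ∀ c, ∑ e, (if c ∈ X ∧ e ∈ Y c then t c e else 0)
      = if c ∈ X then ∑ e ∈ Y c, t c e else 0 := by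
    intro c
    by_cases hc : c ∈ X
    · simp [hc, Finset.sum_ite_mem]
    · simp [hc]
  simp_rw [h]
  simp [Finset.sum_ite_mem]

end Generic

section Fib
variable {V : Type} [Fintype V] [DecidableEq V]

/-- the "free" vertices for the pair `a b`: exactly one of `a`, `b` is adjacent. -/
def W1 (x : Gr V) (a b : V) : Finset V :=
  Finset.univ.filter fun z => z ≠ a ∧ z ≠ b ∧ x.adj a z ≠ x.adj b z

lemma mem_W1 {x : Gr V} {a b z : V} : z ∈ W1 x a b ↔ z ≠ a ∧ z ≠ b ∧ x.adj a z ≠ x.adj b z := by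
  simp [W1]

lemma a_not_mem_W1 (x : Gr V) (a b : V) : a ∉ W1 x a b := by simp [W1]

lemma b_not_mem_W1 (x : Gr V) (a b : V) : b ∉ W1 x a b := by simp [W1]

/-- the neighbours of `a` inside `W` -/
def Xof (y : Gr V) (a : V) (W : Finset V) : Finset V := W.filter fun z => y.adj a z = true

lemma mem_Xof {y : Gr V} {a z : V} {W : Finset V} : z ∈ Xof y a W ↔ z ∈ W ∧ y.adj a z = true := by
  simp [Xof]

/-- the graph obtained from `x` by making `X` the neighbourhood of `a` in `W`, and `W \ X` the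
neighbourhood of `b` in `W`. -/
def rewire (x : Gr V) (a b : V) (hab : a ≠ b) (W : Finset V) (ha : a ∉ W) (hb : b ∉ W)
    (X : Finset V) : Gr V where
  adj u v :=
    if u = a then (if v ∈ W then decide (v ∈ X) else x.adj u v)
    else if u = b then (if v ∈ W then decide (v ∉ X) else x.adj u v)
    else if v = a then (if u ∈ W then decide (u ∈ X) else x.adj u v)
    else if v = b then (if u ∈ W then decide (u ∉ X) else x.adj u v)
    else x.adj u v
  symm u v := by
    rcases eq_or_ne u a with rfl | hua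
    · rcases eq_or_ne v u with rfl | hvu
      · rfl
      · rcases eq_or_ne v b with rfl | hvb
        · simp [hab, hab.symm, ha, hb, x.symm u v]
        · simp [hvu, hvb, x.symm u v]
    · rcases eq_or_ne u b with rfl | hub
      · rcases eq_or_ne v a with rfl | hva
        · simp [hab, hab.symm, ha, hb, x.symm u v]
        · rcases eq_or_ne v u with rfl | hvu
          · rfl
          · simp [hva, hvu, hua, x.symm u v]
      · rcases eq_or_ne v a with rfl | hva
        · simp [hua, hub, x.symm u v]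
        · rcases eq_or_ne v b with rfl | hvb
          · simp [hua, hub, hva, x.symm u v]
          · simp [hua, hub, hva, hvb, x.symm u v]
  irrefl u := by
    rcases eq_or_ne u a with rfl | hua
    · simp [ha, x.irrefl]
    · rcases eq_or_ne u b with rfl | hub
      · simp [hua, hb, x.irrefl]
      · simp [hua, hub, x.irrefl]

section RewireFacts
variable (x : Gr V) {a b : V} (hab : a ≠ b) (W : Finset V) (ha : a ∉ W) (hb : b ∉ W) (X : Finset V)

lemma rewire_adj_a (v : V) :
    (rewire x a b hab W ha hb X).adj a v = if v ∈ W then decide (v ∈ X) else x.adj a v := by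
  simp [rewire]

lemma rewire_adj_b (v : V) :
    (rewire x a b hab W ha hb X).adj b v = if v ∈ W then decide (v ∉ X) else x.adj b v := by
  simp [rewire, hab.symm]

lemma rewire_adj_other {u v : V} (hu : u ≠ a) (hu' : u ≠ b) (hv : v ≠ a) (hv' : v ≠ b) :
    (rewire x a b hab W ha hb X).adj u v = x.adj u v := by
  simp [rewire, hu, hu', hv, hv']

end RewireFacts

lemma gr_ext_ab {y z : Gr V} {a b : V} (h1 : ∀ v, y.adj a v = z.adj a v)
    (h2 : ∀ v, y.adj b v = z.adj b v)
    (h3 : ∀ u v, u ≠ a → u ≠ b → v ≠ a → v ≠ b → y.adj u v = z.adj u v) : y = z := by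
  apply Gr.ext
  funext u v
  rcases eq_or_ne u a with rfl | hua
  · exact h1 v
  rcases eq_or_ne u b with rfl | hub
  · exact h2 v
  rcases eq_or_ne v a with rfl | hva
  · rw [y.symm, z.symm]; exact h1 u
  rcases eq_or_ne v b with rfl | hvb
  · rw [y.symm, z.symm]; exact h2 u
  exact h3 u v hua hub hva hvb

lemma deg_eq_sum (x : Gr V) (v : V) : x.deg v = ∑ u, (x.adj v u).toNat := by
  unfold Gr.deg
  rw [Finset.card_filter]
  refine Finset.sum_congr rfl fun u _ => ?_
  cases x.adj v u <;> rfl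

lemma sum_split {a b : V} (hab : a ≠ b) (g : V → ℕ) :
    ∑ u, g u = g a + g b + ∑ u ∈ (Finset.univ.erase a).erase b, g u := by
  rw [← Finset.add_sum_erase Finset.univ g (Finset.mem_univ a),
    ← Finset.add_sum_erase (Finset.univ.erase a) g
      (Finset.mem_erase.mpr ⟨hab.symm, Finset.mem_univ b⟩)]
  ring

lemma mem_Om {d : V → ℕ} {x : Gr V} : x ∈ Om d ↔ ∀ v, x.deg v = d v := by
  simp [Om]

section KeyFacts
variable {x y : Gr V} {a b : V}

lemma adj_other (hk : keyP a b y = keyP a b x) {u v : V} (hu : u ≠ a) (hu' : u ≠ b)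
    (hv : v ≠ a) (hv' : v ≠ b) : y.adj u v = x.adj u v := by
  have := congrFun (congrFun hk u) v
  simpa [keyP, hu, hu', hv, hv'] using this

lemma adj_ab (hk : keyP a b y = keyP a b x) : y.adj a b = x.adj a b := by
  have := congrFun (congrFun hk a) b
  simpa [keyP] using this

lemma toNat_sum (hab : a ≠ b) {d : V → ℕ} (hx : x ∈ Om d) (hy : y ∈ Om d)
    (hk : keyP a b y = keyP a b x) {z : V} (hza : z ≠ a) (hzb : z ≠ b) :
    (y.adj a z).toNat + (y.adj b z).toNat = (x.adj a z).toNat + (x.adj b z).toNat := by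
  have hdy := mem_Om.mp hy z
  have hdx := mem_Om.mp hx z
  rw [deg_eq_sum, sum_split hab] at hdy hdx
  have hrest : ∑ u ∈ (Finset.univ.erase a).erase b, (y.adj z u).toNat
      = ∑ u ∈ (Finset.univ.erase a).erase b, (x.adj z u).toNat := by
    refine Finset.sum_congr rfl fun u hu => ?_
    have hub : u ≠ b := (Finset.mem_erase.mp hu).1
    have hua : u ≠ a := (Finset.mem_erase.mp (Finset.mem_erase.mp hu).2).1
    rw [adj_other hk hza hzb hua hub]
  rw [y.symm z a, y.symm z b] at hdy
  rw [x.symm z a, x.symm z b] at hdx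
  omega

lemma adj_of_not_mem (hab : a ≠ b) {d : V → ℕ} (hx : x ∈ Om d) (hy : y ∈ Om d)
    (hk : keyP a b y = keyP a b x) {v : V} (hv : v ∉ W1 x a b) :
    y.adj a v = x.adj a v ∧ y.adj b v = x.adj b v := by
  have hab' := adj_ab hk
  rcases eq_or_ne v a with rfl | hva
  · refine ⟨by rw [y.irrefl, x.irrefl], ?_⟩
    rw [y.symm, x.symm]
    exact hab'
  rcases eq_or_ne v b with rfl | hvb
  · refine ⟨hab', by rw [y.irrefl, x.irrefl]⟩
  have hxeq : x.adj a v = x.adj b v := by
    by_contra hne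
    exact hv (mem_W1.mpr ⟨hva, hvb, hne⟩)
  have hs := toNat_sum hab hx hy hk hva hvb
  revert hs hxeq
  cases y.adj a v <;> cases y.adj b v <;> cases x.adj a v <;> cases x.adj b v <;> simp

lemma adj_ne_of_mem (hab : a ≠ b) {d : V → ℕ} (hx : x ∈ Om d) (hy : y ∈ Om d)
    (hk : keyP a b y = keyP a b x) {v : V} (hv : v ∈ W1 x a b) :
    y.adj a v ≠ y.adj b v := by
  obtain ⟨hva, hvb, hne⟩ := mem_W1.mp hv
  have hs := toNat_sum hab hx hy hk hva hvb
  revert hs hne
  cases y.adj a v <;> cases y.adj b v <;> cases x.adj a v <;> cases x.adj b v <;> simp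

end KeyFacts

/-- degree at `a` in terms of the neighbours inside `W`. -/
lemma deg_a_rel {x y : Gr V} {a : V} {W : Finset V}
    (h : ∀ v, v ∉ W → y.adj a v = x.adj a v) :
    y.deg a + (Xof x a W).card = x.deg a + (Xof y a W).card := by
  have key : ∀ z : Gr V, z.deg a = (Xof z a W).card + ∑ u ∈ Wᶜ, (z.adj a u).toNat := by
    intro z
    rw [deg_eq_sum, ← Finset.sum_add_sum_compl W]
    congr 1
    unfold Xof
    rw [Finset.card_filter]
    refine Finset.sum_congr rfl fun u _ => ?_
    cases z.adj a u <;> rfl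
  have hc : ∑ u ∈ Wᶜ, (y.adj a u).toNat = ∑ u ∈ Wᶜ, (x.adj a u).toNat := by
    refine Finset.sum_congr rfl fun u hu => ?_
    rw [h u (Finset.mem_compl.mp hu)]
  rw [key y, key x, hc]
  omega

/-- degree at `b` in terms of the neighbours of `a` inside `W`. -/
lemma deg_b_rel {x y : Gr V} {a b : V} {W : Finset V}
    (h : ∀ v, v ∉ W → y.adj b v = x.adj b v)
    (hy : ∀ v ∈ W, y.adj a v ≠ y.adj b v) (hx : ∀ v ∈ W, x.adj a v ≠ x.adj b v) :
    y.deg b + (Xof y a W).card = x.deg b + (Xof x a W).card := by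
  have key : ∀ z : Gr V, (∀ v ∈ W, z.adj a v ≠ z.adj b v) →
      z.deg b + (Xof z a W).card = W.card + ∑ u ∈ Wᶜ, (z.adj b u).toNat := by
    intro z hz
    rw [deg_eq_sum, ← Finset.sum_add_sum_compl W]
    have hX : (Xof z a W).card = ∑ u ∈ W, (z.adj a u).toNat := by
      unfold Xof
      rw [Finset.card_filter]
      refine Finset.sum_congr rfl fun u _ => ?_
      cases z.adj a u <;> rfl
    have hW : ∑ u ∈ W, (z.adj b u).toNat + ∑ u ∈ W, (z.adj a u).toNat = W.card := by
      rw [← Finset.sum_add_distrib, Finset.card_eq_sum_ones]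
      refine Finset.sum_congr rfl fun u hu => ?_
      have := hz u hu
      revert this
      cases z.adj a u <;> cases z.adj b u <;> simp
    rw [hX]
    omega
  have hc : ∑ u ∈ Wᶜ, (y.adj b u).toNat = ∑ u ∈ Wᶜ, (x.adj b u).toNat := by
    refine Finset.sum_congr rfl fun u hu => ?_
    rw [h u (Finset.mem_compl.mp hu)]
  rw [key y hy, key x hx, hc]

section Slice
variable {d : V → ℕ} {x : Gr V} {a b : V} (hab : a ≠ b) (hx : x ∈ Om d)

/-- abbreviation for the rewiring around `x` -/
noncomputable abbrev RR (x : Gr V) (a b : V) (hab : a ≠ b) : Finset V → Gr V :=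
  rewire x a b hab (W1 x a b) (a_not_mem_W1 x a b) (b_not_mem_W1 x a b)

/-- the slice corresponding to the fibre through `x` -/
abbrev slice (x : Gr V) (a b : V) : Finset (Finset V) :=
  (W1 x a b).powersetCard (Xof x a (W1 x a b)).card

include hab

lemma Xof_RR {X : Finset V} (hX : X ⊆ W1 x a b) : Xof (RR x a b hab X) a (W1 x a b) = X := by
  ext z
  rw [mem_Xof, rewire_adj_a]
  constructor
  · rintro ⟨hz, h⟩
    rw [if_pos hz] at h
    simpa using h
  · intro hz
    have hzW := hX hz
    exact ⟨hzW, by rw [if_pos hzW]; simpa using hz⟩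

lemma keyP_RR (X : Finset V) : keyP a b (RR x a b hab X) = keyP a b x := by
  funext u v
  unfold keyP
  by_cases h : (u = a ∨ u = b ∨ v = a ∨ v = b) ∧ ¬ ((u = a ∧ v = b) ∨ (u = b ∧ v = a))
  · rw [if_pos h, if_pos h]
  · rw [if_neg h, if_neg h]
    rcases eq_or_ne u a with rfl | hua
    · have hv : v = b := by
        by_contra hvb
        exact h ⟨Or.inl rfl, by rintro (⟨_, h2⟩ | ⟨h1, _⟩); exact hvb h2; exact hab h1⟩
      subst hv
      rw [rewire_adj_a, if_neg (b_not_mem_W1 x _ _)]
    · rcases eq_or_ne u b with rfl | hub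
      · have hv : v = a := by
          by_contra hva
          exact h ⟨Or.inr (Or.inl rfl), by rintro (⟨h1, _⟩ | ⟨_, h2⟩); exact hua h1; exact hva h2⟩
        subst hv
        rw [rewire_adj_b, if_neg (a_not_mem_W1 x _ _)]
      · rcases eq_or_ne v a with rfl | hva
        · exact absurd ⟨Or.inr (Or.inr (Or.inl rfl)), by tauto⟩ h
        · rcases eq_or_ne v b with rfl | hvb
          · exact absurd ⟨Or.inr (Or.inr (Or.inr rfl)), by tauto⟩ h
          · exact rewire_adj_other x hab _ _ _ _ hua hub hva hvb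

include hx

lemma RR_mem_Om {X : Finset V} (hX : X ∈ slice x a b) : RR x a b hab X ∈ Om d := by
  obtain ⟨hXW, hcard⟩ := Finset.mem_powersetCard.mp hX
  rw [mem_Om]
  intro v
  have hXof := Xof_RR (x := x) hab hXW
  rcases eq_or_ne v a with rfl | hva
  · have h1 := deg_a_rel (x := x) (y := RR x v b hab X) (a := v) (W := W1 x v b) (fun u hu => by
      rw [rewire_adj_a, if_neg hu])
    rw [hXof, hcard] at h1
    have := mem_Om.mp hx v
    omega
  rcases eq_or_ne v b with rfl | hvb
  · have h1 := deg_b_rel (x := x) (y := RR x a v hab X) (a := a) (b := v) (W := W1 x a v)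
      (fun u hu => by rw [rewire_adj_b, if_neg hu])
      (fun u hu => by
        rw [rewire_adj_a, rewire_adj_b, if_pos hu, if_pos hu]
        by_cases hm : u ∈ X <;> simp [hm])
      (fun u hu => (mem_W1.mp hu).2.2)
    rw [hXof, hcard] at h1
    have := mem_Om.mp hx v
    omega
  · rw [← mem_Om.mp hx v, deg_eq_sum, deg_eq_sum, sum_split hab, sum_split hab]
    have hrest : ∑ u ∈ (Finset.univ.erase a).erase b, ((RR x a b hab X).adj v u).toNat
        = ∑ u ∈ (Finset.univ.erase a).erase b, (x.adj v u).toNat := by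
      refine Finset.sum_congr rfl fun u hu => ?_
      have hub : u ≠ b := (Finset.mem_erase.mp hu).1
      have hua : u ≠ a := (Finset.mem_erase.mp (Finset.mem_erase.mp hu).2).1
      rw [rewire_adj_other x hab _ _ _ _ hva hvb hua hub]
    rw [hrest]
    congr 1
    rw [(RR x a b hab X).symm v a, (RR x a b hab X).symm v b, rewire_adj_a, rewire_adj_b,
      x.symm v a, x.symm v b]
    by_cases hv : v ∈ W1 x a b
    · rw [if_pos hv, if_pos hv]
      have hne := (mem_W1.mp hv).2.2
      revert hne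
      by_cases hm : v ∈ X <;> cases x.adj a v <;> cases x.adj b v <;> simp [hm]
    · rw [if_neg hv, if_neg hv]

lemma RR_mem_fib {X : Finset V} (hX : X ∈ slice x a b) :
    RR x a b hab X ∈ fib (Om d) (keyP a b) x :=
  Finset.mem_filter.mpr ⟨RR_mem_Om hab hx hX, keyP_RR hab X⟩

lemma Xof_mem_slice {y : Gr V} (hy : y ∈ fib (Om d) (keyP a b) x) :
    Xof y a (W1 x a b) ∈ slice x a b := by
  obtain ⟨hyO, hk⟩ := Finset.mem_filter.mp hy
  refine Finset.mem_powersetCard.mpr ⟨Finset.filter_subset _ _, ?_⟩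
  have h1 := deg_a_rel (x := x) (y := y) (a := a) (W := W1 x a b)
    (fun v hv => (adj_of_not_mem hab hx hyO hk hv).1)
  have h2 := mem_Om.mp hx a
  have h3 := mem_Om.mp hyO a
  omega

lemma RR_Xof {y : Gr V} (hy : y ∈ fib (Om d) (keyP a b) x) :
    RR x a b hab (Xof y a (W1 x a b)) = y := by
  obtain ⟨hyO, hk⟩ := Finset.mem_filter.mp hy
  apply gr_ext_ab (a := a) (b := b)
  · intro v
    rw [rewire_adj_a]
    by_cases hv : v ∈ W1 x a b
    · rw [if_pos hv]
      by_cases hm : y.adj a v = true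
      · have : v ∈ Xof y a (W1 x a b) := mem_Xof.mpr ⟨hv, hm⟩
        simp [this, hm]
      · have : v ∉ Xof y a (W1 x a b) := fun h => hm (mem_Xof.mp h).2
        simp only [this, decide_false]
        simpa using hm
    · rw [if_neg hv, (adj_of_not_mem hab hx hyO hk hv).1]
  · intro v
    rw [rewire_adj_b]
    by_cases hv : v ∈ W1 x a b
    · rw [if_pos hv]
      have hne := adj_ne_of_mem hab hx hyO hk hv
      by_cases hm : y.adj a v = true
      · have : v ∈ Xof y a (W1 x a b) := mem_Xof.mpr ⟨hv, hm⟩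
        revert hne
        rw [hm]
        simp [this]
      · have : v ∉ Xof y a (W1 x a b) := fun h => hm (mem_Xof.mp h).2
        revert hne
        simp only [Bool.not_eq_true] at hm
        rw [hm]
        simp [this]
    · rw [if_neg hv, (adj_of_not_mem hab hx hyO hk hv).2]
  · intro u v hu hu' hv hv'
    rw [rewire_adj_other x hab _ _ _ _ hu hu' hv hv', adj_other hk hu hu' hv hv']

/-- Transport of sums from the fibre to the slice. -/
lemma sum_fib_eq (h : Gr V → ℝ) :
    ∑ y ∈ fib (Om d) (keyP a b) x, h y = ∑ X ∈ slice x a b, h (RR x a b hab X) := by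
  refine Finset.sum_nbij' (fun y => Xof y a (W1 x a b)) (RR x a b hab)
    (fun y hy => Xof_mem_slice hab hx hy) (fun X hX => RR_mem_fib hab hx hX)
    (fun y hy => RR_Xof hab hx hy) (fun X hX => Xof_RR hab (Finset.mem_powersetCard.mp hX).1)
    (fun y hy => ?_)
  rw [RR_Xof hab hx hy]

lemma card_fib_eq : ((fib (Om d) (keyP a b) x).card : ℝ) = ((slice x a b).card : ℝ) := by
  have := sum_fib_eq hab hx (fun _ => (1 : ℝ))
  simpa using this

lemma avg_fib_eq (h : Gr V → ℝ) :
    avg (fib (Om d) (keyP a b) x) h = avg (slice x a b) (fun X => h (RR x a b hab X)) := by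
  unfold avg
  rw [sum_fib_eq hab hx h, card_fib_eq hab hx]

end Slice

section Switch
variable {x : Gr V} {a b : V} (hab : a ≠ b)

include hab

lemma Sw_RR_iff {X : Finset V} (c e : V) (hX : X ⊆ W1 x a b) :
    Sw (RR x a b hab X) a b c e ↔ c ∈ X ∧ e ∈ W1 x a b \ X := by
  unfold Sw
  rw [rewire_adj_a, rewire_adj_a, rewire_adj_b, rewire_adj_b]
  constructor
  · rintro ⟨_, hac, hae, hbc, hbe, _, h1, h2, h3, h4⟩
    have hcW : c ∈ W1 x a b := by
      by_contra hc
      rw [if_neg hc] at h1 h4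
      exact hc (mem_W1.mpr ⟨hac.symm, hbc.symm, by rw [h1, h4]; simp⟩)
    have heW : e ∈ W1 x a b := by
      by_contra he
      rw [if_neg he] at h2 h3
      exact he (mem_W1.mpr ⟨hae.symm, hbe.symm, by rw [h2, h3]; simp⟩)
    rw [if_pos hcW] at h1
    rw [if_pos heW] at h3
    refine ⟨by simpa using h1, Finset.mem_sdiff.mpr ⟨heW, by simpa using h3⟩⟩
  · rintro ⟨hc, he⟩
    obtain ⟨heW, heX⟩ := Finset.mem_sdiff.mp he
    have hcW := hX hc
    obtain ⟨hca, hcb, _⟩ := mem_W1.mp hcW
    obtain ⟨hea, heb, _⟩ := mem_W1.mp heW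
    have hce : c ≠ e := fun h => heX (h ▸ hc)
    refine ⟨hab, hca.symm, hea.symm, hcb.symm, heb.symm, hce, ?_, ?_, ?_, ?_⟩
    · rw [if_pos hcW]; simpa using hc
    · rw [if_pos heW]; simpa using heX
    · rw [if_pos heW]; simpa using heX
    · rw [if_pos hcW]; simpa using hc

lemma swp_RR {X : Finset V} {c e : V} (hX : X ⊆ W1 x a b) (hc : c ∈ X)
    (he : e ∈ W1 x a b \ X) :
    swp (RR x a b hab X) a b c e = RR x a b hab (insert e (X.erase c)) := by
  obtain ⟨heW, heX⟩ := Finset.mem_sdiff.mp he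
  have hcW := hX hc
  obtain ⟨hca, hcb, _⟩ := mem_W1.mp hcW
  obtain ⟨hea, heb, _⟩ := mem_W1.mp heW
  have hce : c ≠ e := fun h => heX (h ▸ hc)
  have htoga : ∀ v, (a ≠ v ∧ togP a b c e a v) ↔ (v = c ∨ v = e) := by
    intro v
    unfold togP
    constructor
    · rintro ⟨_, h⟩
      rcases h with ⟨_, h⟩ | ⟨h, _⟩ | ⟨h, _⟩ | ⟨h, _⟩ | ⟨_, h⟩ | ⟨h, _⟩ | ⟨h, _⟩ | ⟨h, _⟩
      · exact Or.inl h
      · exact absurd h.symm hca
      · exact absurd h hab
      · exact absurd h.symm hea
      · exact Or.inr h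
      · exact absurd h.symm hea
      · exact absurd h hab
      · exact absurd h.symm hca
    · rintro (rfl | rfl)
      · exact ⟨hca.symm, Or.inl ⟨rfl, rfl⟩⟩
      · exact ⟨hea.symm, Or.inr (Or.inr (Or.inr (Or.inr (Or.inl ⟨rfl, rfl⟩))))⟩
  have htogb : ∀ v, (b ≠ v ∧ togP a b c e b v) ↔ (v = c ∨ v = e) := by
    intro v
    unfold togP
    constructor
    · rintro ⟨_, h⟩
      rcases h with ⟨h, _⟩ | ⟨h, _⟩ | ⟨_, h⟩ | ⟨h, _⟩ | ⟨h, _⟩ | ⟨h, _⟩ | ⟨_, h⟩ | ⟨h, _⟩
      · exact absurd h.symm hab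
      · exact absurd h.symm hcb
      · exact Or.inr h
      · exact absurd h.symm heb
      · exact absurd h.symm hab
      · exact absurd h.symm heb
      · exact Or.inl h
      · exact absurd h.symm hcb
    · rintro (rfl | rfl)
      · exact ⟨hcb.symm, Or.inr (Or.inr (Or.inr (Or.inr (Or.inr (Or.inr (Or.inl ⟨rfl, rfl⟩))))))⟩
      · exact ⟨heb.symm, Or.inr (Or.inr (Or.inl ⟨rfl, rfl⟩))⟩
  apply gr_ext_ab (a := a) (b := b)
  · intro v
    have : (swp (RR x a b hab X) a b c e).adj a v =
        if a ≠ v ∧ togP a b c e a v then !((RR x a b hab X).adj a v)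
        else (RR x a b hab X).adj a v := rfl
    rw [this, rewire_adj_a, rewire_adj_a]
    by_cases hv : v = c ∨ v = e
    · rw [if_pos ((htoga v).mpr hv)]
      rcases hv with rfl | rfl
      · rw [if_pos hcW, if_pos hcW]
        simp [hc, hce]
      · rw [if_pos heW, if_pos heW]
        simp [heX]
    · rw [if_neg (fun h => hv ((htoga v).mp h))]
      push Not at hv
      by_cases hvW : v ∈ W1 x a b
      · rw [if_pos hvW, if_pos hvW]
        simp [hv.1, hv.2]
      · rw [if_neg hvW, if_neg hvW]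
  · intro v
    have : (swp (RR x a b hab X) a b c e).adj b v =
        if b ≠ v ∧ togP a b c e b v then !((RR x a b hab X).adj b v)
        else (RR x a b hab X).adj b v := rfl
    rw [this, rewire_adj_b, rewire_adj_b]
    by_cases hv : v = c ∨ v = e
    · rw [if_pos ((htogb v).mpr hv)]
      rcases hv with rfl | rfl
      · rw [if_pos hcW, if_pos hcW]
        simp [hc, hce]
      · rw [if_pos heW, if_pos heW]
        simp [heX]
    · rw [if_neg (fun h => hv ((htogb v).mp h))]
      push Not at hv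
      by_cases hvW : v ∈ W1 x a b
      · rw [if_pos hvW, if_pos hvW]
        simp [hv.1, hv.2]
      · rw [if_neg hvW, if_neg hvW]
  · intro u v hu hu' hv hv'
    have : (swp (RR x a b hab X) a b c e).adj u v =
        if u ≠ v ∧ togP a b c e u v then !((RR x a b hab X).adj u v)
        else (RR x a b hab X).adj u v := rfl
    rw [this]
    have hnt : ¬ (u ≠ v ∧ togP a b c e u v) := by
      rintro ⟨_, h⟩
      unfold togP at h
      rcases h with ⟨h, _⟩ | ⟨_, h⟩ | ⟨h, _⟩ | ⟨_, h⟩ | ⟨h, _⟩ | ⟨_, h⟩ | ⟨h, _⟩ | ⟨_, h⟩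
      · exact hu h
      · exact hv h
      · exact hu' h
      · exact hv' h
      · exact hu h
      · exact hv h
      · exact hu' h
      · exact hv' h
    rw [if_neg hnt, rewire_adj_other x hab _ _ _ _ hu hu' hv hv',
      rewire_adj_other x hab _ _ _ _ hu hu' hv hv']

/-- the switch energy of a rewired graph is the Johnson energy term. -/
lemma E_RR (f : Gr V → ℝ) {X : Finset V} (hX : X ⊆ W1 x a b) :
    ∑ c, ∑ e, swTerm f (RR x a b hab X) a b c e =
      ∑ c ∈ X, ∑ e ∈ W1 x a b \ X,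
        (f (RR x a b hab X) - f (RR x a b hab (insert e (X.erase c)))) ^ 2 := by
  rw [← sum_sum_ite_mem X (fun _ => W1 x a b \ X)]
  refine Finset.sum_congr rfl fun c _ => Finset.sum_congr rfl fun e _ => ?_
  unfold swTerm
  by_cases h : c ∈ X ∧ e ∈ W1 x a b \ X
  · rw [if_pos ((Sw_RR_iff hab c e hX).mpr h), if_pos h, swp_RR hab hX h.1 h.2]
  · rw [if_neg (fun h' => h ((Sw_RR_iff hab c e hX).mp h')), if_neg h]

end Switch

section Fibrewise
variable {d : V → ℕ} {x : Gr V} {a b : V} (hab : a ≠ b) (hx : x ∈ Om d) (f : Gr V → ℝ)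

include hab hx

lemma sum_E_fib :
    ∑ y ∈ fib (Om d) (keyP a b) x, ∑ c, ∑ e, swTerm f y a b c e =
      jen (W1 x a b) (Xof x a (W1 x a b)).card (fun X => f (RR x a b hab X)) := by
  rw [sum_fib_eq hab hx]
  unfold jen
  refine Finset.sum_congr rfl fun X hX => ?_
  exact E_RR hab f (Finset.mem_powersetCard.mp hX).1

lemma sum_DD_sq_fib :
    ∑ y ∈ fib (Om d) (keyP a b) x, DD d f a b y ^ 2 =
      ∑ X ∈ slice x a b, (f (RR x a b hab X) -
        avg (slice x a b) (fun X => f (RR x a b hab X))) ^ 2 := by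
  have h : ∀ y ∈ fib (Om d) (keyP a b) x, DD d f a b y ^ 2 =
      (f y - avg (slice x a b) (fun X => f (RR x a b hab X))) ^ 2 := by
    intro y hy
    unfold DD dev cexp
    rw [fib_eq_of_mem hy, avg_fib_eq hab hx]
  rw [Finset.sum_congr rfl h, sum_fib_eq hab hx (fun y =>
    (f y - avg (slice x a b) (fun X => f (RR x a b hab X))) ^ 2)]

lemma fibre_var (hJ : JohnsonGap) :
    ∑ y ∈ fib (Om d) (keyP a b) x, DD d f a b y ^ 2 ≤
      (1 / 4 : ℝ) * ∑ y ∈ fib (Om d) (keyP a b) x, ∑ c, ∑ e, swTerm f y a b c e := by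
  rw [sum_DD_sq_fib hab hx, sum_E_fib hab hx]
  set g : Finset V → ℝ := fun X => f (RR x a b hab X) with hg
  set S := ∑ X ∈ slice x a b, (g X - avg (slice x a b) g) ^ 2 with hS
  have hgap := hJ (W1 x a b) (Xof x a (W1 x a b)).card g
  have hS0 : 0 ≤ S := Finset.sum_nonneg fun _ _ => sq_nonneg _
  have hjen0 : 0 ≤ jen (W1 x a b) (Xof x a (W1 x a b)).card g := by
    unfold jen
    exact Finset.sum_nonneg fun _ _ => Finset.sum_nonneg fun _ _ =>
      Finset.sum_nonneg fun _ _ => sq_nonneg _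
  by_cases hM : 2 ≤ (W1 x a b).card
  · have hM' : (2 : ℝ) ≤ ((W1 x a b).card : ℝ) := by exact_mod_cast hM
    have : 4 * S ≤ 2 * ((W1 x a b).card : ℝ) * S := by nlinarith
    linarith
  · have hcard : (slice x a b).card ≤ 1 := by
      rw [Finset.card_powersetCard]
      have hM2 : (W1 x a b).card ≤ 1 := by omega
      generalize (W1 x a b).card = M at hM2
      generalize (Xof x a (W1 x a b)).card = k
      interval_cases M
      · rcases k with _ | k <;> simp
      · rcases k with _ | _ | k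
        · simp
        · simp
        · rw [Nat.choose_eq_zero_of_lt (by omega)]
          omega
    have : S = 0 := var_zero_of_card_le_one _ _ hcard
    rw [this]
    linarith

lemma fibre_frame (hJ : JohnsonGap) (hF : JohnsonFrame) :
    ∑ c, ∑ e, (if c ≠ a ∧ c ≠ b ∧ e ≠ a ∧ e ≠ b ∧ c ≠ e then
      (if x.adj a c ≠ x.adj b c ∧ x.adj a e ≠ x.adj b e then
        cov (fib (Om d) (keyP a b) x) f (fun y => if y.adj a c ≠ y.adj a e then 1 else 0) ^ 2
          / avg (fib (Om d) (keyP a b) x) (fun y => if y.adj a c ≠ y.adj a e then 1 else 0)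
      else 0) else 0)
    ≤ (1 / 2 : ℝ) * avg (fib (Om d) (keyP a b) x) (fun y => ∑ c, ∑ e, swTerm f y a b c e) := by
  set g : Finset V → ℝ := fun X => f (RR x a b hab X) with hg
  -- the left side is the Johnson frame sum
  have hL : ∑ c, ∑ e, (if c ≠ a ∧ c ≠ b ∧ e ≠ a ∧ e ≠ b ∧ c ≠ e then
      (if x.adj a c ≠ x.adj b c ∧ x.adj a e ≠ x.adj b e then
        cov (fib (Om d) (keyP a b) x) f (fun y => if y.adj a c ≠ y.adj a e then 1 else 0) ^ 2
          / avg (fib (Om d) (keyP a b) x) (fun y => if y.adj a c ≠ y.adj a e then 1 else 0)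
      else 0) else 0) =
      ∑ c ∈ W1 x a b, ∑ e ∈ (W1 x a b).erase c,
        cov (slice x a b) g (sep c e) ^ 2 / avg (slice x a b) (sep c e) := by
    rw [← sum_sum_ite_mem (W1 x a b) (fun c => (W1 x a b).erase c)]
    refine Finset.sum_congr rfl fun c _ => Finset.sum_congr rfl fun e _ => ?_
    by_cases hce : c ∈ W1 x a b ∧ e ∈ (W1 x a b).erase c
    · rw [if_pos hce]
      obtain ⟨hc, he⟩ := hce
      obtain ⟨hne, heW⟩ := Finset.mem_erase.mp he
      obtain ⟨hca, hcb, hcx⟩ := mem_W1.mp hc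
      obtain ⟨hea, heb, hex⟩ := mem_W1.mp heW
      rw [if_pos ⟨hca, hcb, hea, heb, hne.symm⟩, if_pos ⟨hcx, hex⟩]
      have hsep : ∀ X ∈ slice x a b,
          (if (RR x a b hab X).adj a c ≠ (RR x a b hab X).adj a e then (1 : ℝ) else 0) =
            sep c e X := by
        intro X _
        unfold sep
        rw [rewire_adj_a, rewire_adj_a, if_pos hc, if_pos heW]
        by_cases h1 : c ∈ X <;> by_cases h2 : e ∈ X <;> simp [h1, h2]
      have havg : avg (fib (Om d) (keyP a b) x)
          (fun y => if y.adj a c ≠ y.adj a e then (1 : ℝ) else 0) = avg (slice x a b) (sep c e) := by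
        rw [avg_fib_eq hab hx]
        exact avg_congr hsep
      have hcov : cov (fib (Om d) (keyP a b) x) f
          (fun y => if y.adj a c ≠ y.adj a e then (1 : ℝ) else 0) =
            cov (slice x a b) g (sep c e) := by
        unfold cov
        rw [havg, avg_fib_eq hab hx f, avg_fib_eq hab hx]
        congr 1
        refine avg_congr fun X hX => ?_
        show f (RR x a b hab X) *
          (if (RR x a b hab X).adj a c ≠ (RR x a b hab X).adj a e then (1 : ℝ) else 0) =
            g X * sep c e X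
        rw [hsep X hX]
      rw [hcov, havg]
    · rw [if_neg hce]
      by_cases hc0 : c ≠ a ∧ c ≠ b ∧ e ≠ a ∧ e ≠ b ∧ c ≠ e
      · rw [if_pos hc0]
        obtain ⟨h1, h2, h3, h4, h5⟩ := hc0
        rw [if_neg]
        rintro ⟨h6, h7⟩
        exact hce ⟨mem_W1.mpr ⟨h1, h2, h6⟩,
          Finset.mem_erase.mpr ⟨h5.symm, mem_W1.mpr ⟨h3, h4, h7⟩⟩⟩
      · rw [if_neg hc0]
  rw [hL]
  have hfr := hF (W1 x a b) (Xof x a (W1 x a b)).card g
  have hgap := hJ (W1 x a b) (Xof x a (W1 x a b)).card g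
  refine hfr.trans ?_
  have hE : avg (fib (Om d) (keyP a b) x) (fun y => ∑ c, ∑ e, swTerm f y a b c e) =
      jen (W1 x a b) (Xof x a (W1 x a b)).card g / ((slice x a b).card : ℝ) := by
    unfold avg
    rw [sum_E_fib hab hx, card_fib_eq hab hx]
  rw [hE]
  have hav : avg (slice x a b) (fun X => (g X - avg (slice x a b) g) ^ 2) =
      (∑ X ∈ slice x a b, (g X - avg (slice x a b) g) ^ 2) / ((slice x a b).card : ℝ) := rfl
  rw [hav]
  have hN : (0 : ℝ) ≤ ((slice x a b).card : ℝ) := Nat.cast_nonneg _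
  rw [← mul_div_assoc, ← mul_div_assoc]
  apply div_le_div_of_nonneg_right _ hN
  linarith

end Fibrewise

end Fib

end FibJohnson

open FibJohnson

theorem stepVar (h : JohnsonGap) : StepVar := by
  intro V _ _ d f a b hab
  unfold swE₂
  rw [← sum_avg_fib (Om d) (keyP a b) (fun x => DD d f a b x ^ 2),
    ← sum_avg_fib (Om d) (keyP a b) (fun x => ∑ c, ∑ e, swTerm f x a b c e), Finset.mul_sum]
  refine Finset.sum_le_sum fun x hx => ?_
  unfold avg
  rw [← mul_div_assoc]
  exact div_le_div_of_nonneg_right (fibre_var hab hx f h) (Nat.cast_nonneg _)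

theorem stepFrame (h1 : JohnsonGap) (h2 : JohnsonFrame) : StepFrame := by
  intro V _ _ d f a b hab
  unfold swE₂
  rw [← sum_avg_fib (Om d) (keyP a b) (fun x => ∑ c, ∑ e, swTerm f x a b c e), Finset.mul_sum]
  have hL : ∑ c, ∑ e, (if c ≠ a ∧ c ≠ b ∧ e ≠ a ∧ e ≠ b ∧ c ≠ e then Psi d f a b c e else 0) =
      ∑ x ∈ Om d, ∑ c, ∑ e, (if c ≠ a ∧ c ≠ b ∧ e ≠ a ∧ e ≠ b ∧ c ≠ e then
      (if x.adj a c ≠ x.adj b c ∧ x.adj a e ≠ x.adj b e then
        cov (fib (Om d) (keyP a b) x) f (fun y => if y.adj a c ≠ y.adj a e then 1 else 0) ^ 2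
          / avg (fib (Om d) (keyP a b) x) (fun y => if y.adj a c ≠ y.adj a e then 1 else 0)
      else 0) else 0) := by
    have h1 : ∀ c e, (if c ≠ a ∧ c ≠ b ∧ e ≠ a ∧ e ≠ b ∧ c ≠ e then Psi d f a b c e else 0) =
        ∑ x ∈ Om d, (if c ≠ a ∧ c ≠ b ∧ e ≠ a ∧ e ≠ b ∧ c ≠ e then
      (if x.adj a c ≠ x.adj b c ∧ x.adj a e ≠ x.adj b e then
        cov (fib (Om d) (keyP a b) x) f (fun y => if y.adj a c ≠ y.adj a e then 1 else 0) ^ 2
          / avg (fib (Om d) (keyP a b) x) (fun y => if y.adj a c ≠ y.adj a e then 1 else 0)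
      else 0) else 0) := by
      intro c e
      by_cases hc : c ≠ a ∧ c ≠ b ∧ e ≠ a ∧ e ≠ b ∧ c ≠ e
      · simp only [if_pos hc]
        rfl
      · simp only [if_neg hc, Finset.sum_const_zero]
    simp_rw [h1]
    exact (Finset.sum_congr rfl fun c _ => Finset.sum_comm).trans Finset.sum_comm
  rw [hL]
  exact Finset.sum_le_sum fun x hx => fibre_frame hab hx f h1 h2

end Crest.Agent.S0453Lib
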