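import Crest.Agent.S0453Lib.Spec

/-! # S0453 WP W7: `StepTriple` from `ThreeRowLemma` -/

set_option autoImplicit false
open Finset

namespace Crest.Agent.S0453Lib

section generic
variable {α β κ κ' σ : Type*} [DecidableEq κ] [DecidableEq κ'] [DecidableEq σ]

lemma dev_transport [DecidableEq α] [DecidableEq β] (F : Finset α) (G : Finset β) (Θ : α → β) (Ψ : β → α)
    (h1 : ∀ x ∈ F, Θ x ∈ G) (h2 : ∀ y ∈ G, Ψ y ∈ F) (h3 : ∀ x ∈ F, Ψ (Θ x) = x)
    (h4 : ∀ y ∈ G, Θ (Ψ y) = y) (key : α → κ) (key' : β → κ')
    (hk : ∀ x ∈ F, ∀ y ∈ F, key x = key y ↔ key' (Θ x) = key' (Θ y)) (f : α → ℝ) :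
    ∀ x ∈ F, dev F key f x = dev G key' (fun y => f (Ψ y)) (Θ x) := by
  intro x hx
  unfold dev cexp avg fib
  have himg : G.filter (fun y => key' y = key' (Θ x))
      = (F.filter fun y => key y = key x).image Θ := by
    ext y
    simp only [mem_filter, mem_image]
    constructor
    · rintro ⟨hy, hy'⟩
      refine ⟨Ψ y, ⟨h2 y hy, ?_⟩, h4 y hy⟩
      rw [hk _ (h2 y hy) _ hx, h4 y hy, hy']
    · rintro ⟨z, ⟨hz, hz'⟩, rfl⟩
      exact ⟨h1 z hz, (hk _ hz _ hx).1 hz'⟩
  have hinj : Set.InjOn Θ (F.filter fun y => key y = key x : Finset α) := by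
    intro u hu v hv huv
    have hu' := (mem_filter.1 (Finset.mem_coe.1 hu)).1
    have hv' := (mem_filter.1 (Finset.mem_coe.1 hv)).1
    rw [← h3 u hu', ← h3 v hv', huv]
  rw [himg, Finset.sum_image hinj, Finset.card_image_of_injOn hinj]
  show f x - _ = f (Ψ (Θ x)) - _
  rw [h3 x hx]
  have hsum : ∑ z ∈ F.filter (fun y => key y = key x), f (Ψ (Θ z))
      = ∑ z ∈ F.filter (fun y => key y = key x), f z :=
    Finset.sum_congr rfl fun z hz => by rw [h3 z (mem_filter.1 hz).1]
  rw [hsum]

lemma dev_restrict (S : Finset α) (sec : α → σ) (s : σ) (key : α → κ)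
    (hkey : ∀ x ∈ S, ∀ y ∈ S, key x = key y → sec x = sec y) (f : α → ℝ) :
    ∀ x ∈ S.filter (fun y => sec y = s), dev S key f x = dev (S.filter fun y => sec y = s) key f x := by
  intro x hx
  have hx' := mem_filter.1 hx
  have : fib S key x = fib (S.filter fun y => sec y = s) key x := by
    ext y
    simp only [fib, mem_filter]
    constructor
    · rintro ⟨hy, hy'⟩
      exact ⟨⟨hy, (hkey y hy x hx'.1 hy').trans hx'.2⟩, hy'⟩
    · rintro ⟨⟨hy, _⟩, hy'⟩
      exact ⟨hy, hy'⟩
  unfold dev cexp
  rw [this]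

end generic

section graph
variable {V : Type} [Fintype V] [DecidableEq V]

/-- adjacency with all pairs meeting `T` blanked -/
def blank (T : Finset V) (x : Gr V) : V → V → Bool :=
  fun u v => if u ∈ T ∨ v ∈ T then false else x.adj u v

/-- membership in a row of the table -/
def rowB (T : Finset V) (u v w : V) (x : Gr V) : Option V → Bool
  | some t => decide (t ∉ T) && x.adj w t
  | none => (x.adj u w || x.adj v w) && !x.adj u v

/-- the row of `w`, with the virtual column `none`. -/
def row (T : Finset V) (u v w : V) (x : Gr V) : Finset (Option V) :=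
  univ.filter fun z => rowB T u v w x z = true

lemma mem_row_some (T : Finset V) (u v w : V) (x : Gr V) (t : V) :
    some t ∈ row T u v w x ↔ t ∉ T ∧ x.adj w t = true := by
  simp [row, rowB]

lemma mem_row_none (T : Finset V) (u v w : V) (x : Gr V) :
    none ∈ row T u v w x ↔ ((x.adj u w || x.adj v w) && !x.adj u v) = true := by
  simp [row, rowB]

/-- the neighbours of `y` outside `T` -/
def nbO (T : Finset V) (x : Gr V) (y : V) : Finset V :=
  univ.filter fun t => t ∉ T ∧ x.adj y t = true

lemma deg_split {T : Finset V} {u v w : V} (huv : u ≠ v) (huw : u ≠ w) (hvw : v ≠ w)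
    (hT : T = {u, v, w}) (x : Gr V) (y : V) :
    x.deg y = (nbO T x y).card + (x.adj y u).toNat + (x.adj y v).toNat + (x.adj y w).toNat := by
  unfold Gr.deg nbO
  have h1 : (univ.filter fun t => x.adj y t = true)
      = (univ.filter fun t => t ∉ T ∧ x.adj y t = true) ∪ (T.filter fun t => x.adj y t = true) := by
    ext t
    simp only [mem_filter, mem_univ, true_and, mem_union]
    tauto
  have h2 : Disjoint (univ.filter fun t => t ∉ T ∧ x.adj y t = true)
      (T.filter fun t => x.adj y t = true) := by
    rw [Finset.disjoint_left]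
    intro t ht ht'
    simp only [mem_filter, mem_univ, true_and] at ht ht'
    exact ht.1 ht'.1
  have h3 : (T.filter fun t => x.adj y t = true).card
      = (x.adj y u).toNat + (x.adj y v).toNat + (x.adj y w).toNat := by
    subst hT
    rw [card_filter, sum_insert (by simp [huv, huw]), sum_insert (by simp [hvw]), sum_singleton]
    cases x.adj y u <;> cases x.adj y v <;> cases x.adj y w <;> rfl
  rw [h1, card_union_of_disjoint h2, h3]
  omega

lemma row_card (T : Finset V) (u v w : V) (x : Gr V) :
    (row T u v w x).card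
      = (nbO T x w).card + ((x.adj u w || x.adj v w) && !x.adj u v).toNat := by
  unfold row nbO
  rw [card_filter, Fintype.sum_option, card_filter]
  have h1 : ∑ t : V, (if rowB T u v w x (some t) = true then 1 else 0)
      = ∑ t : V, (if t ∉ T ∧ x.adj w t = true then 1 else 0) := by
    refine Finset.sum_congr rfl fun t _ => ?_
    simp [rowB]
  rw [h1, add_comm]
  congr 1
  show (if rowB T u v w x none = true then 1 else 0) = (rowB T u v w x none).toNat
  cases rowB T u v w x none <;> rfl

/-- the defect between the inner degree and the entry -/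
def gS (s : ℕ) : ℕ := s - 1

/-- Boolean check: inner degree = entry + defect. -/
lemma bool_check1 : ∀ p q t : Bool,
    q.toNat + t.toNat = ((q || t) && !p).toNat + gS (p.toNat + q.toNat + t.toNat) := by decide

/-- Boolean check for entries: the number of entries only depends on `s`. -/
lemma bool_check2 : ∀ p q t p' q' t' : Bool, p.toNat + q.toNat + t.toNat = p'.toNat + q'.toNat + t'.toNat →
    ((q || t) && !p).toNat + ((p || t) && !q).toNat + ((p || q) && !t).toNat
      = ((q' || t') && !p').toNat + ((p' || t') && !q').toNat + ((p' || q') && !t').toNat := by decide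

/-- same statement as `bool_check2` with the entries in the order of the table. -/
lemma bool_check2' (p q t p' q' t' : Bool)
    (h : p.toNat + q.toNat + t.toNat = p'.toNat + q'.toNat + t'.toNat) :
    ((q || t) && !p).toNat + ((p || t) && !q).toNat + ((p || q) && !t).toNat
      = ((q' || t') && !p').toNat + ((p' || t') && !q').toNat + ((p' || q') && !t').toNat :=
  bool_check2 p q t p' q' t' h

/-- a row is determined by the key (and conversely), inside a sector -/
lemma key_iff {T : Finset V} {u v w : V} (huv : u ≠ v) (huw : u ≠ w) (hvw : v ≠ w)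
    (hT : T = {u, v, w}) {x y : Gr V} (hb : blank T x = blank T y)
    (hs : (x.adj u v).toNat + (x.adj u w).toNat + (x.adj v w).toNat
      = (y.adj u v).toNat + (y.adj u w).toNat + (y.adj v w).toNat) :
    keyP u v x = keyP u v y ↔ row T u v w x = row T u v w y := by
  have hZ : ∀ t, t ∉ T → t ≠ u ∧ t ≠ v ∧ t ≠ w := by
    intro t ht
    subst hT
    simpa [not_or] using ht
  constructor
  · intro h
    have hp : x.adj u v = y.adj u v := by
      have := congrFun (congrFun h u) v
      simpa [keyP] using this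
    have hw : ∀ t, t ∉ T → x.adj w t = y.adj w t := by
      intro t ht
      obtain ⟨h1, h2, _⟩ := hZ t ht
      have := congrFun (congrFun h w) t
      simpa [keyP, Ne.symm huw, Ne.symm hvw, h1, h2] using this
    ext z
    cases z with
    | none =>
      rw [mem_row_none, mem_row_none]
      rw [hp] at hs ⊢
      revert hs
      generalize x.adj u w = a1
      generalize x.adj v w = a2
      generalize y.adj u w = a3
      generalize y.adj v w = a4
      generalize y.adj u v = a5
      revert a1 a2 a3 a4 a5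
      decide
    | some t =>
      rw [mem_row_some, mem_row_some]
      constructor
      · rintro ⟨h1, h2⟩; exact ⟨h1, (hw t h1) ▸ h2⟩
      · rintro ⟨h1, h2⟩; exact ⟨h1, (hw t h1).symm ▸ h2⟩
  · intro h
    have hr : ∀ t, t ∉ T → x.adj w t = y.adj w t := by
      intro t ht
      have := congrArg (fun S => some t ∈ S) h
      simp only [mem_row_some, eq_iff_iff] at this
      have h3 : x.adj w t = true ↔ y.adj w t = true := by
        constructor
        · intro h4; exact (this.1 ⟨ht, h4⟩).2
        · intro h4; exact (this.2 ⟨ht, h4⟩).2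
      cases h5 : x.adj w t <;> cases h6 : y.adj w t <;> simp_all
    have hn : ((x.adj u w || x.adj v w) && !x.adj u v) = ((y.adj u w || y.adj v w) && !y.adj u v) := by
      have := congrArg (fun S => none ∈ S) h
      simp only [mem_row_none, eq_iff_iff] at this
      cases h5 : ((x.adj u w || x.adj v w) && !x.adj u v) <;>
        cases h6 : ((y.adj u w || y.adj v w) && !y.adj u v) <;> simp_all
    have hp : x.adj u v = y.adj u v := by
      revert hs hn
      generalize x.adj u w = a1
      generalize x.adj v w = a2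
      generalize y.adj u w = a3
      generalize y.adj v w = a4
      generalize y.adj u v = a5
      generalize x.adj u v = a6
      revert a1 a2 a3 a4 a5 a6
      decide
    funext u' v'
    unfold keyP
    by_cases hc : (u' = u ∨ u' = v ∨ v' = u ∨ v' = v) ∧ ¬((u' = u ∧ v' = v) ∨ (u' = v ∧ v' = u))
    · rw [if_pos hc, if_pos hc]
    · rw [if_neg hc, if_neg hc]
      by_cases hc1 : (u' = u ∧ v' = v) ∨ (u' = v ∧ v' = u)
      · rcases hc1 with ⟨rfl, rfl⟩ | ⟨rfl, rfl⟩
        · exact hp
        · rw [x.symm, y.symm]; exact hp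
      · have hc2 : ¬ (u' = u ∨ u' = v ∨ v' = u ∨ v' = v) := fun h' => hc ⟨h', hc1⟩
        simp only [not_or] at hc2
        obtain ⟨h1, h2, h3, h4⟩ := hc2
        by_cases hu' : u' = w
        · subst hu'
          by_cases hv' : v' = u'
          · subst hv'; rw [x.irrefl, y.irrefl]
          · apply hr
            subst hT
            simp [h3, h4, hv']
        · by_cases hv' : v' = w
          · subst hv'
            rw [x.symm, y.symm]
            apply hr
            subst hT
            simp [h1, h2, hu']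
          · have := congrFun (congrFun hb u') v'
            have hu2 : u' ∉ T := by subst hT; simp [h1, h2, hu']
            have hv2 : v' ∉ T := by subst hT; simp [h3, h4, hv']
            simpa [blank, hu2, hv2] using this


/-- the table of `x` -/
def tab (a b c : V) (x : Gr V) : Fin 3 → Finset (Option V) :=
  ![row {a, b, c} a b c x, row {a, b, c} a c b x, row {a, b, c} b c a x]

/-- the number of inner edges -/
def sOf (a b c : V) (x : Gr V) : ℕ := (x.adj a b).toNat + (x.adj a c).toNat + (x.adj b c).toNat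

/-- the sector of `x` -/
def sec (a b c : V) (x : Gr V) : (V → V → Bool) × ℕ := (blank {a, b, c} x, sOf a b c x)

/-- the inner rule -/
def innerB (s : ℕ) (n : Fin 3 → Bool) (i j : Fin 3) : Bool :=
  if i = j then false else
    if s = 1 then n i && n j else if s = 2 then n i || n j else if s = 3 then true else false

lemma innerB_symm (s : ℕ) (n : Fin 3 → Bool) (i j : Fin 3) : innerB s n i j = innerB s n j i := by
  unfold innerB
  by_cases h : i = j
  · subst h; rfl
  · rw [if_neg h, if_neg (Ne.symm h), Bool.and_comm (n i), Bool.or_comm (n i)]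

/-- the index of a vertex of `T` -/
def idx (a b c u : V) : Fin 3 := if u = c then 0 else if u = b then 1 else 2

/-- the graph with a given table -/
def rebuild (a b c : V) (x₀ : Gr V) (s₀ : ℕ) (S : Fin 3 → Finset (Option V)) : Gr V where
  adj u v :=
    if u ∈ ({a, b, c} : Finset V) then
      if v ∈ ({a, b, c} : Finset V) then
        innerB s₀ (fun i => decide (none ∈ S i)) (idx a b c u) (idx a b c v)
      else decide (some v ∈ S (idx a b c u))
    else if v ∈ ({a, b, c} : Finset V) then decide (some u ∈ S (idx a b c v))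
    else x₀.adj u v
  symm u v := by
    by_cases hu : u ∈ ({a, b, c} : Finset V) <;> by_cases hv : v ∈ ({a, b, c} : Finset V)
    · simp only [hu, hv, if_true]; exact innerB_symm _ _ _ _
    · simp only [hu, hv, if_true, if_false]
    · simp only [hu, hv, if_true, if_false]
    · simp only [hu, hv, if_false]; exact x₀.symm u v
  irrefl u := by
    by_cases hu : u ∈ ({a, b, c} : Finset V)
    · simp only [hu, if_true]; simp [innerB]
    · simp only [hu, if_false]; exact x₀.irrefl u

lemma card3 (P : Fin 3 → Prop) [DecidablePred P] :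
    (univ.filter P).card = (decide (P 0)).toNat + (decide (P 1)).toNat + (decide (P 2)).toNat := by
  rw [card_filter, Fin.sum_univ_three]
  by_cases h0 : P 0 <;> by_cases h1 : P 1 <;> by_cases h2 : P 2 <;> simp [h0, h1, h2]

lemma decide_row_none (T : Finset V) (u v w : V) (x : Gr V) :
    decide (none ∈ row T u v w x) = ((x.adj u w || x.adj v w) && !x.adj u v) := by
  rw [Bool.eq_iff_iff, decide_eq_true_iff, mem_row_none]

lemma decide_row_some {T : Finset V} (u v w : V) (x : Gr V) {t : V} (ht : t ∉ T) :
    decide (some t ∈ row T u v w x) = x.adj w t := by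
  rw [Bool.eq_iff_iff, decide_eq_true_iff, mem_row_some]
  simp [ht]

lemma rowcard_add {T : Finset V} {u v w : V} (huv : u ≠ v) (huw : u ≠ w) (hvw : v ≠ w)
    (hT : T = {u, v, w}) (x : Gr V) :
    (row T u v w x).card + gS ((x.adj u v).toNat + (x.adj u w).toNat + (x.adj v w).toNat)
      = x.deg w := by
  rw [row_card, deg_split huv huw hvw hT x w, x.irrefl w, x.symm w u, x.symm w v]
  have := bool_check1 (x.adj u v) (x.adj u w) (x.adj v w)
  simp only [Bool.toNat_false]
  omega

section table
variable {a b c : V} (hab : a ≠ b) (hac : a ≠ c) (hbc : b ≠ c)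
include hab hac hbc

lemma sOf_acb (x : Gr V) :
    (x.adj a c).toNat + (x.adj a b).toNat + (x.adj c b).toNat = sOf a b c x := by
  unfold sOf; rw [x.symm c b]; omega

lemma sOf_bca (x : Gr V) :
    (x.adj b c).toNat + (x.adj b a).toNat + (x.adj c a).toNat = sOf a b c x := by
  unfold sOf; rw [x.symm b a, x.symm c a]; omega

omit hab hac hbc in
lemma T_acb : ({a, b, c} : Finset V) = {a, c, b} := by ext t; simp; tauto
omit hab hac hbc in
lemma T_bca : ({a, b, c} : Finset V) = {b, c, a} := by ext t; simp; tauto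

/-- row cardinalities -/
lemma tab_card0 (x : Gr V) : (tab a b c x 0).card + gS (sOf a b c x) = x.deg c :=
  rowcard_add hab hac hbc rfl x

lemma tab_card1 (x : Gr V) : (tab a b c x 1).card + gS (sOf a b c x) = x.deg b := by
  have := rowcard_add hac hab (Ne.symm hbc) (T_acb (a := a) (b := b) (c := c)) x
  rw [sOf_acb hab hac hbc x] at this
  exact this

lemma tab_card2 (x : Gr V) : (tab a b c x 2).card + gS (sOf a b c x) = x.deg a := by
  have := rowcard_add hbc (Ne.symm hab) (Ne.symm hac) (T_bca (a := a) (b := b) (c := c)) x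
  rw [sOf_bca hab hac hbc x] at this
  exact this

/-- column counts outside `T` -/
lemma col_some (x : Gr V) {t : V} (ht : t ∉ ({a, b, c} : Finset V)) :
    (univ.filter fun i => some t ∈ tab a b c x i).card + (nbO {a, b, c} x t).card = x.deg t := by
  rw [card3, deg_split hab hac hbc rfl x t, x.symm t a, x.symm t b, x.symm t c]
  show (decide (some t ∈ row {a, b, c} a b c x)).toNat + (decide (some t ∈ row {a, b, c} a c b x)).toNat
    + (decide (some t ∈ row {a, b, c} b c a x)).toNat + _ = _
  rw [decide_row_some _ _ _ _ ht, decide_row_some _ _ _ _ ht, decide_row_some _ _ _ _ ht]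
  omega

omit hab hac hbc in
/-- column counts in `T` -/
lemma col_someT (x : Gr V) {t : V} (ht : t ∈ ({a, b, c} : Finset V)) :
    (univ.filter fun i => some t ∈ tab a b c x i).card = 0 := by
  rw [card_eq_zero, filter_eq_empty_iff]
  intro i _
  fin_cases i
  · show some t ∉ row {a, b, c} a b c x
    rw [mem_row_some]; tauto
  · show some t ∉ row {a, b, c} a c b x
    rw [mem_row_some]; tauto
  · show some t ∉ row {a, b, c} b c a x
    rw [mem_row_some]; tauto

omit hab hac hbc in
lemma n0 (x : Gr V) : decide (none ∈ tab a b c x 0) = ((x.adj a c || x.adj b c) && !x.adj a b) :=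
  decide_row_none _ _ _ _ _

omit hab hac hbc in
lemma n1 (x : Gr V) : decide (none ∈ tab a b c x 1) = ((x.adj a b || x.adj b c) && !x.adj a c) := by
  have := decide_row_none ({a, b, c} : Finset V) a c b x
  rw [x.symm c b] at this
  exact this

omit hab hac hbc in
lemma n2 (x : Gr V) : decide (none ∈ tab a b c x 2) = ((x.adj a b || x.adj a c) && !x.adj b c) := by
  have := decide_row_none ({a, b, c} : Finset V) b c a x
  rw [x.symm b a, x.symm c a] at this
  exact this

omit hab hac hbc in
/-- the count at the virtual column -/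
lemma col_none (x : Gr V) : (univ.filter fun i => none ∈ tab a b c x i).card
    = ((x.adj a c || x.adj b c) && !x.adj a b).toNat + ((x.adj a b || x.adj b c) && !x.adj a c).toNat
      + ((x.adj a b || x.adj a c) && !x.adj b c).toNat := by
  rw [card3, n0, n1, n2]

omit hab hac hbc in
lemma nbO_eq_of_blank {x y : Gr V} (hb : blank {a, b, c} x = blank {a, b, c} y) {t : V}
    (ht : t ∉ ({a, b, c} : Finset V)) : nbO {a, b, c} x t = nbO {a, b, c} y t := by
  ext t'
  simp only [nbO, mem_filter, mem_univ, true_and]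
  constructor
  · rintro ⟨h1, h2⟩
    refine ⟨h1, ?_⟩
    have := congrFun (congrFun hb t) t'
    simp only [blank, ht, h1, or_self, if_false] at this
    rwa [← this]
  · rintro ⟨h1, h2⟩
    refine ⟨h1, ?_⟩
    have := congrFun (congrFun hb t) t'
    simp only [blank, ht, h1, or_self, if_false] at this
    rwa [this]

/-- the key of `keyP a b` is the row 0, etc. -/
lemma key0 {x y : Gr V} (h : sec a b c x = sec a b c y) :
    keyP a b x = keyP a b y ↔ tab a b c x 0 = tab a b c y 0 :=
  key_iff hab hac hbc rfl (congrArg Prod.fst h) (congrArg Prod.snd h)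

lemma key1 {x y : Gr V} (h : sec a b c x = sec a b c y) :
    keyP a c x = keyP a c y ↔ tab a b c x 1 = tab a b c y 1 := by
  apply key_iff hac hab (Ne.symm hbc) (T_acb (a := a) (b := b) (c := c)) (congrArg Prod.fst h)
  rw [sOf_acb hab hac hbc, sOf_acb hab hac hbc]
  exact congrArg Prod.snd h

lemma key2 {x y : Gr V} (h : sec a b c x = sec a b c y) :
    keyP b c x = keyP b c y ↔ tab a b c x 2 = tab a b c y 2 := by
  apply key_iff hbc (Ne.symm hab) (Ne.symm hac) (T_bca (a := a) (b := b) (c := c)) (congrArg Prod.fst h)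
  rw [sOf_bca hab hac hbc, sOf_bca hab hac hbc]
  exact congrArg Prod.snd h

/-- the table of a graph of the sector is in `tabs` -/
lemma tab_mem {d : V → ℕ} {x x₀ : Gr V} (hx : x ∈ Om d) (hx₀ : x₀ ∈ Om d)
    (h : sec a b c x = sec a b c x₀) :
    tab a b c x ∈ tabs (fun z => (univ.filter fun i => z ∈ tab a b c x₀ i).card)
      (fun i => (tab a b c x₀ i).card) := by
  have hdx : ∀ v, x.deg v = d v := (mem_filter.1 hx).2
  have hdx₀ : ∀ v, x₀.deg v = d v := (mem_filter.1 hx₀).2
  have hb : blank {a, b, c} x = blank {a, b, c} x₀ := congrArg Prod.fst h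
  have hs : sOf a b c x = sOf a b c x₀ := congrArg Prod.snd h
  simp only [tabs, mem_filter, mem_univ, true_and]
  constructor
  · intro z
    cases z with
    | none =>
      rw [col_none, col_none]
      exact bool_check2' _ _ _ _ _ _ hs
    | some t =>
      by_cases ht : t ∈ ({a, b, c} : Finset V)
      · rw [col_someT x ht, col_someT x₀ ht]
      · have h1 := col_some hab hac hbc x ht
        have h2 := col_some hab hac hbc x₀ ht
        rw [nbO_eq_of_blank hb ht, hdx] at h1
        rw [hdx₀] at h2
        omega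
  · intro i
    fin_cases i
    · have h1 := tab_card0 hab hac hbc x
      have h2 := tab_card0 hab hac hbc x₀
      rw [hdx] at h1; rw [hdx₀, ← hs] at h2
      show (tab a b c x 0).card = (tab a b c x₀ 0).card
      omega
    · have h1 := tab_card1 hab hac hbc x
      have h2 := tab_card1 hab hac hbc x₀
      rw [hdx] at h1; rw [hdx₀, ← hs] at h2
      show (tab a b c x 1).card = (tab a b c x₀ 1).card
      omega
    · have h1 := tab_card2 hab hac hbc x
      have h2 := tab_card2 hab hac hbc x₀
      rw [hdx] at h1; rw [hdx₀, ← hs] at h2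
      show (tab a b c x 2).card = (tab a b c x₀ 2).card
      omega

/-! ### values of `rebuild` -/
lemma idx_c : idx a b c c = 0 := by simp [idx]
lemma idx_b : idx a b c b = 1 := by simp [idx, hbc]
lemma idx_a : idx a b c a = 2 := by simp [idx, hac, hab]

lemma reb_ab (x₀ : Gr V) (s₀ : ℕ) (S : Fin 3 → Finset (Option V)) :
    (rebuild a b c x₀ s₀ S).adj a b = innerB s₀ (fun i => decide (none ∈ S i)) 2 1 := by
  simp [rebuild, idx_a hab hac hbc, idx_b hab hac hbc]

lemma reb_ac (x₀ : Gr V) (s₀ : ℕ) (S : Fin 3 → Finset (Option V)) :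
    (rebuild a b c x₀ s₀ S).adj a c = innerB s₀ (fun i => decide (none ∈ S i)) 2 0 := by
  simp [rebuild, idx_a hab hac hbc, idx_c hab hac hbc]

lemma reb_bc (x₀ : Gr V) (s₀ : ℕ) (S : Fin 3 → Finset (Option V)) :
    (rebuild a b c x₀ s₀ S).adj b c = innerB s₀ (fun i => decide (none ∈ S i)) 1 0 := by
  simp [rebuild, idx_b hab hac hbc, idx_c hab hac hbc]

lemma reb_out (x₀ : Gr V) (s₀ : ℕ) (S : Fin 3 → Finset (Option V)) {t : V}
    (ht : t ∉ ({a, b, c} : Finset V)) (i : Fin 3) (hi : i = idx a b c (![c, b, a] i)) :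
    (rebuild a b c x₀ s₀ S).adj (![c, b, a] i) t = decide (some t ∈ S i) := by
  have hT : (![c, b, a] i) ∈ ({a, b, c} : Finset V) := by
    fin_cases i <;> simp
  simp only [rebuild, hT, ht, if_true, if_false]
  rw [← hi]

omit hab hac hbc in
lemma reb_oo (x₀ : Gr V) (s₀ : ℕ) (S : Fin 3 → Finset (Option V)) {t t' : V}
    (ht : t ∉ ({a, b, c} : Finset V)) (ht' : t' ∉ ({a, b, c} : Finset V)) :
    (rebuild a b c x₀ s₀ S).adj t t' = x₀.adj t t' := by
  simp only [rebuild, ht, ht', if_false]


omit hab hac hbc in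
/-- Boolean check: the inner rule recovers the inner adjacency from the entries. -/
lemma inner_rec : ∀ p q t : Bool,
    innerB (p.toNat + q.toNat + t.toNat) ![(q || t) && !p, (p || t) && !q, (p || q) && !t] 2 1 = p ∧
    innerB (p.toNat + q.toNat + t.toNat) ![(q || t) && !p, (p || t) && !q, (p || q) && !t] 2 0 = q ∧
    innerB (p.toNat + q.toNat + t.toNat) ![(q || t) && !p, (p || t) && !q, (p || q) && !t] 1 0 = t := by
  decide

omit hab hac hbc in
/-- Boolean check: a filling of the virtual column with the right count gives a consistent triangle. -/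
lemma inner_rec' : ∀ p q t n0 n1 n2 : Bool,
    n0.toNat + n1.toNat + n2.toNat
      = ((q || t) && !p).toNat + ((p || t) && !q).toNat + ((p || q) && !t).toNat →
    ((innerB (p.toNat + q.toNat + t.toNat) ![n0, n1, n2] 2 0
        || innerB (p.toNat + q.toNat + t.toNat) ![n0, n1, n2] 1 0)
        && !innerB (p.toNat + q.toNat + t.toNat) ![n0, n1, n2] 2 1) = n0 ∧
    ((innerB (p.toNat + q.toNat + t.toNat) ![n0, n1, n2] 2 1
        || innerB (p.toNat + q.toNat + t.toNat) ![n0, n1, n2] 1 0)
        && !innerB (p.toNat + q.toNat + t.toNat) ![n0, n1, n2] 2 0) = n1 ∧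
    ((innerB (p.toNat + q.toNat + t.toNat) ![n0, n1, n2] 2 1
        || innerB (p.toNat + q.toNat + t.toNat) ![n0, n1, n2] 2 0)
        && !innerB (p.toNat + q.toNat + t.toNat) ![n0, n1, n2] 1 0) = n2 ∧
    (innerB (p.toNat + q.toNat + t.toNat) ![n0, n1, n2] 2 1).toNat
      + (innerB (p.toNat + q.toNat + t.toNat) ![n0, n1, n2] 2 0).toNat
      + (innerB (p.toNat + q.toNat + t.toNat) ![n0, n1, n2] 1 0).toNat
      = p.toNat + q.toNat + t.toNat := by
  decide

lemma reb_c_out (x₀ : Gr V) (s₀ : ℕ) (S : Fin 3 → Finset (Option V)) {t : V}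
    (ht : t ∉ ({a, b, c} : Finset V)) :
    (rebuild a b c x₀ s₀ S).adj c t = decide (some t ∈ S 0) :=
  reb_out hab hac hbc x₀ s₀ S ht 0 (idx_c hab hac hbc).symm

lemma reb_b_out (x₀ : Gr V) (s₀ : ℕ) (S : Fin 3 → Finset (Option V)) {t : V}
    (ht : t ∉ ({a, b, c} : Finset V)) :
    (rebuild a b c x₀ s₀ S).adj b t = decide (some t ∈ S 1) :=
  reb_out hab hac hbc x₀ s₀ S ht 1 (idx_b hab hac hbc).symm

lemma reb_a_out (x₀ : Gr V) (s₀ : ℕ) (S : Fin 3 → Finset (Option V)) {t : V}
    (ht : t ∉ ({a, b, c} : Finset V)) :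
    (rebuild a b c x₀ s₀ S).adj a t = decide (some t ∈ S 2) :=
  reb_out hab hac hbc x₀ s₀ S ht 2 (idx_a hab hac hbc).symm

omit hab hac hbc in
lemma n_vec (x : Gr V) : (fun i => decide (none ∈ tab a b c x i))
    = ![(x.adj a c || x.adj b c) && !x.adj a b, (x.adj a b || x.adj b c) && !x.adj a c,
        (x.adj a b || x.adj a c) && !x.adj b c] := by
  funext i
  fin_cases i
  · exact n0 x
  · exact n1 x
  · exact n2 x

/-- rebuilding the table of `x` gives `x` back -/
lemma rebuild_tab {x x₀ : Gr V} (h : sec a b c x = sec a b c x₀) :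
    rebuild a b c x₀ (sOf a b c x₀) (tab a b c x) = x := by
  have hb : blank {a, b, c} x = blank {a, b, c} x₀ := congrArg Prod.fst h
  have hs : sOf a b c x = sOf a b c x₀ := congrArg Prod.snd h
  obtain ⟨h1, h2, h3⟩ := inner_rec (x.adj a b) (x.adj a c) (x.adj b c)
  have hpab : (rebuild a b c x₀ (sOf a b c x₀) (tab a b c x)).adj a b = x.adj a b := by
    rw [reb_ab hab hac hbc, n_vec, ← hs]; exact h1
  have hpac : (rebuild a b c x₀ (sOf a b c x₀) (tab a b c x)).adj a c = x.adj a c := by
    rw [reb_ac hab hac hbc, n_vec, ← hs]; exact h2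
  have hpbc : (rebuild a b c x₀ (sOf a b c x₀) (tab a b c x)).adj b c = x.adj b c := by
    rw [reb_bc hab hac hbc, n_vec, ← hs]; exact h3
  set y := rebuild a b c x₀ (sOf a b c x₀) (tab a b c x) with hy
  have hout : ∀ u ∈ ({a, b, c} : Finset V), ∀ t, t ∉ ({a, b, c} : Finset V) → y.adj u t = x.adj u t := by
    intro u hu t ht
    simp only [mem_insert, mem_singleton] at hu
    rcases hu with rfl | rfl | rfl
    · rw [hy, reb_a_out hab hac hbc _ _ _ ht]
      exact decide_row_some _ _ _ _ ht
    · rw [hy, reb_b_out hab hac hbc _ _ _ ht]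
      exact decide_row_some _ _ _ _ ht
    · rw [hy, reb_c_out hab hac hbc _ _ _ ht]
      exact decide_row_some _ _ _ _ ht
  apply Gr.ext
  funext u v
  by_cases hu : u ∈ ({a, b, c} : Finset V)
  · by_cases hv : v ∈ ({a, b, c} : Finset V)
    · simp only [mem_insert, mem_singleton] at hu hv
      rcases hu with rfl | rfl | rfl <;> rcases hv with rfl | rfl | rfl
      · rw [y.irrefl, x.irrefl]
      · exact hpab
      · exact hpac
      · rw [y.symm, x.symm]; exact hpab
      · rw [y.irrefl, x.irrefl]
      · exact hpbc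
      · rw [y.symm, x.symm]; exact hpac
      · rw [y.symm, x.symm]; exact hpbc
      · rw [y.irrefl, x.irrefl]
    · exact hout u hu v hv
  · by_cases hv : v ∈ ({a, b, c} : Finset V)
    · rw [y.symm, x.symm]; exact hout v hv u hu
    · rw [hy, reb_oo _ _ _ hu hv]
      have := congrFun (congrFun hb u) v
      simp only [blank, hu, hv, or_self, if_false] at this
      exact this.symm

section reb
variable {d : V → ℕ} {x₀ : Gr V} (hx₀ : x₀ ∈ Om d)
  {S : Fin 3 → Finset (Option V)}
  (hS : S ∈ tabs (fun z => (univ.filter fun i => z ∈ tab a b c x₀ i).card)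
      (fun i => (tab a b c x₀ i).card))

include hS in
omit hab hac hbc in
lemma hS_col (z : Option V) :
    (univ.filter fun i => z ∈ S i).card = (univ.filter fun i => z ∈ tab a b c x₀ i).card :=
  (mem_filter.1 hS).2.1 z

include hS in
omit hab hac hbc in
lemma hS_row (i : Fin 3) : (S i).card = (tab a b c x₀ i).card :=
  (mem_filter.1 hS).2.2 i

include hS in
/-- the inner triangle of the rebuilt graph -/
lemma reb_inner :
    (((rebuild a b c x₀ (sOf a b c x₀) S).adj a c || (rebuild a b c x₀ (sOf a b c x₀) S).adj b c)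
        && !(rebuild a b c x₀ (sOf a b c x₀) S).adj a b) = decide (none ∈ S 0) ∧
    (((rebuild a b c x₀ (sOf a b c x₀) S).adj a b || (rebuild a b c x₀ (sOf a b c x₀) S).adj b c)
        && !(rebuild a b c x₀ (sOf a b c x₀) S).adj a c) = decide (none ∈ S 1) ∧
    (((rebuild a b c x₀ (sOf a b c x₀) S).adj a b || (rebuild a b c x₀ (sOf a b c x₀) S).adj a c)
        && !(rebuild a b c x₀ (sOf a b c x₀) S).adj b c) = decide (none ∈ S 2) ∧
    sOf a b c (rebuild a b c x₀ (sOf a b c x₀) S) = sOf a b c x₀ := by
  have hc := hS_col hS none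
  rw [card3, col_none] at hc
  have hvec : (fun i => decide (none ∈ S i)) = ![decide (none ∈ S 0), decide (none ∈ S 1), decide (none ∈ S 2)] := by
    funext i; fin_cases i <;> rfl
  obtain ⟨h1, h2, h3, h4⟩ := inner_rec' (x₀.adj a b) (x₀.adj a c) (x₀.adj b c) _ _ _ hc
  unfold sOf
  rw [reb_ab hab hac hbc, reb_ac hab hac hbc, reb_bc hab hac hbc, hvec]
  exact ⟨h1, h2, h3, h4⟩

include hS in
omit hab hac hbc in
lemma reb_blank : blank {a, b, c} (rebuild a b c x₀ (sOf a b c x₀) S) = blank {a, b, c} x₀ := by
  funext u v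
  unfold blank
  by_cases hc : u ∈ ({a, b, c} : Finset V) ∨ v ∈ ({a, b, c} : Finset V)
  · rw [if_pos hc, if_pos hc]
  · rw [if_neg hc, if_neg hc]
    simp only [not_or] at hc
    exact reb_oo _ _ _ hc.1 hc.2

include hS in
/-- the table of the rebuilt graph is the given table -/
lemma tab_rebuild : tab a b c (rebuild a b c x₀ (sOf a b c x₀) S) = S := by
  obtain ⟨h0, h1, h2, -⟩ := reb_inner hab hac hbc hS
  set y := rebuild a b c x₀ (sOf a b c x₀) S with hy
  have hT : ∀ t, t ∈ ({a, b, c} : Finset V) → ∀ i, some t ∉ S i := by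
    intro t ht i hi
    have h5 := hS_col hS (some t)
    rw [col_someT x₀ ht, card_eq_zero, filter_eq_empty_iff] at h5
    exact h5 (mem_univ i) hi
  have hTy : ∀ t, t ∈ ({a, b, c} : Finset V) → ∀ i, some t ∉ tab a b c y i := by
    intro t ht i hi
    have h5 := col_someT (x := y) ht
    rw [card_eq_zero, filter_eq_empty_iff] at h5
    exact h5 (mem_univ i) hi
  have hiff : ∀ (p q : Prop) [Decidable p] [Decidable q], decide p = decide q → (p ↔ q) := by
    intro p q _ _ h
    simpa using h
  funext i
  ext z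
  cases z with
  | none =>
    apply hiff
    fin_cases i
    · show decide (none ∈ tab a b c y 0) = decide (none ∈ S 0)
      rw [n0, h0]
    · show decide (none ∈ tab a b c y 1) = decide (none ∈ S 1)
      rw [n1, h1]
    · show decide (none ∈ tab a b c y 2) = decide (none ∈ S 2)
      rw [n2, h2]
  | some t =>
    by_cases ht : t ∈ ({a, b, c} : Finset V)
    · exact iff_of_false (hTy t ht i) (hT t ht i)
    · apply hiff
      fin_cases i
      · show decide (some t ∈ row {a, b, c} a b c y) = decide (some t ∈ S 0)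
        rw [decide_row_some _ _ _ _ ht, hy, reb_c_out hab hac hbc _ _ _ ht]
      · show decide (some t ∈ row {a, b, c} a c b y) = decide (some t ∈ S 1)
        rw [decide_row_some _ _ _ _ ht, hy, reb_b_out hab hac hbc _ _ _ ht]
      · show decide (some t ∈ row {a, b, c} b c a y) = decide (some t ∈ S 2)
        rw [decide_row_some _ _ _ _ ht, hy, reb_a_out hab hac hbc _ _ _ ht]

include hx₀ hS in
/-- the rebuilt graph has the right degrees -/
lemma rebuild_mem : rebuild a b c x₀ (sOf a b c x₀) S ∈ Om d := by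
  have htab := tab_rebuild hab hac hbc hS
  obtain ⟨-, -, -, hs⟩ := reb_inner hab hac hbc hS
  have hb := reb_blank (a := a) (b := b) (c := c) hS
  have hdx₀ : ∀ v, x₀.deg v = d v := (mem_filter.1 hx₀).2
  set y := rebuild a b c x₀ (sOf a b c x₀) S with hy
  simp only [Om, mem_filter, mem_univ, true_and]
  intro v
  by_cases hv : v ∈ ({a, b, c} : Finset V)
  · simp only [mem_insert, mem_singleton] at hv
    rcases hv with rfl | rfl | rfl
    · have h1 := tab_card2 hab hac hbc y
      have h2 := tab_card2 hab hac hbc x₀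
      rw [htab, hS_row hS, hs, h2, hdx₀] at h1
      exact h1.symm
    · have h1 := tab_card1 hab hac hbc y
      have h2 := tab_card1 hab hac hbc x₀
      rw [htab, hS_row hS, hs, h2, hdx₀] at h1
      exact h1.symm
    · have h1 := tab_card0 hab hac hbc y
      have h2 := tab_card0 hab hac hbc x₀
      rw [htab, hS_row hS, hs, h2, hdx₀] at h1
      exact h1.symm
  · have h1 := col_some hab hac hbc y hv
    have h2 := col_some hab hac hbc x₀ hv
    rw [htab, hS_col hS, nbO_eq_of_blank hb hv, h2, hdx₀] at h1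
    exact h1.symm

include hS in
lemma rebuild_sec : sec a b c (rebuild a b c x₀ (sOf a b c x₀) S) = sec a b c x₀ := by
  obtain ⟨-, -, -, hs⟩ := reb_inner hab hac hbc hS
  exact Prod.ext (reb_blank hS) hs

end reb

end table

/-- the key determines the sector -/
lemma key_sec {T : Finset V} {u v w : V} (huv : u ≠ v) (huw : u ≠ w) (hvw : v ≠ w)
    (hT : T = {u, v, w}) {d : V → ℕ} {x y : Gr V} (hx : x ∈ Om d) (hy : y ∈ Om d)
    (h : keyP u v x = keyP u v y) :
    blank T x = blank T y ∧ (x.adj u v).toNat + (x.adj u w).toNat + (x.adj v w).toNat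
      = (y.adj u v).toNat + (y.adj u w).toNat + (y.adj v w).toNat := by
  have hdx : ∀ v, x.deg v = d v := (mem_filter.1 hx).2
  have hdy : ∀ v, y.deg v = d v := (mem_filter.1 hy).2
  have hZ : ∀ t, t ∉ T → t ≠ u ∧ t ≠ v ∧ t ≠ w := by
    intro t ht
    subst hT
    simpa [not_or] using ht
  have hp : x.adj u v = y.adj u v := by
    have := congrFun (congrFun h u) v
    simpa [keyP] using this
  have hw : ∀ t, t ∉ T → x.adj w t = y.adj w t := by
    intro t ht
    obtain ⟨h1, h2, _⟩ := hZ t ht
    have := congrFun (congrFun h w) t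
    simpa [keyP, Ne.symm huw, Ne.symm hvw, h1, h2] using this
  have hb : blank T x = blank T y := by
    funext t t'
    unfold blank
    by_cases hc : t ∈ T ∨ t' ∈ T
    · rw [if_pos hc, if_pos hc]
    · rw [if_neg hc, if_neg hc]
      simp only [not_or] at hc
      obtain ⟨h1, h2, _⟩ := hZ t hc.1
      obtain ⟨h3, h4, _⟩ := hZ t' hc.2
      have := congrFun (congrFun h t) t'
      simpa [keyP, h1, h2, h3, h4] using this
  refine ⟨hb, ?_⟩
  have hn : nbO T x w = nbO T y w := by
    ext t
    simp only [nbO, mem_filter, mem_univ, true_and]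
    constructor
    · rintro ⟨h1, h2⟩; exact ⟨h1, (hw t h1) ▸ h2⟩
    · rintro ⟨h1, h2⟩; exact ⟨h1, (hw t h1).symm ▸ h2⟩
  have h1 := deg_split huv huw hvw hT x w
  have h2 := deg_split huv huw hvw hT y w
  rw [hdx] at h1
  rw [hdy, ← hn] at h2
  rw [x.irrefl, x.symm w u, x.symm w v] at h1
  rw [y.irrefl, y.symm w u, y.symm w v] at h2
  rw [hp]
  simp only [Bool.toNat_false] at h1 h2
  omega

section main
variable {a b c : V} (hab : a ≠ b) (hac : a ≠ c) (hbc : b ≠ c)
include hab hac hbc

lemma sec_of_key0 {d : V → ℕ} {x y : Gr V} (hx : x ∈ Om d) (hy : y ∈ Om d)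
    (h : keyP a b x = keyP a b y) : sec a b c x = sec a b c y := by
  obtain ⟨h1, h2⟩ := key_sec hab hac hbc (T := {a, b, c}) rfl hx hy h
  exact Prod.ext h1 h2

lemma sec_of_key1 {d : V → ℕ} {x y : Gr V} (hx : x ∈ Om d) (hy : y ∈ Om d)
    (h : keyP a c x = keyP a c y) : sec a b c x = sec a b c y := by
  obtain ⟨h1, h2⟩ := key_sec hac hab (Ne.symm hbc) (T_acb (a := a) (b := b) (c := c)) hx hy h
  rw [sOf_acb hab hac hbc, sOf_acb hab hac hbc] at h2
  exact Prod.ext h1 h2

lemma sec_of_key2 {d : V → ℕ} {x y : Gr V} (hx : x ∈ Om d) (hy : y ∈ Om d)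
    (h : keyP b c x = keyP b c y) : sec a b c x = sec a b c y := by
  obtain ⟨h1, h2⟩ := key_sec hbc (Ne.symm hab) (Ne.symm hac) (T_bca (a := a) (b := b) (c := c)) hx hy h
  rw [sOf_bca hab hac hbc, sOf_bca hab hac hbc] at h2
  exact Prod.ext h1 h2

/-- one sector -/
lemma sector_nonneg (h : ThreeRowLemma) {d : V → ℕ} (f : Gr V → ℝ) {x₀ : Gr V} (hx₀ : x₀ ∈ Om d) :
    0 ≤ ∑ x ∈ (Om d).filter (fun x => sec a b c x = sec a b c x₀),
      (DD d f a b x * DD d f a c x + DD d f a b x * DD d f b c x + DD d f a c x * DD d f b c x) := by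
  set F := (Om d).filter (fun x => sec a b c x = sec a b c x₀) with hF
  set r : Option V → ℕ := fun z => (univ.filter fun i => z ∈ tab a b c x₀ i).card with hr
  set k : Fin 3 → ℕ := fun i => (tab a b c x₀ i).card with hk
  set Ψ := rebuild a b c x₀ (sOf a b c x₀) with hΨ
  set Θ := tab a b c with hΘ
  have h1 : ∀ x ∈ F, Θ x ∈ tabs r k := fun x hx =>
    tab_mem hab hac hbc (mem_filter.1 hx).1 hx₀ (mem_filter.1 hx).2
  have h2 : ∀ y ∈ tabs r k, Ψ y ∈ F := fun y hy =>
    mem_filter.2 ⟨rebuild_mem hab hac hbc hx₀ hy, rebuild_sec hab hac hbc hy⟩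
  have h3 : ∀ x ∈ F, Ψ (Θ x) = x := fun x hx => rebuild_tab hab hac hbc (mem_filter.1 hx).2
  have h4 : ∀ y ∈ tabs r k, Θ (Ψ y) = y := fun y hy => tab_rebuild hab hac hbc hy
  have hsec : ∀ x ∈ F, ∀ y ∈ F, sec a b c x = sec a b c y := fun x hx y hy =>
    (mem_filter.1 hx).2.trans (mem_filter.1 hy).2.symm
  have D0 : ∀ x ∈ F, DD d f a b x = dev (tabs r k) (· 0) (fun S => f (Ψ S)) (Θ x) := by
    intro x hx
    unfold DD
    rw [dev_restrict (Om d) (sec a b c) (sec a b c x₀) (keyP a b)
        (fun _ hu _ hv huv => sec_of_key0 hab hac hbc hu hv huv) f x hx]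
    exact dev_transport F (tabs r k) Θ Ψ h1 h2 h3 h4 (keyP a b) (· 0)
      (fun u hu v hv => key0 hab hac hbc (hsec u hu v hv)) f x hx
  have D1 : ∀ x ∈ F, DD d f a c x = dev (tabs r k) (· 1) (fun S => f (Ψ S)) (Θ x) := by
    intro x hx
    unfold DD
    rw [dev_restrict (Om d) (sec a b c) (sec a b c x₀) (keyP a c)
        (fun _ hu _ hv huv => sec_of_key1 hab hac hbc hu hv huv) f x hx]
    exact dev_transport F (tabs r k) Θ Ψ h1 h2 h3 h4 (keyP a c) (· 1)
      (fun u hu v hv => key1 hab hac hbc (hsec u hu v hv)) f x hx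
  have D2 : ∀ x ∈ F, DD d f b c x = dev (tabs r k) (· 2) (fun S => f (Ψ S)) (Θ x) := by
    intro x hx
    unfold DD
    rw [dev_restrict (Om d) (sec a b c) (sec a b c x₀) (keyP b c)
        (fun _ hu _ hv huv => sec_of_key2 hab hac hbc hu hv huv) f x hx]
    exact dev_transport F (tabs r k) Θ Ψ h1 h2 h3 h4 (keyP b c) (· 2)
      (fun u hu v hv => key2 hab hac hbc (hsec u hu v hv)) f x hx
  have hmain := h (ι := Option V) r k (fun S => f (Ψ S))
  refine hmain.trans_eq ?_
  symm
  refine Finset.sum_nbij' Θ Ψ h1 h2 h3 h4 ?_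
  intro x hx
  rw [D0 x hx, D1 x hx, D2 x hx]

end main

/-- **WP StepTriple** -/
theorem stepTriple (h : ThreeRowLemma) : StepTriple := by
  intro V _ _ d f a b c hab hac hbc
  rw [← Finset.sum_fiberwise_of_maps_to (s := Om d) (t := (Om d).image (sec a b c)) (g := sec a b c)
    (fun x hx => mem_image_of_mem _ hx)]
  apply Finset.sum_nonneg
  intro s hs
  obtain ⟨x₀, hx₀, rfl⟩ := mem_image.1 hs
  exact sector_nonneg hab hac hbc h f hx₀

end graph

end Crest.Agent.S0453Lib
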