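/-
S0453 WP W2: the spectral gap of the Johnson graph (up-down induction).
-/
import Crest.Agent.S0453Lib.Spec

set_option autoImplicit false
open Finset

namespace Crest.Agent.S0453Lib

section JohnsonProof
variable {β : Type*} [DecidableEq β] (W : Finset β)

/-- double counting of pairs `Z ⊂ X = Z + e`. -/
lemma sum_slice_succ (j : ℕ) (F : Finset β → β → ℝ) :
    ∑ Z ∈ W.powersetCard j, ∑ e ∈ W \ Z, F Z e =
      ∑ X ∈ W.powersetCard (j + 1), ∑ c ∈ X, F (X.erase c) c := by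
  rw [Finset.sum_sigma', Finset.sum_sigma']
  refine Finset.sum_nbij' (fun p => ⟨insert p.2 p.1, p.2⟩) (fun p => ⟨p.1.erase p.2, p.2⟩)
    ?_ ?_ ?_ ?_ ?_
  · rintro ⟨Z, e⟩ hp
    simp only [Finset.mem_sigma, Finset.mem_powersetCard, Finset.mem_sdiff] at hp ⊢
    obtain ⟨⟨hZ, hc⟩, he, heZ⟩ := hp
    refine ⟨⟨Finset.insert_subset he hZ, ?_⟩, Finset.mem_insert_self _ _⟩
    rw [Finset.card_insert_of_notMem heZ, hc]
  · rintro ⟨X, c⟩ hp
    simp only [Finset.mem_sigma, Finset.mem_powersetCard, Finset.mem_sdiff] at hp ⊢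
    obtain ⟨⟨hX, hc⟩, hcX⟩ := hp
    refine ⟨⟨(Finset.erase_subset _ _).trans hX, ?_⟩, hX hcX, Finset.notMem_erase _ _⟩
    rw [Finset.card_erase_of_mem hcX, hc]
    rfl
  · rintro ⟨Z, e⟩ hp
    simp only [Finset.mem_sigma, Finset.mem_sdiff] at hp
    simp only [Finset.erase_insert hp.2.2]
  · rintro ⟨X, c⟩ hp
    simp only [Finset.mem_sigma] at hp
    simp only [Finset.insert_erase hp.2]
  · rintro ⟨Z, e⟩ hp
    simp only [Finset.mem_sigma, Finset.mem_sdiff] at hp
    simp only [Finset.erase_insert hp.2.2]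

/-- the down operator -/
noncomputable def Dn (h : Finset β → ℝ) (Z : Finset β) : ℝ := ∑ e ∈ W \ Z, h (insert e Z)

/-- the up operator -/
noncomputable def Up (h : Finset β → ℝ) (Y : Finset β) : ℝ := ∑ c ∈ Y, h (Y.erase c)

/-- `Dn` and `Up` are adjoint. -/
lemma dn_up_adjoint (j : ℕ) (h u : Finset β → ℝ) :
    ∑ Z ∈ W.powersetCard j, Dn W h Z * u Z = ∑ X ∈ W.powersetCard (j + 1), h X * Up u X := by
  have := sum_slice_succ W j (fun Z e => h (insert e Z) * u Z)
  simp only [Dn, Up, Finset.sum_mul, Finset.mul_sum]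
  rw [this]
  refine Finset.sum_congr rfl fun X _ => Finset.sum_congr rfl fun c hc => ?_
  rw [Finset.insert_erase hc]

/-- `A h`: the quadratic form of the adjacency operator of the Johnson graph. -/
noncomputable def AdjF (k : ℕ) (h : Finset β → ℝ) : ℝ :=
  ∑ X ∈ W.powersetCard k, h X * ∑ c ∈ X, ∑ e ∈ W \ X, h (insert e (X.erase c))

/-- the norm on a slice. -/
noncomputable def NormS (k : ℕ) (h : Finset β → ℝ) : ℝ := ∑ X ∈ W.powersetCard k, h X ^ 2

lemma dn_norm (j : ℕ) (h : Finset β → ℝ) :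
    ∑ Z ∈ W.powersetCard j, Dn W h Z ^ 2 = ((j : ℝ) + 1) * NormS W (j + 1) h + AdjF W (j + 1) h := by
  have h1 : ∑ Z ∈ W.powersetCard j, Dn W h Z ^ 2 = ∑ Z ∈ W.powersetCard j, Dn W h Z * Dn W h Z :=
    Finset.sum_congr rfl fun _ _ => sq _
  rw [h1, dn_up_adjoint, NormS, AdjF, Finset.mul_sum, ← Finset.sum_add_distrib]
  refine Finset.sum_congr rfl fun X hX => ?_
  obtain ⟨hXW, hXc⟩ := Finset.mem_powersetCard.1 hX
  have h2 : Up (Dn W h) X = ((j : ℝ) + 1) * h X + ∑ c ∈ X, ∑ e ∈ W \ X, h (insert e (X.erase c)) := by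
    have h3 : ∀ c ∈ X, Dn W h (X.erase c) = h X + ∑ e ∈ W \ X, h (insert e (X.erase c)) := by
      intro c hc
      have hins : W \ X.erase c = insert c (W \ X) := by
        ext z
        simp only [Finset.mem_sdiff, Finset.mem_erase, Finset.mem_insert]
        constructor
        · rintro ⟨hz, hzX⟩
          by_cases hzc : z = c
          · exact Or.inl hzc
          · exact Or.inr ⟨hz, fun h' => hzX ⟨hzc, h'⟩⟩
        · rintro (rfl | ⟨hz, hzX⟩)
          · exact ⟨hXW hc, fun h' => h'.1 rfl⟩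
          · exact ⟨hz, fun h' => hzX h'.2⟩
      have hcn : c ∉ W \ X := fun h' => (Finset.mem_sdiff.1 h').2 hc
      rw [Dn, hins, Finset.sum_insert hcn, Finset.insert_erase hc]
    simp only [Up]
    rw [Finset.sum_congr rfl h3, Finset.sum_add_distrib, Finset.sum_const, hXc, nsmul_eq_mul]
    push_cast
    ring
  rw [h2]
  ring

lemma up_norm (j : ℕ) (h : Finset β → ℝ) :
    ∑ Y ∈ W.powersetCard (j + 2), Up h Y ^ 2 =
      ((W.card : ℝ) - ((j : ℝ) + 1)) * NormS W (j + 1) h + AdjF W (j + 1) h := by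
  have h1 : ∑ Y ∈ W.powersetCard (j + 2), Up h Y ^ 2 =
      ∑ Y ∈ W.powersetCard (j + 2), Up h Y * Up h Y :=
    Finset.sum_congr rfl fun _ _ => sq _
  rw [h1, ← dn_up_adjoint W (j + 1) (Up h) h, NormS, AdjF, Finset.mul_sum, ← Finset.sum_add_distrib]
  refine Finset.sum_congr rfl fun Z hZ => ?_
  obtain ⟨hZW, hZc⟩ := Finset.mem_powersetCard.1 hZ
  have h2 : Dn W (Up h) Z = ((W.card : ℝ) - ((j : ℝ) + 1)) * h Z +
      ∑ c ∈ Z, ∑ e ∈ W \ Z, h (insert e (Z.erase c)) := by
    have h3 : ∀ e ∈ W \ Z, Up h (insert e Z) = h Z + ∑ c ∈ Z, h (insert e (Z.erase c)) := by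
      intro e he
      have heZ : e ∉ Z := (Finset.mem_sdiff.1 he).2
      rw [Up, Finset.sum_insert heZ, Finset.erase_insert heZ]
      congr 1
      refine Finset.sum_congr rfl fun c hc => ?_
      have hce : e ≠ c := fun h' => heZ (h' ▸ hc)
      rw [Finset.erase_insert_of_ne hce]
    rw [Dn, Finset.sum_congr rfl h3, Finset.sum_add_distrib, Finset.sum_const,
      Finset.sum_comm (s := W \ Z) (t := Z), nsmul_eq_mul,
      Finset.card_sdiff_of_subset hZW, hZc, Nat.cast_sub (by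
        have := Finset.card_le_card hZW
        omega)]
    push_cast
    ring
  rw [h2]
  ring

/-- the commutator identity -/
lemma up_dn_identity (j : ℕ) (h : Finset β → ℝ) :
    ∑ Y ∈ W.powersetCard (j + 2), Up h Y ^ 2 =
      ∑ Z ∈ W.powersetCard j, Dn W h Z ^ 2 +
        ((W.card : ℝ) - 2 * ((j : ℝ) + 1)) * NormS W (j + 1) h := by
  rw [up_norm, dn_norm]
  ring

lemma up_one_on_slice (k : ℕ) {X : Finset β} (hX : X ∈ W.powersetCard k) :
    Up (fun _ => (1 : ℝ)) X = k := by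
  obtain ⟨_, hc⟩ := Finset.mem_powersetCard.1 hX
  simp [Up, hc]

/-- `Dn g` is mean-zero when `g` is. -/
lemma dn_mean_zero (j : ℕ) {g : Finset β → ℝ} (hg : ∑ X ∈ W.powersetCard (j + 1), g X = 0) :
    ∑ Z ∈ W.powersetCard j, Dn W g Z = 0 := by
  have := dn_up_adjoint W j g (fun _ => (1 : ℝ))
  simp only [mul_one] at this
  rw [this]
  have h2 : ∑ X ∈ W.powersetCard (j + 1), g X * Up (fun _ => (1 : ℝ)) X =
      ∑ X ∈ W.powersetCard (j + 1), g X * ((j + 1 : ℕ) : ℝ) :=
    Finset.sum_congr rfl fun X hX => by rw [up_one_on_slice W (j + 1) hX]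
  rw [h2, ← Finset.sum_mul, hg, zero_mul]

/-- the key spectral bound. -/
lemma dn_norm_le (j : ℕ) (hj : j + 1 ≤ W.card) (g : Finset β → ℝ)
    (hg : ∑ X ∈ W.powersetCard (j + 1), g X = 0) :
    ∑ Z ∈ W.powersetCard j, Dn W g Z ^ 2 ≤
      (j : ℝ) * ((W.card : ℝ) - ((j : ℝ) + 1)) * NormS W (j + 1) g := by
  induction j generalizing g with
  | zero =>
    have h0 := dn_mean_zero W 0 hg
    simp only [Finset.powersetCard_zero, Finset.sum_singleton] at h0 ⊢
    rw [h0]
    simp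
  | succ j ih =>
    have hj' : j + 1 ≤ W.card := by omega
    have hM : ((j : ℝ) + 2) ≤ W.card := by exact_mod_cast (by omega : j + 2 ≤ W.card)
    set h := Dn W g with hh
    have hmean : ∑ Z ∈ W.powersetCard (j + 1), h Z = 0 := dn_mean_zero W (j + 1) hg
    have hih := ih hj' h hmean
    have hupb : ∑ Y ∈ W.powersetCard (j + 2), Up h Y ^ 2 ≤
        ((j : ℝ) + 1) * ((W.card : ℝ) - ((j : ℝ) + 2)) * NormS W (j + 1) h := by
      rw [up_dn_identity]
      nlinarith
    have hN : 0 ≤ NormS W (j + 1) h := Finset.sum_nonneg fun _ _ => sq_nonneg _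
    have hG : 0 ≤ NormS W (j + 1 + 1) g := Finset.sum_nonneg fun _ _ => sq_nonneg _
    have hadj : NormS W (j + 1) h = ∑ X ∈ W.powersetCard (j + 2), g X * Up h X := by
      rw [← dn_up_adjoint W (j + 1) g h, NormS]
      exact Finset.sum_congr rfl fun _ _ => sq _
    have hcs : NormS W (j + 1) h ^ 2 ≤ NormS W (j + 1 + 1) g *
        ∑ Y ∈ W.powersetCard (j + 2), Up h Y ^ 2 := by
      rw [hadj]
      have := Finset.sum_mul_sq_le_sq_mul_sq (W.powersetCard (j + 2)) g (Up h)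
      rw [← hadj] at this ⊢
      exact this
    have hC : 0 ≤ ((j : ℝ) + 1) * ((W.card : ℝ) - ((j : ℝ) + 2)) :=
      mul_nonneg (by positivity) (by linarith)
    have hfin : NormS W (j + 1) h ^ 2 ≤ NormS W (j + 1 + 1) g *
        (((j : ℝ) + 1) * ((W.card : ℝ) - ((j : ℝ) + 2)) * NormS W (j + 1) h) :=
      hcs.trans (mul_le_mul_of_nonneg_left hupb hG)
    change NormS W (j + 1) h ≤ _
    have hgoal : ((j + 1 : ℕ) : ℝ) * ((W.card : ℝ) - (((j + 1 : ℕ) : ℝ) + 1)) =
        ((j : ℝ) + 1) * ((W.card : ℝ) - ((j : ℝ) + 2)) := by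
      push_cast
      ring
    rw [hgoal]
    rcases hN.eq_or_lt with h0 | hpos
    · rw [← h0]
      exact mul_nonneg hC hG
    · have : NormS W (j + 1) h * NormS W (j + 1) h ≤
          (((j : ℝ) + 1) * ((W.card : ℝ) - ((j : ℝ) + 2)) * NormS W (j + 1 + 1) g) *
            NormS W (j + 1) h := by
        nlinarith
      exact le_of_mul_le_mul_right this hpos

/-- sum of `G (X - c + e)` over adjacent triples -/
lemma adj_sum_eq (j : ℕ) (hj : j + 1 ≤ W.card) (G : Finset β → ℝ) :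
    ∑ X ∈ W.powersetCard (j + 1), ∑ c ∈ X, ∑ e ∈ W \ X, G (insert e (X.erase c)) =
      ((j : ℝ) + 1) * ((W.card : ℝ) - ((j : ℝ) + 1)) * ∑ X ∈ W.powersetCard (j + 1), G X := by
  have hL := sum_slice_succ W j (fun Z c => ∑ e ∈ (W \ Z).erase c, G (insert e Z))
  have hlhs : ∑ X ∈ W.powersetCard (j + 1), ∑ c ∈ X, ∑ e ∈ W \ X, G (insert e (X.erase c)) =
      ∑ X ∈ W.powersetCard (j + 1), ∑ c ∈ X, ∑ e ∈ (W \ X.erase c).erase c,
        G (insert e (X.erase c)) := by
    refine Finset.sum_congr rfl fun X hX => Finset.sum_congr rfl fun c hc => ?_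
    obtain ⟨hXW, _⟩ := Finset.mem_powersetCard.1 hX
    have hset : (W \ X.erase c).erase c = W \ X := by
      ext z
      simp only [Finset.mem_erase, Finset.mem_sdiff]
      constructor
      · rintro ⟨hzc, hz, hzX⟩
        exact ⟨hz, fun h' => hzX ⟨hzc, h'⟩⟩
      · rintro ⟨hz, hzX⟩
        refine ⟨?_, hz, fun h' => hzX h'.2⟩
        rintro rfl
        exact hzX hc
    rw [hset]
  rw [hlhs, ← hL]
  have hstep : ∀ Z ∈ W.powersetCard j, ∑ e ∈ W \ Z, ∑ e' ∈ (W \ Z).erase e, G (insert e' Z) =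
      ((W.card : ℝ) - ((j : ℝ) + 1)) * ∑ e ∈ W \ Z, G (insert e Z) := by
    intro Z hZ
    obtain ⟨hZW, hZc⟩ := Finset.mem_powersetCard.1 hZ
    have hcard : ((W \ Z).card : ℝ) = (W.card : ℝ) - (j : ℝ) := by
      rw [Finset.card_sdiff_of_subset hZW, hZc, Nat.cast_sub (by omega)]
    have hswap : ∑ e ∈ W \ Z, ∑ e' ∈ (W \ Z).erase e, G (insert e' Z) =
        ∑ e' ∈ W \ Z, ∑ e ∈ (W \ Z).erase e', G (insert e' Z) := by
      rw [Finset.sum_sigma', Finset.sum_sigma']
      refine Finset.sum_nbij' (fun p => ⟨p.2, p.1⟩) (fun p => ⟨p.2, p.1⟩) ?_ ?_ ?_ ?_ ?_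
      · rintro ⟨a, b⟩ hp
        simp only [Finset.mem_sigma, Finset.mem_erase] at hp ⊢
        exact ⟨hp.2.2, Ne.symm hp.2.1, hp.1⟩
      · rintro ⟨a, b⟩ hp
        simp only [Finset.mem_sigma, Finset.mem_erase] at hp ⊢
        exact ⟨hp.2.2, Ne.symm hp.2.1, hp.1⟩
      · rintro ⟨a, b⟩ _
        rfl
      · rintro ⟨a, b⟩ _
        rfl
      · rintro ⟨a, b⟩ _
        rfl
    rw [hswap, Finset.mul_sum]
    refine Finset.sum_congr rfl fun e he => ?_
    rw [Finset.sum_const, nsmul_eq_mul, Finset.card_erase_of_mem he,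
      Nat.cast_sub (Finset.card_pos.2 ⟨e, he⟩), hcard]
    push_cast
    ring
  rw [Finset.sum_congr rfl hstep, ← Finset.mul_sum]
  have hL2 := sum_slice_succ W j (fun Z e => G (insert e Z))
  rw [hL2]
  have h3 : ∑ X ∈ W.powersetCard (j + 1), ∑ c ∈ X, G (insert c (X.erase c)) =
      ((j : ℝ) + 1) * ∑ X ∈ W.powersetCard (j + 1), G X := by
    rw [Finset.mul_sum]
    refine Finset.sum_congr rfl fun X hX => ?_
    obtain ⟨_, hXc⟩ := Finset.mem_powersetCard.1 hX
    have : ∀ c ∈ X, G (insert c (X.erase c)) = G X := fun c hc => by rw [Finset.insert_erase hc]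
    rw [Finset.sum_congr rfl this, Finset.sum_const, hXc, nsmul_eq_mul]
    push_cast
    ring
  rw [h3]
  ring

/-- the energy in terms of the adjacency form. -/
lemma jen_eq (j : ℕ) (hj : j + 1 ≤ W.card) (g : Finset β → ℝ) :
    jen W (j + 1) g = 2 * ((j : ℝ) + 1) * ((W.card : ℝ) - ((j : ℝ) + 1)) * NormS W (j + 1) g -
      2 * AdjF W (j + 1) g := by
  have e1 : jen W (j + 1) g = ∑ X ∈ W.powersetCard (j + 1), ∑ c ∈ X, ∑ e ∈ W \ X,
      (g X ^ 2 - 2 * (g X * g (insert e (X.erase c))) + g (insert e (X.erase c)) ^ 2) := by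
    unfold jen
    refine Finset.sum_congr rfl fun X _ => Finset.sum_congr rfl fun c _ =>
      Finset.sum_congr rfl fun e _ => ?_
    ring
  have hA : ∑ X ∈ W.powersetCard (j + 1), ∑ c ∈ X, ∑ e ∈ W \ X,
      2 * (g X * g (insert e (X.erase c))) = 2 * AdjF W (j + 1) g := by
    unfold AdjF
    simp only [Finset.mul_sum]
  have hS1 : ∑ X ∈ W.powersetCard (j + 1), ∑ c ∈ X, ∑ e ∈ W \ X, g X ^ 2 =
      ((j : ℝ) + 1) * ((W.card : ℝ) - ((j : ℝ) + 1)) * NormS W (j + 1) g := by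
    unfold NormS
    rw [Finset.mul_sum]
    refine Finset.sum_congr rfl fun X hX => ?_
    obtain ⟨hXW, hXc⟩ := Finset.mem_powersetCard.1 hX
    have hcard : ((W \ X).card : ℝ) = (W.card : ℝ) - ((j : ℝ) + 1) := by
      rw [Finset.card_sdiff_of_subset hXW, hXc, Nat.cast_sub hj]
      push_cast
      ring
    simp only [Finset.sum_const, nsmul_eq_mul, hcard, hXc]
    push_cast
    ring
  have hS3 := adj_sum_eq W j hj (fun X => g X ^ 2)
  rw [e1]
  simp only [Finset.sum_add_distrib, Finset.sum_sub_distrib]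
  rw [hA, hS1, hS3]
  unfold NormS
  ring

lemma jen_nonneg (k : ℕ) (g : Finset β → ℝ) : 0 ≤ jen W k g :=
  Finset.sum_nonneg fun _ _ => Finset.sum_nonneg fun _ _ => Finset.sum_nonneg fun _ _ => sq_nonneg _

/-- **Johnson gap** for mean-zero functions. -/
lemma johnson_mean_zero (j : ℕ) (hj : j + 1 ≤ W.card) (g : Finset β → ℝ)
    (hg : ∑ X ∈ W.powersetCard (j + 1), g X = 0) :
    2 * (W.card : ℝ) * NormS W (j + 1) g ≤ jen W (j + 1) g := by
  have h1 := dn_norm_le W j hj g hg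
  rw [dn_norm] at h1
  rw [jen_eq W j hj]
  nlinarith

end JohnsonProof

/-- **WP W2**: the spectral gap of the Johnson graph. -/
theorem johnsonGap : JohnsonGap := by
  intro β _ W k g
  set a := avg (W.powersetCard k) g with ha
  rcases k with _ | j
  · have h0 : ∑ X ∈ W.powersetCard 0, (g X - a) ^ 2 = 0 := by
      simp [ha, avg]
    rw [h0, mul_zero]
    exact jen_nonneg W 0 g
  by_cases hj : j + 1 ≤ W.card
  · set g0 : Finset β → ℝ := fun X => g X - a with hg0
    have hne : (W.powersetCard (j + 1)).card ≠ 0 :=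
      (Finset.card_pos.2 (Finset.powersetCard_nonempty.2 hj)).ne'
    have hmean : ∑ X ∈ W.powersetCard (j + 1), g0 X = 0 := by
      simp only [hg0, Finset.sum_sub_distrib, Finset.sum_const, nsmul_eq_mul, ha, avg]
      have : ((W.powersetCard (j + 1)).card : ℝ) ≠ 0 := by exact_mod_cast hne
      field_simp
      ring
    have hjen : jen W (j + 1) g = jen W (j + 1) g0 := by
      unfold jen
      refine Finset.sum_congr rfl fun X _ => Finset.sum_congr rfl fun c _ =>
        Finset.sum_congr rfl fun e _ => ?_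
      simp only [hg0]
      ring
    rw [hjen]
    exact johnson_mean_zero W j hj g0 hmean
  · have h0 : W.powersetCard (j + 1) = ∅ := Finset.powersetCard_eq_empty.2 (by omega)
    have : ∑ X ∈ W.powersetCard (j + 1), (g X - a) ^ 2 = 0 := by rw [h0]; simp
    rw [this, mul_zero]
    exact jen_nonneg W (j + 1) g

end Crest.Agent.S0453Lib
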