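/-
S0453 WP: JohnsonFrame from JohnsonGap.
-/
import Mathlib
import Crest.Agent.S0453Lib.Spec

set_option autoImplicit false
set_option linter.unusedVariables false
set_option linter.unusedSimpArgs false
set_option linter.unusedSectionVars false
open Finset

namespace Crest.Agent.S0453Lib

section JF
variable {β : Type} [DecidableEq β]

/-- the spin of `z` under `X`. -/
noncomputable def sgnJ (X : Finset β) (z : β) : ℝ := if z ∈ X then -1 else 1

/-- the test function of the frame inequality -/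
noncomputable def frameF (W : Finset β) (y : β → β → ℝ) (X : Finset β) : ℝ :=
  ∑ c ∈ W, ∑ e ∈ W, y c e * sep c e X

lemma sum_split_uv (W : Finset β) {u v : β} (hu : u ∈ W) (hv : v ∈ W) (huv : u ≠ v) (φ : β → ℝ) :
    ∑ c ∈ W, φ c = φ u + φ v + ∑ c ∈ (W.erase u).erase v, φ c := by
  rw [← Finset.add_sum_erase W φ hu,
    ← Finset.add_sum_erase (W.erase u) φ (Finset.mem_erase.2 ⟨huv.symm, hv⟩)]
  ring

lemma sep_self_zero (c : β) (X : Finset β) : sep c c X = 0 := by simp [sep]

section delta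
variable {X : Finset β} {u v : β}

lemma delta_u (hXu : u ∈ X) (hXv : v ∉ X) (huv : u ≠ v) (z : β) (hzu : z ≠ u) (hzv : z ≠ v) :
    sep u z X - sep u z (insert v (X.erase u)) = sgnJ X z := by
  by_cases hz : z ∈ X <;> simp [sep, sgnJ, hz, hXu, hXv, hzu, hzv, huv, huv.symm]

lemma delta_v (hXu : u ∈ X) (hXv : v ∉ X) (huv : u ≠ v) (z : β) (hzu : z ≠ u) (hzv : z ≠ v) :
    sep v z X - sep v z (insert v (X.erase u)) = - sgnJ X z := by
  by_cases hz : z ∈ X <;> simp [sep, sgnJ, hz, hXu, hXv, hzu, hzv, huv, huv.symm]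

lemma sep_comm (c e : β) (X : Finset β) : sep c e X = sep e c X := by
  unfold sep
  by_cases h1 : c ∈ X <;> by_cases h2 : e ∈ X <;> simp [h1, h2]

lemma delta_uv (hXu : u ∈ X) (hXv : v ∉ X) (huv : u ≠ v) :
    sep u v X - sep u v (insert v (X.erase u)) = 0 := by
  simp [sep, hXu, hXv, huv, huv.symm]

lemma delta_zz (c e : β) (hcu : c ≠ u) (hcv : c ≠ v) (heu : e ≠ u) (hev : e ≠ v) :
    sep c e X - sep c e (insert v (X.erase u)) = 0 := by
  simp [sep, hcu, hcv, heu, hev]

end delta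

/-- the key difference formula. -/
lemma frameF_diff (W : Finset β) (y : β → β → ℝ) (hy : ∀ c e, y c e = y e c)
    {u v : β} (hu : u ∈ W) (hv : v ∈ W) (huv : u ≠ v) {X : Finset β} (hXu : u ∈ X) (hXv : v ∉ X) :
    frameF W y X - frameF W y (insert v (X.erase u))
      = 2 * ∑ z ∈ (W.erase u).erase v, (y u z - y v z) * sgnJ X z := by
  set X' := insert v (X.erase u) with hX'
  set Y := (W.erase u).erase v with hY
  have hmem : ∀ z ∈ Y, z ≠ u ∧ z ≠ v := by
    intro z hz
    simp only [hY, Finset.mem_erase] at hz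
    exact ⟨hz.2.1, hz.1⟩
  have h1 : frameF W y X - frameF W y X'
      = ∑ c ∈ W, ∑ e ∈ W, y c e * (sep c e X - sep c e X') := by
    unfold frameF
    rw [← Finset.sum_sub_distrib]
    refine Finset.sum_congr rfl fun c _ => ?_
    rw [← Finset.sum_sub_distrib]
    refine Finset.sum_congr rfl fun e _ => ?_
    ring
  rw [h1, sum_split_uv W hu hv huv]
  rw [sum_split_uv W hu hv huv, sum_split_uv W hu hv huv]
  have h2 : ∀ c ∈ Y, ∑ e ∈ W, y c e * (sep c e X - sep c e X')
      = 2 * 0 + (y u c - y v c) * sgnJ X c := by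
    intro c hc
    obtain ⟨hcu, hcv⟩ := hmem c hc
    rw [sum_split_uv W hu hv huv]
    have h3 : ∑ e ∈ Y, y c e * (sep c e X - sep c e X') = 0 := by
      refine Finset.sum_eq_zero fun e he => ?_
      obtain ⟨heu, hev⟩ := hmem e he
      rw [delta_zz c e hcu hcv heu hev, mul_zero]
    rw [h3, sep_comm c u, sep_comm c u, sep_comm c v, sep_comm c v, delta_u hXu hXv huv c hcu hcv,
      delta_v hXu hXv huv c hcu hcv, hy c u, hy c v]
    ring
  rw [Finset.sum_congr rfl h2]
  have h4 : ∑ e ∈ Y, y u e * (sep u e X - sep u e X') = ∑ z ∈ Y, y u z * sgnJ X z :=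
    Finset.sum_congr rfl fun e he => by
      obtain ⟨heu, hev⟩ := hmem e he
      rw [delta_u hXu hXv huv e heu hev]
  have h5 : ∑ e ∈ Y, y v e * (sep v e X - sep v e X') = - ∑ z ∈ Y, y v z * sgnJ X z := by
    rw [← Finset.sum_neg_distrib]
    exact Finset.sum_congr rfl fun e he => by
      obtain ⟨heu, hev⟩ := hmem e he
      rw [delta_v hXu hXv huv e heu hev]; ring
  rw [h4, h5]
  have h6 := delta_uv hXu hXv huv
  have h7 : sep v u X - sep v u X' = 0 := by
    rw [sep_comm v u, sep_comm v u]; exact h6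
  rw [h6, h7, sep_self_zero, sep_self_zero, sep_self_zero, sep_self_zero]
  simp only [Finset.sum_add_distrib, sub_mul, Finset.sum_sub_distrib, mul_zero, add_zero, zero_add, sub_zero, Finset.sum_const_zero, Finset.mul_sum]
  simp only [mul_sub, Finset.sum_sub_distrib, two_mul, Finset.sum_add_distrib]
  ring

/-- Reindexing the slice part with `u ∈ X`, `v ∉ X`. -/
lemma reindex_slice (W : Finset β) {u v : β} (hu : u ∈ W) (hv : v ∈ W) (huv : u ≠ v) (k : ℕ)
    (H : Finset β → ℝ) :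
    ∑ X ∈ (W.powersetCard (k + 1)).filter (fun X => u ∈ X ∧ v ∉ X), H X
      = ∑ X ∈ ((W.erase u).erase v).powersetCard k, H (insert u X) := by
  refine Finset.sum_nbij' (fun X => X.erase u) (fun X => insert u X) ?_ ?_ ?_ ?_ ?_
  · intro X hX
    simp only [Finset.mem_filter, Finset.mem_powersetCard] at hX
    obtain ⟨⟨hXW, hc⟩, hXu, hXv⟩ := hX
    simp only [Finset.mem_powersetCard]
    refine ⟨?_, ?_⟩
    · intro z hz
      simp only [Finset.mem_erase] at hz ⊢
      refine ⟨?_, hz.1, hXW hz.2⟩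
      rintro rfl
      exact hXv hz.2
    · rw [Finset.card_erase_of_mem hXu, hc]; rfl
  · intro X hX
    simp only [Finset.mem_powersetCard] at hX
    obtain ⟨hXW, hc⟩ := hX
    have huX : u ∉ X := fun h => by
      have := hXW h
      simp at this
    have hvX : v ∉ X := fun h => by
      have := hXW h
      simp at this
    simp only [Finset.mem_filter, Finset.mem_powersetCard]
    refine ⟨⟨?_, ?_⟩, Finset.mem_insert_self _ _, ?_⟩
    · intro z hz
      rcases Finset.mem_insert.1 hz with rfl | hz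
      · exact hu
      · have := hXW hz
        simp only [Finset.mem_erase] at this
        exact this.2.2
    · rw [Finset.card_insert_of_notMem huX, hc]
    · simp [huv.symm, hvX]
  · intro X hX
    simp only [Finset.mem_filter, Finset.mem_powersetCard] at hX
    exact Finset.insert_erase hX.2.1
  · intro X hX
    simp only [Finset.mem_powersetCard] at hX
    have huX : u ∉ X := fun h => by
      have := hX.1 h
      simp at this
    exact Finset.erase_insert huX
  · intro X hX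
    simp only [Finset.mem_filter, Finset.mem_powersetCard] at hX
    rw [Finset.insert_erase hX.2.1]

/-- Count of the slice part with `u ∈ X`, `v ∉ X`. -/
lemma card_slice (W : Finset β) {u v : β} (hu : u ∈ W) (hv : v ∈ W) (huv : u ≠ v) (k : ℕ) :
    (((W.powersetCard (k + 1)).filter (fun X => u ∈ X ∧ v ∉ X)).card : ℝ)
      = ((W.card - 2).choose k : ℝ) := by
  have h := reindex_slice W hu hv huv k (fun _ => (1:ℝ))
  simp only [Finset.sum_const, nsmul_eq_mul, mul_one] at h
  rw [h, Finset.card_powersetCard]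
  have : ((W.erase u).erase v).card = W.card - 2 := by
    rw [Finset.card_erase_of_mem (Finset.mem_erase.2 ⟨huv.symm, hv⟩), Finset.card_erase_of_mem hu]
    omega
  rw [this]

/-- expansion of the energy. -/
lemma jen_expand (W : Finset β) (k : ℕ) (G : Finset β → ℝ) :
    jen W k G = ∑ u ∈ W, ∑ v ∈ W.erase u,
      ∑ X ∈ (W.powersetCard k).filter (fun X => u ∈ X ∧ v ∉ X),
        (G X - G (insert v (X.erase u))) ^ 2 := by
  unfold jen
  set ψ : Finset β → β → β → ℝ := fun X u v => (G X - G (insert v (X.erase u))) ^ 2 with hψ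
  have step1 : ∀ X ∈ W.powersetCard k, ∑ c ∈ X, ∑ e ∈ W \ X, ψ X c e
      = ∑ u ∈ W, ∑ v ∈ W.erase u, if u ∈ X ∧ v ∉ X then ψ X u v else 0 := by
    intro X hX
    have hXW := (Finset.mem_powersetCard.1 hX).1
    have h1 : X = W.filter (· ∈ X) := by
      ext z
      simp only [Finset.mem_filter]
      exact ⟨fun h => ⟨hXW h, h⟩, fun h => h.2⟩
    have h1' : ∑ c ∈ X, ∑ e ∈ W \ X, ψ X c e
        = ∑ c ∈ W, if c ∈ X then ∑ e ∈ W \ X, ψ X c e else 0 := by
      rw [← Finset.sum_filter, ← h1]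
    rw [h1']
    refine Finset.sum_congr rfl fun u hu => ?_
    by_cases huX : u ∈ X
    · rw [if_pos huX]
      have h2 : W \ X = (W.erase u).filter (· ∉ X) := by
        ext z
        simp only [Finset.mem_sdiff, Finset.mem_filter, Finset.mem_erase]
        constructor
        · rintro ⟨h, h'⟩
          refine ⟨⟨?_, h⟩, h'⟩
          rintro rfl
          exact h' huX
        · rintro ⟨⟨_, h⟩, h'⟩
          exact ⟨h, h'⟩
      rw [h2, Finset.sum_filter]
      refine Finset.sum_congr rfl fun v _ => ?_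
      by_cases hv : v ∈ X <;> simp [huX, hv]
    · rw [if_neg huX]
      symm
      refine Finset.sum_eq_zero fun v _ => ?_
      simp [huX]
  rw [Finset.sum_congr rfl step1, Finset.sum_comm]
  refine Finset.sum_congr rfl fun u _ => ?_
  rw [Finset.sum_comm]
  refine Finset.sum_congr rfl fun v _ => ?_
  rw [Finset.sum_filter]

/-- second moment of a linear form in the spins, given the pair correlation. -/
lemma moment_form (Y : Finset β) (k : ℕ) (a : β → ℝ) (R : ℝ)
    (hR : ∀ z ∈ Y, ∀ z' ∈ Y, z ≠ z' → ∑ X ∈ Y.powersetCard k, sgnJ X z * sgnJ X z' = R) :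
    ∑ X ∈ Y.powersetCard k, (∑ z ∈ Y, a z * sgnJ X z) ^ 2
      = ((Y.card.choose k : ℝ) - R) * ∑ z ∈ Y, a z ^ 2 + R * (∑ z ∈ Y, a z) ^ 2 := by
  have hC : ∀ z ∈ Y, ∀ z' ∈ Y, ∑ X ∈ Y.powersetCard k, sgnJ X z * sgnJ X z'
      = R + (if z = z' then ((Y.card.choose k : ℝ) - R) else 0) := by
    intro z hz z' hz'
    by_cases h : z = z'
    · subst h
      rw [if_pos rfl]
      have : ∀ X ∈ Y.powersetCard k, sgnJ X z * sgnJ X z = 1 := by
        intro X _
        unfold sgnJ
        split_ifs <;> norm_num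
      rw [Finset.sum_congr rfl this]
      simp [Finset.card_powersetCard]
    · rw [if_neg h, hR z hz z' hz' h, add_zero]
  have h1 : ∀ X, (∑ z ∈ Y, a z * sgnJ X z) ^ 2
      = ∑ z ∈ Y, ∑ z' ∈ Y, (a z * a z') * (sgnJ X z * sgnJ X z') := by
    intro X
    rw [sq, Finset.sum_mul_sum]
    refine Finset.sum_congr rfl fun z _ => Finset.sum_congr rfl fun z' _ => ?_
    ring
  simp only [h1]
  rw [Finset.sum_comm]
  have h2 : ∀ z ∈ Y, ∑ X ∈ Y.powersetCard k, ∑ z' ∈ Y, (a z * a z') * (sgnJ X z * sgnJ X z')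
      = ∑ z' ∈ Y, (a z * a z') * (R + (if z = z' then ((Y.card.choose k : ℝ) - R) else 0)) := by
    intro z hz
    rw [Finset.sum_comm]
    refine Finset.sum_congr rfl fun z' hz' => ?_
    rw [← Finset.mul_sum, hC z hz z' hz']
  rw [Finset.sum_congr rfl h2]
  have h3 : ∀ z ∈ Y, ∑ z' ∈ Y, (a z * a z') * (R + (if z = z' then ((Y.card.choose k : ℝ) - R) else 0))
      = R * (a z * ∑ z' ∈ Y, a z') + ((Y.card.choose k : ℝ) - R) * a z ^ 2 := by
    intro z hz
    have : ∀ z' ∈ Y, (a z * a z') * (R + (if z = z' then ((Y.card.choose k : ℝ) - R) else 0))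
        = R * (a z * a z') + (if z = z' then ((Y.card.choose k : ℝ) - R) * a z ^ 2 else 0) := by
      intro z' _
      by_cases h : z = z'
      · subst h; simp; ring
      · simp [h]; ring
    rw [Finset.sum_congr rfl this, Finset.sum_add_distrib, Finset.sum_ite_eq, if_pos hz,
      ← Finset.mul_sum, ← Finset.mul_sum]
  rw [Finset.sum_congr rfl h3, Finset.sum_add_distrib, ← Finset.mul_sum, ← Finset.mul_sum,
    ← Finset.sum_mul]
  ring

/-- The pair count of the slice -/
noncomputable def cntJ (m k : ℕ) : ℝ := match k with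
  | 0 => 0
  | k + 1 => ((m - 2).choose k : ℝ)

/-- the pair correlation -/
noncomputable def RJ (m k : ℕ) : ℝ := if 2 ≤ m then (m.choose k : ℝ) - 4 * cntJ m k else 0

lemma card_slice' (W : Finset β) {u v : β} (hu : u ∈ W) (hv : v ∈ W) (huv : u ≠ v) (k : ℕ) :
    (((W.powersetCard k).filter (fun X => u ∈ X ∧ v ∉ X)).card : ℝ) = cntJ W.card k := by
  cases k with
  | zero =>
    simp only [cntJ, Finset.powersetCard_zero]
    rw [Nat.cast_eq_zero, Finset.card_eq_zero, Finset.filter_eq_empty_iff]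
    simp
  | succ k => exact card_slice W hu hv huv k

lemma sum_sgn_pair (Y : Finset β) (k : ℕ) {z z' : β} (hz : z ∈ Y) (hz' : z' ∈ Y) (h : z ≠ z') :
    ∑ X ∈ Y.powersetCard k, sgnJ X z * sgnJ X z' = RJ Y.card k := by
  have hc : 2 ≤ Y.card := by
    have := Finset.one_lt_card.2 ⟨z, hz, z', hz', h⟩
    omega
  have hpt : ∀ X ∈ Y.powersetCard k, sgnJ X z * sgnJ X z'
      = 1 - 2 * (if z ∈ X ∧ z' ∉ X then 1 else 0) - 2 * (if z' ∈ X ∧ z ∉ X then 1 else 0) := by
    intro X _
    unfold sgnJ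
    by_cases h1 : z ∈ X <;> by_cases h2 : z' ∈ X <;> simp [h1, h2] <;> norm_num
  rw [Finset.sum_congr rfl hpt, Finset.sum_sub_distrib, Finset.sum_sub_distrib, ← Finset.mul_sum,
    ← Finset.mul_sum, Finset.sum_boole, Finset.sum_boole, card_slice' Y hz hz' h k,
    card_slice' Y hz' hz h.symm k]
  simp only [Finset.sum_const, Finset.card_powersetCard, nsmul_eq_mul, mul_one, RJ, if_pos hc]
  ring

lemma abs_RJ_le (m k : ℕ) : |RJ m k| ≤ (m.choose k : ℝ) := by
  unfold RJ
  split_ifs with hm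
  · have h0 : (0 : ℕ) ∈ Finset.range m := Finset.mem_range.2 (by omega)
    have h1 : (1 : ℕ) ∈ Finset.range m := Finset.mem_range.2 (by omega)
    have h := sum_sgn_pair (Finset.range m) k h0 h1 (by norm_num)
    rw [Finset.card_range] at h
    unfold RJ at h
    rw [if_pos hm] at h
    rw [← h]
    calc |∑ X ∈ (Finset.range m).powersetCard k, sgnJ X 0 * sgnJ X 1|
        ≤ ∑ X ∈ (Finset.range m).powersetCard k, |sgnJ X 0 * sgnJ X 1| :=
          Finset.abs_sum_le_sum_abs _ _
      _ = ∑ X ∈ (Finset.range m).powersetCard k, 1 := by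
          refine Finset.sum_congr rfl fun X _ => ?_
          unfold sgnJ
          split_ifs <;> simp
      _ = (m.choose k : ℝ) := by
          simp [Finset.card_powersetCard]
  · simp

lemma sum_sum_sub_sq (W : Finset β) (t : β → ℝ) :
    ∑ u ∈ W, ∑ v ∈ W, (t u - t v) ^ 2
      = 2 * (W.card : ℝ) * ∑ u ∈ W, t u ^ 2 - 2 * (∑ u ∈ W, t u) ^ 2 := by
  have h : ∀ u ∈ W, ∑ v ∈ W, (t u - t v) ^ 2
      = (W.card : ℝ) * t u ^ 2 - 2 * t u * (∑ v ∈ W, t v) + ∑ v ∈ W, t v ^ 2 := by
    intro u _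
    have : ∀ v ∈ W, (t u - t v) ^ 2 = t u ^ 2 - 2 * t u * t v + t v ^ 2 := fun v _ => by ring
    rw [Finset.sum_congr rfl this, Finset.sum_add_distrib, Finset.sum_sub_distrib,
      ← Finset.mul_sum]
    simp
  rw [Finset.sum_congr rfl h, Finset.sum_add_distrib, Finset.sum_sub_distrib, ← Finset.mul_sum,
    ← Finset.sum_mul, ← Finset.mul_sum]
  simp only [Finset.sum_const, nsmul_eq_mul]
  ring

section frame
variable (W : Finset β) (y : β → β → ℝ) (hy : ∀ c e, y c e = y e c) (h0 : ∀ c, y c c = 0)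
  (T : β → ℝ) (hT : ∀ u, ∑ z ∈ W, y u z = T u)
include hy h0 hT

lemma A_total :
    ∑ u ∈ W, ∑ v ∈ W.erase u, ∑ z ∈ (W.erase u).erase v, (y u z - y v z) ^ 2
      = 2 * ((W.card : ℝ) - 1) * (∑ c ∈ W, ∑ e ∈ W, y c e ^ 2) - 2 * ∑ u ∈ W, T u ^ 2 := by
  have step1 : ∀ u ∈ W, ∑ v ∈ W.erase u, ∑ z ∈ (W.erase u).erase v, (y u z - y v z) ^ 2
      = ∑ v ∈ W, (∑ z ∈ W, (y u z - y v z) ^ 2 - 2 * y u v ^ 2) := by
    intro u hu
    rw [← Finset.sum_erase W (a := u)]
    · refine Finset.sum_congr rfl fun v hv => ?_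
      obtain ⟨hvu, hvW⟩ := Finset.mem_erase.1 hv
      rw [sum_split_uv W hu hvW hvu.symm (fun z => (y u z - y v z) ^ 2)]
      simp only [h0, hy v u]
      ring
    · simp [h0]
  rw [Finset.sum_congr rfl step1]
  simp only [Finset.sum_sub_distrib, ← Finset.mul_sum]
  have step2 : ∑ u ∈ W, ∑ v ∈ W, ∑ z ∈ W, (y u z - y v z) ^ 2
      = 2 * (W.card : ℝ) * (∑ c ∈ W, ∑ e ∈ W, y c e ^ 2) - 2 * ∑ u ∈ W, T u ^ 2 := by
    have h1 : ∑ u ∈ W, ∑ v ∈ W, ∑ z ∈ W, (y u z - y v z) ^ 2
        = ∑ z ∈ W, ∑ u ∈ W, ∑ v ∈ W, (y u z - y v z) ^ 2 := by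
      calc ∑ u ∈ W, ∑ v ∈ W, ∑ z ∈ W, (y u z - y v z) ^ 2
          = ∑ u ∈ W, ∑ z ∈ W, ∑ v ∈ W, (y u z - y v z) ^ 2 :=
            Finset.sum_congr rfl fun u _ => Finset.sum_comm
        _ = _ := Finset.sum_comm
    rw [h1]
    have h2 : ∀ z ∈ W, ∑ u ∈ W, ∑ v ∈ W, (y u z - y v z) ^ 2
        = 2 * (W.card : ℝ) * ∑ u ∈ W, y u z ^ 2 - 2 * T z ^ 2 := by
      intro z _
      rw [sum_sum_sub_sq W (fun u => y u z), ← hT z]
      have : ∑ u ∈ W, y u z = ∑ u ∈ W, y z u := Finset.sum_congr rfl fun u _ => hy u z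
      rw [this]
    rw [Finset.sum_congr rfl h2, Finset.sum_sub_distrib, ← Finset.mul_sum, ← Finset.mul_sum,
      Finset.sum_comm]
  rw [step2]
  ring

lemma sum_Y_diff {u v : β} (hu : u ∈ W) (hv : v ∈ W) (huv : u ≠ v) :
    ∑ z ∈ (W.erase u).erase v, (y u z - y v z) = T u - T v := by
  have h := sum_split_uv W hu hv huv (fun z => y u z - y v z)
  simp only [h0, hy v u, Finset.sum_sub_distrib, hT] at h
  rw [Finset.sum_sub_distrib, h]
  ring

lemma B_total :
    ∑ u ∈ W, ∑ v ∈ W.erase u, (T u - T v) ^ 2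
      = 2 * (W.card : ℝ) * ∑ u ∈ W, T u ^ 2 - 2 * (∑ u ∈ W, T u) ^ 2 := by
  rw [← sum_sum_sub_sq]
  refine Finset.sum_congr rfl fun u _ => ?_
  exact Finset.sum_erase W (by simp)

lemma B_le :
    2 * (W.card : ℝ) * ∑ u ∈ W, T u ^ 2 - 2 * (∑ u ∈ W, T u) ^ 2
      ≤ (W.card : ℝ) ^ 2 * ∑ c ∈ W, ∑ e ∈ W, y c e ^ 2 := by
  set M : ℝ := (W.card : ℝ) with hM
  set E : ℝ := ∑ c ∈ W, ∑ e ∈ W, y c e ^ 2 with hE
  set Q : ℝ := ∑ u ∈ W, T u ^ 2 with hQ
  set s : ℝ := ∑ u ∈ W, T u with hs
  by_cases hW : W = ∅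
  · subst hW
    simp [hM, hE, hQ, hs]
  have hMpos : 0 < M := by
    rw [hM]
    exact_mod_cast Finset.card_pos.2 (Finset.nonempty_iff_ne_empty.2 hW)
  -- the cross sum
  have hP : ∑ u ∈ W, ∑ z ∈ W, y u z * T z = Q := by
    rw [Finset.sum_comm]
    refine Finset.sum_congr rfl fun z _ => ?_
    rw [← Finset.sum_mul, sq, ← hT z]
    congr 1
    exact Finset.sum_congr rfl fun u _ => hy u z
  have hinner : ∀ u ∈ W, ∑ z ∈ W, (M ^ 2 * y u z - M * T u - M * T z + 2 * s) ^ 2
      = M ^ 4 * (∑ z ∈ W, y u z ^ 2) - M ^ 3 * T u ^ 2 + M ^ 2 * Q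
        - 2 * M ^ 3 * (∑ z ∈ W, y u z * T z) + 2 * M ^ 2 * s * T u := by
    intro u _
    have hpt : ∀ z ∈ W, (M ^ 2 * y u z - M * T u - M * T z + 2 * s) ^ 2
        = M ^ 4 * y u z ^ 2 + M ^ 2 * T z ^ 2 - 2 * M ^ 3 * T u * y u z - 2 * M ^ 3 * (y u z * T z)
          + 4 * M ^ 2 * s * y u z + 2 * M ^ 2 * T u * T z - 4 * M * s * T z
          + (M ^ 2 * T u ^ 2 + 4 * s ^ 2 - 4 * M * s * T u) := fun z _ => by ring
    rw [Finset.sum_congr rfl hpt]
    simp only [Finset.sum_add_distrib, Finset.sum_sub_distrib, ← Finset.mul_sum, hT,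
      Finset.sum_const, nsmul_eq_mul, ← hs, ← hQ, ← hM]
    ring
  have hsos : 0 ≤ ∑ u ∈ W, ∑ z ∈ W, (M ^ 2 * y u z - M * T u - M * T z + 2 * s) ^ 2 :=
    Finset.sum_nonneg fun u _ => Finset.sum_nonneg fun z _ => sq_nonneg _
  rw [Finset.sum_congr rfl hinner] at hsos
  simp only [Finset.sum_add_distrib, Finset.sum_sub_distrib, ← Finset.mul_sum, hP, ← hE, ← hQ, ← hs,
    Finset.sum_const, nsmul_eq_mul, ← hM] at hsos
  have h3 : 0 ≤ M ^ 2 * (M ^ 2 * E - (2 * M * Q - 2 * s ^ 2)) := by nlinarith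
  have h4 : 0 < M ^ 2 := by positivity
  have h5 := nonneg_of_mul_nonneg_right h3 h4
  linarith

/-- the bound for `jen` of the test function -/
lemma jen_frame_le (k : ℕ) :
    jen W (k + 1) (frameF W y)
      ≤ 4 * ((W.card - 2).choose k : ℝ) * (W.card : ℝ) ^ 2 * ∑ c ∈ W, ∑ e ∈ W, y c e ^ 2 := by
  set m := W.card - 2 with hm
  set n : ℝ := (m.choose k : ℝ) with hn
  set R : ℝ := RJ m k with hR
  have hcardY : ∀ u ∈ W, ∀ v ∈ W.erase u, ((W.erase u).erase v).card = m := by
    intro u hu v hv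
    rw [Finset.card_erase_of_mem hv, Finset.card_erase_of_mem hu]
    omega
  have hterm : ∀ u ∈ W, ∀ v ∈ W.erase u,
      ∑ X ∈ (W.powersetCard (k + 1)).filter (fun X => u ∈ X ∧ v ∉ X),
          (frameF W y X - frameF W y (insert v (X.erase u))) ^ 2
        = 4 * ((n - R) * ∑ z ∈ (W.erase u).erase v, (y u z - y v z) ^ 2 + R * (T u - T v) ^ 2) := by
    intro u hu v hv
    obtain ⟨hvu, hvW⟩ := Finset.mem_erase.1 hv
    have huv : u ≠ v := hvu.symm
    have h1 : ∀ X ∈ (W.powersetCard (k + 1)).filter (fun X => u ∈ X ∧ v ∉ X),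
        (frameF W y X - frameF W y (insert v (X.erase u))) ^ 2
          = (fun X => 4 * (∑ z ∈ (W.erase u).erase v, (y u z - y v z) * sgnJ X z) ^ 2) X := by
      intro X hX
      obtain ⟨hXu, hXv⟩ := (Finset.mem_filter.1 hX).2
      rw [frameF_diff W y hy hu hvW huv hXu hXv]
      ring
    rw [Finset.sum_congr rfl h1, reindex_slice W hu hvW huv k]
    have h2 : ∀ X ∈ ((W.erase u).erase v).powersetCard k,
        (∑ z ∈ (W.erase u).erase v, (y u z - y v z) * sgnJ (insert u X) z)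
          = ∑ z ∈ (W.erase u).erase v, (y u z - y v z) * sgnJ X z := by
      intro X _
      refine Finset.sum_congr rfl fun z hz => ?_
      have hzu : z ≠ u := (Finset.mem_erase.1 (Finset.mem_erase.1 hz).2).1
      simp [sgnJ, hzu]
    have h3 : ∑ X ∈ ((W.erase u).erase v).powersetCard k,
        (4 * (∑ z ∈ (W.erase u).erase v, (y u z - y v z) * sgnJ (insert u X) z) ^ 2)
        = 4 * ∑ X ∈ ((W.erase u).erase v).powersetCard k,
          (∑ z ∈ (W.erase u).erase v, (y u z - y v z) * sgnJ X z) ^ 2 := by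
      rw [Finset.mul_sum]
      refine Finset.sum_congr rfl fun X hX => ?_
      rw [h2 X hX]
    rw [h3]
    have hc := hcardY u hu v hv
    have h4 := moment_form ((W.erase u).erase v) k (fun z => y u z - y v z) R (by
      intro z hz z' hz' hzz
      rw [sum_sgn_pair _ k hz hz' hzz, hc])
    rw [h4, hc, sum_Y_diff W y hy h0 T hT hu hvW huv]
  rw [jen_expand]
  have hA := A_total W y hy h0 T hT
  have hB := B_total W y hy h0 T hT
  have hBle := B_le W y hy h0 T hT
  have hsum : ∑ u ∈ W, ∑ v ∈ W.erase u,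
      ∑ X ∈ (W.powersetCard (k + 1)).filter (fun X => u ∈ X ∧ v ∉ X),
          (frameF W y X - frameF W y (insert v (X.erase u))) ^ 2
      = 4 * ((n - R) * (∑ u ∈ W, ∑ v ∈ W.erase u, ∑ z ∈ (W.erase u).erase v, (y u z - y v z) ^ 2)
          + R * ∑ u ∈ W, ∑ v ∈ W.erase u, (T u - T v) ^ 2) := by
    rw [Finset.mul_sum, Finset.mul_sum, ← Finset.sum_add_distrib, Finset.mul_sum]
    refine Finset.sum_congr rfl fun u hu => ?_
    rw [Finset.mul_sum, Finset.mul_sum, ← Finset.sum_add_distrib, Finset.mul_sum]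
    exact Finset.sum_congr rfl fun v hv => hterm u hu v hv
  rw [hsum, hA, hB]
  set M : ℝ := (W.card : ℝ) with hM
  set E : ℝ := ∑ c ∈ W, ∑ e ∈ W, y c e ^ 2 with hE
  set Q : ℝ := ∑ u ∈ W, T u ^ 2 with hQ
  set s : ℝ := ∑ u ∈ W, T u with hs
  have hRabs := abs_le.1 (abs_RJ_le m k)
  have hR1 : 0 ≤ n - R := by have := hRabs.2; simp only [hR, hn]; linarith
  have hR2 : 0 ≤ n + R := by have := hRabs.1; simp only [hR, hn]; linarith
  have hE0 : 0 ≤ E := Finset.sum_nonneg fun _ _ => Finset.sum_nonneg fun _ _ => sq_nonneg _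
  have hcs : s ^ 2 ≤ M * Q := by
    have := sq_sum_le_card_mul_sum_sq (s := W) (f := T)
    simpa [hs, hM, hQ] using this
  -- B = 2 M Q - 2 s²,  2 A - B ≤ M² E
  have hB' : 2 * M * Q - 2 * s ^ 2 ≤ M ^ 2 * E := hBle
  have hA' : 2 * (2 * (M - 1) * E - 2 * Q) - (2 * M * Q - 2 * s ^ 2) ≤ M ^ 2 * E := by
    have hQ0 : 0 ≤ Q := Finset.sum_nonneg fun _ _ => sq_nonneg _
    have : 4 * (M - 1) ≤ M ^ 2 := by nlinarith [sq_nonneg (M - 2)]
    nlinarith
  have h1 := mul_le_mul_of_nonneg_left hB' hR2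
  have h2 := mul_le_mul_of_nonneg_left hA' hR1
  nlinarith

end frame

lemma cov_eq_sum (S : Finset (Finset β)) (g f : Finset β → ℝ) :
    cov S g f = (∑ X ∈ S, (g X - avg S g) * f X) / (S.card : ℝ) := by
  unfold cov
  have : ∑ X ∈ S, (g X - avg S g) * f X = ∑ X ∈ S, g X * f X - avg S g * ∑ X ∈ S, f X := by
    rw [Finset.mul_sum, ← Finset.sum_sub_distrib]
    exact Finset.sum_congr rfl fun X _ => by ring
  rw [this]
  simp only [avg]
  ring

lemma sum_sep (W : Finset β) (k : ℕ) {c e : β} (hc : c ∈ W) (he : e ∈ W) (hce : c ≠ e) :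
    ∑ X ∈ W.powersetCard (k + 1), sep c e X = 2 * ((W.card - 2).choose k : ℝ) := by
  have hpt : ∀ X ∈ W.powersetCard (k + 1), sep c e X
      = (if c ∈ X ∧ e ∉ X then 1 else 0) + (if e ∈ X ∧ c ∉ X then 1 else 0) := by
    intro X _
    unfold sep
    by_cases h1 : c ∈ X <;> by_cases h2 : e ∈ X <;> simp [h1, h2]
  rw [Finset.sum_congr rfl hpt, Finset.sum_add_distrib, Finset.sum_boole, Finset.sum_boole,
    card_slice W hc he hce k, card_slice W he hc hce.symm k]
  ring

lemma avg_sq_nonneg (S : Finset (Finset β)) (g : Finset β → ℝ) :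
    0 ≤ avg S (fun X => (g X - avg S g) ^ 2) := by
  unfold avg
  exact div_nonneg (Finset.sum_nonneg fun _ _ => sq_nonneg _) (Nat.cast_nonneg _)

/-- **WP Johnson-frame**. -/
theorem johnsonFrame (h : JohnsonGap) : JohnsonFrame := by
  intro β _ W k g
  have hRHS0 : 0 ≤ (W.card : ℝ) * avg (W.powersetCard k) (fun X => (g X - avg (W.powersetCard k) g) ^ 2) :=
    mul_nonneg (Nat.cast_nonneg _) (avg_sq_nonneg _ _)
  cases k with
  | zero =>
    have hterm : ∀ c ∈ W, ∀ e ∈ W.erase c,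
        cov (W.powersetCard 0) g (sep c e) ^ 2 / avg (W.powersetCard 0) (sep c e) = 0 := by
      intro c _ e _
      have : avg (W.powersetCard 0) (sep c e) = 0 := by
        simp [avg, sep]
      rw [this, div_zero]
    rw [Finset.sum_eq_zero fun c hc => Finset.sum_eq_zero fun e he => hterm c hc e he]
    exact hRHS0
  | succ k =>
    set S := W.powersetCard (k + 1) with hS
    set N : ℝ := (S.card : ℝ) with hN
    set M : ℝ := (W.card : ℝ) with hM
    set n : ℝ := ((W.card - 2).choose k : ℝ) with hn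
    set gbar : ℝ := avg S g with hgbar
    set y : β → β → ℝ := fun c e => cov S g (sep c e) with hy_def
    have hy : ∀ c e, y c e = y e c := by
      intro c e
      simp only [hy_def]
      congr 1
      funext X
      exact sep_comm c e X
    have h0 : ∀ c, y c c = 0 := by
      intro c
      simp only [hy_def, cov_eq_sum, sep_self_zero, mul_zero, Finset.sum_const_zero, zero_div]
    set E : ℝ := ∑ c ∈ W, ∑ e ∈ W, y c e ^ 2 with hE
    set V : ℝ := ∑ X ∈ S, (g X - gbar) ^ 2 with hV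
    have hE0 : 0 ≤ E := Finset.sum_nonneg fun _ _ => Finset.sum_nonneg fun _ _ => sq_nonneg _
    have hV0 : 0 ≤ V := Finset.sum_nonneg fun _ _ => sq_nonneg _
    have hn0 : 0 ≤ n := Nat.cast_nonneg _
    have hM0 : 0 ≤ M := Nat.cast_nonneg _
    have hN0 : 0 ≤ N := Nat.cast_nonneg _
    -- the value of π
    have hπ : ∀ c ∈ W, ∀ e ∈ W.erase c, avg S (sep c e) = 2 * n / N := by
      intro c hc e he
      obtain ⟨hec, heW⟩ := Finset.mem_erase.1 he
      unfold avg
      rw [hS, sum_sep W k hc heW hec.symm]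
    -- the left side
    have hLHS : ∑ c ∈ W, ∑ e ∈ W.erase c, cov S g (sep c e) ^ 2 / avg S (sep c e)
        = E / (2 * n / N) := by
      rw [hE, Finset.sum_div]
      refine Finset.sum_congr rfl fun c hc => ?_
      rw [Finset.sum_div, ← Finset.sum_erase W (a := c) (by simp [h0])]
      exact Finset.sum_congr rfl fun e he => by rw [hπ c hc e he]
    have hRHS : avg S (fun X => (g X - avg S g) ^ 2) = V / N := rfl
    rw [hLHS, hRHS]
    by_cases hz : n = 0 ∨ N = 0
    · have : 2 * n / N = 0 := by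
        rcases hz with hz | hz <;> simp [hz]
      rw [this, div_zero]
      exact mul_nonneg hM0 (div_nonneg hV0 hN0)
    rw [not_or] at hz
    obtain ⟨hn1, hN1⟩ := hz
    have hnpos : 0 < n := lt_of_le_of_ne hn0 (Ne.symm hn1)
    have hNpos : 0 < N := lt_of_le_of_ne hN0 (Ne.symm hN1)
    have hSne : S.Nonempty := by
      rw [Finset.nonempty_iff_ne_empty]
      rintro hS0
      apply hN1
      simp [hN, hS0]
    have hWne : W.Nonempty := by
      by_contra hW
      rw [Finset.not_nonempty_iff_eq_empty] at hW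
      subst hW
      apply hN1
      simp [hN, hS]
    have hMpos : 0 < M := by
      rw [hM]; exact_mod_cast Finset.card_pos.2 hWne
    -- the test function
    set F := frameF W y with hF
    set T : β → ℝ := fun u => ∑ z ∈ W, y u z with hT
    have hjen := jen_frame_le W y hy h0 T (fun _ => rfl) k
    have hgap := h W (k + 1) F
    set Fbar : ℝ := avg S F with hFbar
    set V' : ℝ := ∑ X ∈ S, (F X - Fbar) ^ 2 with hV'
    have hV'0 : 0 ≤ V' := Finset.sum_nonneg fun _ _ => sq_nonneg _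
    have hV'le : V' ≤ 2 * n * M * E := by
      have h1 : 2 * M * V' ≤ 4 * n * M ^ 2 * E := hgap.trans hjen
      have h2 : M * (2 * V') ≤ M * (2 * (2 * n * M * E)) := by nlinarith
      have h3 := le_of_mul_le_mul_left h2 hMpos
      linarith
    -- `N E = G`
    have hy_mul : ∀ c e, N * y c e = ∑ X ∈ S, (g X - gbar) * sep c e X := by
      intro c e
      simp only [hy_def, cov_eq_sum]
      rw [mul_div_cancel₀ _ hN1]
    have hmean : ∑ X ∈ S, (g X - gbar) = 0 := by
      rw [Finset.sum_sub_distrib, Finset.sum_const, nsmul_eq_mul, hgbar]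
      unfold avg
      rw [mul_div_cancel₀ _ hN1, sub_self]
    have hG : N * E = ∑ X ∈ S, (g X - gbar) * (F X - Fbar) := by
      have h1 : ∑ X ∈ S, (g X - gbar) * (F X - Fbar) = ∑ X ∈ S, (g X - gbar) * F X := by
        have : ∀ X ∈ S, (g X - gbar) * (F X - Fbar) = (g X - gbar) * F X - (g X - gbar) * Fbar := fun X _ => by ring
        rw [Finset.sum_congr rfl this, Finset.sum_sub_distrib, ← Finset.sum_mul, hmean]
        ring
      rw [h1, hE, Finset.mul_sum]
      have h2 : ∀ X ∈ S, (g X - gbar) * F X = ∑ c ∈ W, ∑ e ∈ W, y c e * ((g X - gbar) * sep c e X) := by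
        intro X _
        simp only [hF, frameF, Finset.mul_sum]
        exact Finset.sum_congr rfl fun c _ => Finset.sum_congr rfl fun e _ => by ring
      rw [Finset.sum_congr rfl h2, Finset.sum_comm]
      refine Finset.sum_congr rfl fun c _ => ?_
      rw [Finset.sum_comm, Finset.mul_sum]
      refine Finset.sum_congr rfl fun e _ => ?_
      rw [← Finset.mul_sum, ← hy_mul c e]
      ring
    have hCS : (N * E) ^ 2 ≤ V * V' := by
      rw [hG]
      exact Finset.sum_mul_sq_le_sq_mul_sq S _ _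
    have hfinal : N ^ 2 * E ≤ 2 * n * M * V := by
      by_cases hE1 : E = 0
      · rw [hE1, mul_zero]
        positivity
      have hEpos : 0 < E := lt_of_le_of_ne hE0 (Ne.symm hE1)
      have h1 : E * (N ^ 2 * E) ≤ E * (2 * n * M * V) := by
        have h2 : V * V' ≤ V * (2 * n * M * E) := mul_le_mul_of_nonneg_left hV'le hV0
        nlinarith
      exact le_of_mul_le_mul_left h1 hEpos
    -- conclude
    have h2n : 0 < 2 * n := by positivity
    have e1 : E / (2 * n / N) = E * N / (2 * n) := by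
      field_simp
    have e2 : M * (V / N) * (2 * n) = (2 * n * M * V) / N := by
      field_simp
    rw [e1, div_le_iff₀ h2n, e2, le_div_iff₀ hNpos]
    nlinarith

end JF
end Crest.Agent.S0453Lib
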