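/-
S0453 WP W11: facts on `kernel n` and the bridge from `Poincare` to `KernelPoincare`.
-/
import Mathlib
import Crest.Prelude.Def_SwitchChain
import Crest.Agent.S0453Lib.Spec

set_option autoImplicit false
open Finset
open Crest.SwitchChain

namespace Crest.Agent.S0453Lib
namespace KernelW

variable {n : ℕ}

/-! ### Matchings -/

/-- the set of edges with underlying pairs `s(u,v)` or `s(w,z)` -/
def mkF (u v w z : Fin n) : Finset (Edge n) :=
  univ.filter fun ε => ε.1 = s(u, v) ∨ ε.1 = s(w, z)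

lemma mem_mkF {u v w z : Fin n} {ε : Edge n} :
    ε ∈ mkF u v w z ↔ ε.1 = s(u, v) ∨ ε.1 = s(w, z) := by
  simp [mkF]

/-- an edge from two distinct vertices -/
def mkE (u v : Fin n) (h : u ≠ v) : Edge n := ⟨s(u, v), by simpa using h⟩

lemma mkF_eq {u v w z : Fin n} (h1 : u ≠ v) (h2 : w ≠ z) :
    mkF u v w z = {mkE u v h1, mkE w z h2} := by
  ext ε
  simp only [mem_mkF, mem_insert, mem_singleton, mkE, Subtype.ext_iff]

lemma mkE_ne {u v w z : Fin n} (h1 : u ≠ v) (h2 : w ≠ z) (h3 : u ≠ w) (h4 : u ≠ z) :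
    mkE u v h1 ≠ mkE w z h2 := by
  intro h
  have := congrArg Subtype.val h
  simp only [mkE, Sym2.eq_iff] at this
  tauto

lemma mem_s {u v w : Fin n} : w ∈ s(u, v) ↔ w = u ∨ w = v := Sym2.mem_iff

/-- the explicit two-edge set is a perfect matching -/
lemma mkF_mem_pmSet {S : Finset (Fin n)} {u v w z : Fin n}
    (huv : u ≠ v) (huw : u ≠ w) (huz : u ≠ z) (hvw : v ≠ w) (hvz : v ≠ z) (hwz : w ≠ z)
    (hS : S = {u, v, w, z}) : mkF u v w z ∈ pmSet S := by
  subst hS
  unfold pmSet
  rw [mem_filter, mem_powersetCard]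
  refine ⟨⟨subset_univ _, ?_⟩, ?_, ?_⟩
  · rw [mkF_eq huv hwz, card_pair (mkE_ne huv hwz huw huz)]
  · intro ε hε t ht
    rw [mem_mkF] at hε
    simp only [mem_insert, mem_singleton]
    rcases hε with h | h <;> rw [h, mem_s] at ht <;> tauto
  · intro t ht
    rw [card_eq_one]
    simp only [mem_insert, mem_singleton] at ht
    have key : ∀ ε : Edge n, ε ∈ mkF u v w z → (t ∈ ε.1 ↔ (ε.1 = s(u, v) ∧ (t = u ∨ t = v)) ∨ (ε.1 = s(w, z) ∧ (t = w ∨ t = z))) := by
      intro ε hε
      rw [mem_mkF] at hε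
      rcases hε with h | h
      · rw [h, mem_s]
        constructor
        · intro h'; exact Or.inl ⟨rfl, h'⟩
        · rintro (⟨_, h'⟩ | ⟨h'', _⟩)
          · exact h'
          · exfalso; rw [Sym2.eq_iff] at h''; tauto
      · rw [h, mem_s]
        constructor
        · intro h'; exact Or.inr ⟨rfl, h'⟩
        · rintro (⟨h'', _⟩ | ⟨_, h'⟩)
          · exfalso; rw [Sym2.eq_iff] at h''; tauto
          · exact h'
    rcases ht with rfl | rfl | rfl | rfl
    · refine ⟨mkE t v huv, ?_⟩
      ext ε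
      simp only [mem_filter, mem_singleton]
      constructor
      · rintro ⟨h1, h2⟩
        rw [key ε h1] at h2
        rcases h2 with ⟨h3, _⟩ | ⟨_, h3⟩
        · exact Subtype.ext h3
        · exfalso; tauto
      · rintro rfl
        refine ⟨by rw [mem_mkF]; exact Or.inl rfl, by simp [mkE]⟩
    · refine ⟨mkE u t huv, ?_⟩
      ext ε
      simp only [mem_filter, mem_singleton]
      constructor
      · rintro ⟨h1, h2⟩
        rw [key ε h1] at h2
        rcases h2 with ⟨h3, _⟩ | ⟨_, h3⟩
        · exact Subtype.ext h3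
        · exfalso; tauto
      · rintro rfl
        refine ⟨by rw [mem_mkF]; exact Or.inl rfl, by simp [mkE]⟩
    · refine ⟨mkE t z hwz, ?_⟩
      ext ε
      simp only [mem_filter, mem_singleton]
      constructor
      · rintro ⟨h1, h2⟩
        rw [key ε h1] at h2
        rcases h2 with ⟨_, h3⟩ | ⟨h3, _⟩
        · exfalso; tauto
        · exact Subtype.ext h3
      · rintro rfl
        refine ⟨by rw [mem_mkF]; exact Or.inr rfl, by simp [mkE]⟩
    · refine ⟨mkE w t hwz, ?_⟩
      ext ε
      simp only [mem_filter, mem_singleton]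
      constructor
      · rintro ⟨h1, h2⟩
        rw [key ε h1] at h2
        rcases h2 with ⟨_, h3⟩ | ⟨h3, _⟩
        · exfalso; tauto
        · exact Subtype.ext h3
      · rintro rfl
        refine ⟨by rw [mem_mkF]; exact Or.inr rfl, by simp [mkE]⟩

/-- a perfect matching on `{a,y,p,q}` containing the edge `ay` is `{ay, pq}` -/
lemma pm_eq_of_mem {S : Finset (Fin n)} {a y p q : Fin n}
    (hay : a ≠ y) (hap : a ≠ p) (haq : a ≠ q) (hyp : y ≠ p) (hyq : y ≠ q) (hpq : p ≠ q)
    (hS : S = {a, y, p, q}) {F : Finset (Edge n)} (hF : F ∈ pmSet S)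
    (hmem : mkE a y hay ∈ F) : F = mkF a y p q := by
  subst hS
  unfold pmSet at hF
  rw [mem_filter, mem_powersetCard] at hF
  obtain ⟨⟨-, hcard⟩, hin, hone⟩ := hF
  have hp : p ∈ ({a, y, p, q} : Finset (Fin n)) := by simp
  have h1 := hone p hp
  rw [card_eq_one] at h1
  obtain ⟨ε, hε⟩ := h1
  have hεF : ε ∈ F ∧ p ∈ ε.1 := by
    have : ε ∈ F.filter fun e => p ∈ e.1 := by rw [hε]; simp
    simpa using this
  obtain ⟨hε1, hε2⟩ := hεF
  -- write ε = s(p,z)
  obtain ⟨z, hz⟩ := Sym2.mem_iff_exists.mp hε2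
  have hpz : p ≠ z := by
    intro h
    subst h
    exact ε.2 (by rw [hz]; simp)
  have hzS : z ∈ ({a, y, p, q} : Finset (Fin n)) := hin ε hε1 z (by rw [hz]; simp)
  simp only [mem_insert, mem_singleton] at hzS
  -- `a` is on only one edge
  have hane : z ≠ a := by
    rintro rfl
    have h2 := hone z (by simp)
    rw [card_eq_one] at h2
    obtain ⟨ε', hε'⟩ := h2
    have e1 : mkE z y hay ∈ F.filter fun e => z ∈ e.1 := by
      rw [mem_filter]; exact ⟨hmem, by simp [mkE]⟩
    have e2 : ε ∈ F.filter fun e => z ∈ e.1 := by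
      rw [mem_filter]; exact ⟨hε1, by rw [hz]; simp⟩
    rw [hε', mem_singleton] at e1 e2
    have : ε.1 = s(z, y) := by rw [e2, ← e1]; rfl
    rw [hz, Sym2.eq_iff] at this
    tauto
  have hyne : z ≠ y := by
    rintro rfl
    have h2 := hone z (by simp)
    rw [card_eq_one] at h2
    obtain ⟨ε', hε'⟩ := h2
    have e1 : mkE a z hay ∈ F.filter fun e => z ∈ e.1 := by
      rw [mem_filter]; exact ⟨hmem, by simp [mkE]⟩
    have e2 : ε ∈ F.filter fun e => z ∈ e.1 := by
      rw [mem_filter]; exact ⟨hε1, by rw [hz]; simp⟩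
    rw [hε', mem_singleton] at e1 e2
    have : ε.1 = s(a, z) := by rw [e2, ← e1]; rfl
    rw [hz, Sym2.eq_iff] at this
    tauto
  have hzq : z = q := by
    rcases hzS with h | h | h | h
    · exact absurd h hane
    · exact absurd h hyne
    · exact absurd h.symm hpz
    · exact h
  subst hzq
  have hsub : mkF a y p z ⊆ F := by
    intro e he
    rw [mem_mkF] at he
    rcases he with h | h
    · have : e = mkE a y hay := Subtype.ext h
      rw [this]; exact hmem
    · have : e = ε := Subtype.ext (by rw [h, hz])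
      rw [this]; exact hε1
  symm
  apply eq_of_subset_of_card_le hsub
  rw [hcard, mkF_eq hay hpq, card_pair (mkE_ne hay hpq hap haq)]

/-- a four element set has exactly three perfect matchings -/
lemma card_pmSet {S : Finset (Fin n)} (hS : S.card = 4) : (pmSet S).card = 3 := by
  obtain ⟨a, T, haT, rfl, hT⟩ := card_eq_succ.mp hS
  obtain ⟨b, c, e, hbc, hbe, hce, rfl⟩ := card_eq_three.mp hT
  simp only [mem_insert, mem_singleton, not_or] at haT
  obtain ⟨hab, hac, hae⟩ := haT
  have hS1 : insert a {b, c, e} = ({a, b, c, e} : Finset (Fin n)) := rfl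
  have hS2 : insert a {b, c, e} = ({a, c, b, e} : Finset (Fin n)) := by
    ext t; simp only [mem_insert, mem_singleton]; tauto
  have hS3 : insert a {b, c, e} = ({a, e, b, c} : Finset (Fin n)) := by
    ext t; simp only [mem_insert, mem_singleton]; tauto
  have m1 := mkF_mem_pmSet hab hac hae hbc hbe hce hS1
  have m2 := mkF_mem_pmSet hac hab hae hbc.symm hce hbe hS2
  have m3 := mkF_mem_pmSet hae hab hac hbe.symm hce.symm hbc hS3
  have hne12 : mkF a b c e ≠ mkF a c b e := by
    intro h
    have : mkE a b hab ∈ mkF a c b e := by rw [← h, mem_mkF]; exact Or.inl rfl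
    rw [mem_mkF] at this
    simp only [mkE, Sym2.eq_iff] at this
    tauto
  have hne13 : mkF a b c e ≠ mkF a e b c := by
    intro h
    have : mkE a b hab ∈ mkF a e b c := by rw [← h, mem_mkF]; exact Or.inl rfl
    rw [mem_mkF] at this
    simp only [mkE, Sym2.eq_iff] at this
    tauto
  have hne23 : mkF a c b e ≠ mkF a e b c := by
    intro h
    have : mkE a c hac ∈ mkF a e b c := by rw [← h, mem_mkF]; exact Or.inl rfl
    rw [mem_mkF] at this
    simp only [mkE, Sym2.eq_iff] at this
    tauto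
  have heq : pmSet (insert a {b, c, e}) = {mkF a b c e, mkF a c b e, mkF a e b c} := by
    ext F
    simp only [mem_insert, mem_singleton]
    constructor
    · intro hF
      -- find the edge through `a`
      have hF' := hF
      unfold pmSet at hF'
      rw [mem_filter, mem_powersetCard] at hF'
      obtain ⟨⟨-, hcard⟩, hin, hone⟩ := hF'
      have h1 := hone a (by simp)
      rw [card_eq_one] at h1
      obtain ⟨ε, hε⟩ := h1
      have hεF : ε ∈ F ∧ a ∈ ε.1 := by
        have : ε ∈ F.filter fun e => a ∈ e.1 := by rw [hε]; simp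
        simpa using this
      obtain ⟨hε1, hε2⟩ := hεF
      obtain ⟨z, hz⟩ := Sym2.mem_iff_exists.mp hε2
      have haz : a ≠ z := by
        intro h
        subst h
        exact ε.2 (by rw [hz]; simp)
      have hzS : z ∈ (insert a {b, c, e} : Finset (Fin n)) := hin ε hε1 z (by rw [hz]; simp)
      simp only [mem_insert, mem_singleton] at hzS
      rcases hzS with h | h | h | h
      · exact absurd h.symm haz
      · subst h
        left
        refine pm_eq_of_mem hab hac hae hbc hbe hce hS1 hF ?_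
        have : mkE a z hab = ε := Subtype.ext hz.symm
        rw [this]; exact hε1
      · subst h
        right; left
        refine pm_eq_of_mem hac hab hae hbc.symm hce hbe hS2 hF ?_
        have : mkE a z hac = ε := Subtype.ext hz.symm
        rw [this]; exact hε1
      · subst h
        right; right
        refine pm_eq_of_mem hae hab hac hbe.symm hce.symm hbc hS3 hF ?_
        have : mkE a z hae = ε := Subtype.ext hz.symm
        rw [this]; exact hε1
    · rintro (rfl | rfl | rfl)
      · exact m1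
      · exact m2
      · exact m3
  rw [heq, card_insert_of_notMem, card_pair hne23]
  simp only [mem_insert, mem_singleton, not_or]
  exact ⟨hne12, hne13⟩

/-! ### Proposals -/

lemma sr_inv {x y F F' : Finset (Edge n)} (hxy : x ≠ y) (h : switchResult x F F' = y) :
    switchResult y F' F = x := by
  unfold switchResult at h ⊢
  split_ifs at h with hc
  · obtain ⟨h1, h2⟩ := hc
    subst h
    have h3 : F' ⊆ x \ F ∪ F' := subset_union_right
    have hd : Disjoint F (x \ F ∪ F') := by
      rw [disjoint_union_right]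
      exact ⟨disjoint_sdiff, (h2.mono_right h1).symm⟩
    rw [if_pos ⟨h3, hd⟩]
    ext ε
    simp only [mem_union, mem_sdiff]
    constructor
    · rintro (⟨h4 | h4, h5⟩ | h4)
      · exact h4.1
      · exact absurd h4 h5
      · exact h1 h4
    · intro h4
      by_cases h5 : ε ∈ F
      · exact Or.inr h5
      · refine Or.inl ⟨Or.inl ⟨h4, h5⟩, ?_⟩
        intro h6
        exact (disjoint_left.mp h2 h6) h4
  · exact absurd h hxy

lemma proposalCount_comm {x y : Finset (Edge n)} (hxy : x ≠ y) :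
    proposalCount x y = proposalCount y x := by
  unfold proposalCount
  refine sum_congr rfl fun S _ => ?_
  rw [sum_comm' (s' := fun F' => (pmSet S).erase F') (t' := pmSet S)]
  · refine sum_congr rfl fun F _ => sum_congr rfl fun F' _ => ?_
    have : switchResult x F' F = y ↔ switchResult y F F' = x :=
      ⟨sr_inv hxy, sr_inv hxy.symm⟩
    simp only [this]
  · intro F F'
    simp only [mem_erase]
    constructor
    · rintro ⟨h1, h2, h3⟩; exact ⟨⟨h2.symm, h1⟩, h3⟩
    · rintro ⟨⟨h1, h2⟩, h3⟩; exact ⟨h2, h1.symm, h3⟩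

lemma choose_pos (hn : 4 ≤ n) : 0 < n.choose 4 := Nat.choose_pos hn

lemma sum_proposalCount (x : Finset (Edge n)) : ∑ y, proposalCount x y = 6 * n.choose 4 := by
  unfold proposalCount
  rw [sum_comm]
  have h : ∀ S ∈ (univ : Finset (Fin n)).powersetCard 4,
      ∑ y, ∑ F ∈ pmSet S, ∑ F' ∈ (pmSet S).erase F, (if switchResult x F F' = y then 1 else 0) = 6 := by
    intro S hS
    rw [mem_powersetCard] at hS
    rw [sum_comm]
    have h2 : ∀ F ∈ pmSet S, ∑ y, ∑ F' ∈ (pmSet S).erase F, (if switchResult x F F' = y then 1 else 0) = 2 := by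
      intro F hF
      rw [sum_comm]
      have h3 : ∀ F' ∈ (pmSet S).erase F, ∑ y, (if switchResult x F F' = y then 1 else 0) = 1 := by
        intro F' _
        simp
      rw [sum_congr rfl h3, sum_const, card_erase_of_mem hF, card_pmSet hS.2]
      rfl
    rw [sum_congr rfl h2, sum_const, card_pmSet hS.2]
    rfl
  rw [sum_congr rfl h, sum_const, card_powersetCard, card_univ, Fintype.card_fin]
  simp [mul_comm]

/-- `F` covers `v` once or not at all, according to `v ∈ S` -/
lemma pm_filter_card {S : Finset (Fin n)} {F : Finset (Edge n)} (hF : F ∈ pmSet S) (v : Fin n) :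
    (F.filter fun e => v ∈ e.1).card = if v ∈ S then 1 else 0 := by
  unfold pmSet at hF
  rw [mem_filter] at hF
  obtain ⟨-, hin, hone⟩ := hF
  split_ifs with hv
  · exact hone v hv
  · rw [card_eq_zero, filter_eq_empty_iff]
    intro e he hve
    exact hv (hin e he v hve)

lemma deg_switchResult {S : Finset (Fin n)} {x F F' : Finset (Edge n)}
    (hF : F ∈ pmSet S) (hF' : F' ∈ pmSet S) (v : Fin n) :
    deg (switchResult x F F') v = deg x v := by
  unfold switchResult
  split_ifs with hc
  · obtain ⟨h1, h2⟩ := hc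
    unfold deg
    have hd : Disjoint (x \ F) F' := by
      rw [disjoint_left]
      intro ε h3 h4
      rw [mem_sdiff] at h3
      exact (disjoint_left.mp h2 h4) h3.1
    rw [filter_union, card_union_of_disjoint (disjoint_filter_filter hd), pm_filter_card hF' v,
      ← pm_filter_card hF v]
    have hx : x = (x \ F) ∪ F := (sdiff_union_of_subset h1).symm
    conv_rhs => rw [hx]
    rw [filter_union, card_union_of_disjoint (disjoint_filter_filter sdiff_disjoint)]
  · rfl

lemma switchResult_mem {S : Finset (Fin n)} {x F F' : Finset (Edge n)} {d : Fin n → ℕ}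
    (hx : x ∈ realizations d) (hF : F ∈ pmSet S) (hF' : F' ∈ pmSet S) :
    switchResult x F F' ∈ realizations d := by
  unfold realizations at hx ⊢
  rw [mem_filter] at hx ⊢
  refine ⟨mem_univ _, fun v => ?_⟩
  rw [deg_switchResult hF hF', hx.2 v]

lemma proposalCount_eq_zero {x y : Finset (Edge n)} {d : Fin n → ℕ}
    (hx : x ∈ realizations d) (hy : y ∉ realizations d) : proposalCount x y = 0 := by
  unfold proposalCount
  refine sum_eq_zero fun S _ => sum_eq_zero fun F hF => sum_eq_zero fun F' hF' => ?_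
  rw [if_neg]
  intro h
  exact hy (h ▸ switchResult_mem hx hF (mem_of_mem_erase hF'))

end KernelW

theorem kernelFacts : KernelFacts := by
  intro n hn
  have hC : (0 : ℝ) < (n.choose 4 : ℝ) := by exact_mod_cast KernelW.choose_pos hn
  refine ⟨?_, ?_, ?_, ?_, ?_⟩
  · intro x y
    unfold kernel
    have h1 : (0 : ℝ) ≤ if x = y then 1 / 2 else 0 := by split_ifs <;> norm_num
    have h2 : (0 : ℝ) ≤ (proposalCount x y : ℝ) / (12 * (n.choose 4 : ℝ)) := by positivity
    linarith
  · intro x y
    unfold kernel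
    by_cases h : x = y
    · rw [h]
    · rw [KernelW.proposalCount_comm h, if_neg h, if_neg (Ne.symm h)]
  · intro x
    unfold kernel
    rw [sum_add_distrib, ← sum_div, ← Nat.cast_sum, KernelW.sum_proposalCount]
    simp only [sum_ite_eq, mem_univ, if_true]
    push_cast
    field_simp
    norm_num
  · intro x
    unfold kernel
    rw [if_pos rfl]
    have h2 : (0 : ℝ) ≤ (proposalCount x x : ℝ) / (12 * (n.choose 4 : ℝ)) := by positivity
    linarith
  · intro d x hx y hy
    unfold kernel
    have hne : x ≠ y := fun h => hy (h ▸ hx)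
    rw [if_neg hne, KernelW.proposalCount_eq_zero hx hy]
    simp

namespace KernelW

variable {n : ℕ}

/-! ### The bijection with `Gr` -/

/-- adjacency on unordered pairs -/
def adjS (x : Gr (Fin n)) : Sym2 (Fin n) → Bool := Sym2.lift ⟨x.adj, x.symm⟩

lemma adjS_mk (x : Gr (Fin n)) (u v : Fin n) : adjS x s(u, v) = x.adj u v := rfl

/-- the edge set of a graph -/
def ofGr (x : Gr (Fin n)) : Finset (Edge n) := univ.filter fun ε => adjS x ε.1 = true

lemma mem_ofGr {x : Gr (Fin n)} {ε : Edge n} : ε ∈ ofGr x ↔ adjS x ε.1 = true := by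
  simp [ofGr]

lemma ofGr_injective : Function.Injective (ofGr (n := n)) := by
  intro x y h
  ext u v
  by_cases huv : u = v
  · subst huv
    simp [x.irrefl, y.irrefl]
  · have h1 : mkE u v huv ∈ ofGr x ↔ mkE u v huv ∈ ofGr y := by rw [h]
    rw [mem_ofGr, mem_ofGr] at h1
    exact Bool.eq_iff_iff.mpr h1

/-- the graph of an edge set -/
def toGr (E : Finset (Edge n)) : Gr (Fin n) where
  adj u v := decide (∃ ε ∈ E, ε.1 = s(u, v))
  symm u v := by simp only [Sym2.eq_swap]
  irrefl u := by
    simp only [decide_eq_false_iff_not, not_exists, not_and]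
    intro ε _ h
    exact ε.2 (by rw [h]; simp)

lemma ofGr_toGr (E : Finset (Edge n)) : ofGr (toGr E) = E := by
  ext ε
  rw [mem_ofGr]
  rcases ε with ⟨e, he⟩
  induction e using Sym2.ind with
  | _ u v =>
    change (toGr E).adj u v = true ↔ _
    simp only [toGr, decide_eq_true_eq]
    constructor
    · rintro ⟨ε, h1, h2⟩
      have : ε = ⟨s(u, v), he⟩ := Subtype.ext h2
      rwa [← this]
    · intro h
      exact ⟨_, h, rfl⟩

lemma gr_deg_eq (x : Gr (Fin n)) (v : Fin n) : x.deg v = deg (ofGr x) v := by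
  unfold Gr.deg deg
  have hne : ∀ u ∈ univ.filter (fun u => x.adj v u = true), v ≠ u := by
    intro u hu h
    subst h
    rw [mem_filter, x.irrefl] at hu
    exact absurd hu.2 (by simp)
  refine card_bij (fun u hu => mkE v u (hne u hu)) ?_ ?_ ?_
  · intro u hu
    rw [mem_filter, mem_ofGr]
    rw [mem_filter] at hu
    exact ⟨hu.2, by simp [mkE]⟩
  · intro u hu u' hu' h
    have := congrArg Subtype.val h
    simp only [mkE, Sym2.eq_iff] at this
    rcases this with ⟨_, h'⟩ | ⟨h1, h2⟩
    · exact h'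
    · rw [← h1, h2]
  · intro ε hε
    rw [mem_filter, mem_ofGr] at hε
    obtain ⟨h1, h2⟩ := hε
    obtain ⟨u, hu⟩ := Sym2.mem_iff_exists.mp h2
    have hu' : x.adj v u = true := by rw [← adjS_mk, ← hu]; exact h1
    refine ⟨u, by rw [mem_filter]; exact ⟨mem_univ _, hu'⟩, ?_⟩
    exact Subtype.ext hu.symm

lemma realizations_eq (d : Fin n → ℕ) : realizations d = (Om d).image ofGr := by
  ext E
  simp only [realizations, Om, mem_filter, mem_univ, true_and, mem_image]
  constructor
  · intro h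
    refine ⟨toGr E, fun v => ?_, ofGr_toGr E⟩
    rw [gr_deg_eq, ofGr_toGr, h v]
  · rintro ⟨x, hx, rfl⟩ v
    rw [← gr_deg_eq, hx v]

lemma sum_realizations (d : Fin n → ℕ) (φ : Finset (Edge n) → ℝ) :
    ∑ G ∈ realizations d, φ G = ∑ x ∈ Om d, φ (ofGr x) := by
  rw [realizations_eq, sum_image ofGr_injective.injOn]

lemma card_realizations (d : Fin n → ℕ) : (realizations d).card = (Om d).card := by
  rw [realizations_eq, card_image_of_injective _ ofGr_injective]

/-! ### Switches are proposals -/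

lemma togP_iff (a b c e u v : Fin n) :
    togP a b c e u v ↔ (s(u, v) = s(a, c) ∨ s(u, v) = s(b, e)) ∨ (s(u, v) = s(a, e) ∨ s(u, v) = s(b, c)) := by
  simp only [togP, Sym2.eq_iff]
  tauto

lemma sw_sub {x : Gr (Fin n)} {a b c e : Fin n} (h : Sw x a b c e) :
    mkF a c b e ⊆ ofGr x := by
  intro ε hε
  rw [mem_mkF] at hε
  rw [mem_ofGr]
  rcases hε with h1 | h1 <;> rw [h1, adjS_mk]
  · exact h.2.2.2.2.2.2.1
  · exact h.2.2.2.2.2.2.2.1

lemma sw_disj {x : Gr (Fin n)} {a b c e : Fin n} (h : Sw x a b c e) :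
    Disjoint (mkF a e b c) (ofGr x) := by
  rw [disjoint_left]
  intro ε hε
  rw [mem_mkF] at hε
  rw [mem_ofGr]
  rcases hε with h1 | h1 <;> rw [h1, adjS_mk]
  · rw [h.2.2.2.2.2.2.2.2.1]; simp
  · rw [h.2.2.2.2.2.2.2.2.2]; simp

lemma sw_result {x : Gr (Fin n)} {a b c e : Fin n} (h : Sw x a b c e) :
    switchResult (ofGr x) (mkF a c b e) (mkF a e b c) = ofGr (swp x a b c e) := by
  unfold switchResult
  rw [if_pos ⟨sw_sub h, sw_disj h⟩]
  ext ε
  simp only [mem_union, mem_sdiff, mem_mkF, mem_ofGr]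
  rcases ε with ⟨ε, hε⟩
  induction ε using Sym2.ind with
  | _ u v =>
    have huv : u ≠ v := by simpa using hε
    change (x.adj u v = true ∧ ¬ (s(u, v) = s(a, c) ∨ s(u, v) = s(b, e))) ∨
        (s(u, v) = s(a, e) ∨ s(u, v) = s(b, c)) ↔ (swp x a b c e).adj u v = true
    simp only [swp]
    by_cases ht1 : s(u, v) = s(a, c) ∨ s(u, v) = s(b, e)
    · have hadj : x.adj u v = true := by
        rw [← adjS_mk]
        rcases ht1 with h1 | h1 <;> rw [h1, adjS_mk]
        · exact h.2.2.2.2.2.2.1
        · exact h.2.2.2.2.2.2.2.1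
      have ht2 : ¬ (s(u, v) = s(a, e) ∨ s(u, v) = s(b, c)) := by
        rintro (h1 | h1)
        · rw [← adjS_mk, h1, adjS_mk, h.2.2.2.2.2.2.2.2.1] at hadj; simp at hadj
        · rw [← adjS_mk, h1, adjS_mk, h.2.2.2.2.2.2.2.2.2] at hadj; simp at hadj
      rw [if_pos ⟨huv, (togP_iff a b c e u v).2 (Or.inl ht1)⟩, hadj]
      constructor
      · rintro (⟨-, h2⟩ | h2)
        · exact absurd ht1 h2
        · exact absurd h2 ht2
      · intro h2
        simp at h2
    · by_cases ht2 : s(u, v) = s(a, e) ∨ s(u, v) = s(b, c)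
      · have hadj : x.adj u v = false := by
          rw [← adjS_mk]
          rcases ht2 with h1 | h1 <;> rw [h1, adjS_mk]
          · exact h.2.2.2.2.2.2.2.2.1
          · exact h.2.2.2.2.2.2.2.2.2
        rw [if_pos ⟨huv, (togP_iff a b c e u v).2 (Or.inr ht2)⟩, hadj]
        constructor
        · intro _
          rfl
        · intro _
          exact Or.inr ht2
      · have : ¬ (u ≠ v ∧ togP a b c e u v) := by
          rintro ⟨-, h1⟩
          rw [togP_iff] at h1
          tauto
        rw [if_neg this]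
        constructor
        · rintro (⟨h2, -⟩ | h2)
          · exact h2
          · exact absurd h2 ht2
        · intro h2
          exact Or.inl ⟨h2, ht1⟩

/-- the proposals, as a single index set -/
noncomputable def Pr (n : ℕ) : Finset (Σ _ : Finset (Fin n), Σ _ : Finset (Edge n), Finset (Edge n)) :=
  ((univ : Finset (Fin n)).powersetCard 4).sigma fun S =>
    (pmSet S).sigma fun F => (pmSet S).erase F

lemma sum_Pr (t : Finset (Edge n) → Finset (Edge n) → ℝ) :
    ∑ p ∈ Pr n, t p.2.1 p.2.2 = ∑ S ∈ (univ : Finset (Fin n)).powersetCard 4,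
      ∑ F ∈ pmSet S, ∑ F' ∈ (pmSet S).erase F, t F F' := by
  unfold Pr
  rw [sum_sigma]
  refine sum_congr rfl fun S _ => ?_
  rw [sum_sigma]

/-- the proposal of a labelled switch -/
def phi (a : Fin n) (l : Fin n × Fin n × Fin n) :
    Σ _ : Finset (Fin n), Σ _ : Finset (Edge n), Finset (Edge n) :=
  ⟨{a, l.1, l.2.1, l.2.2}, ⟨mkF a l.2.1 l.1 l.2.2, mkF a l.2.2 l.1 l.2.1⟩⟩

lemma phi_mem {x : Gr (Fin n)} {a b c e : Fin n} (h : Sw x a b c e) :
    phi a (b, c, e) ∈ (Pr n).filter fun p => a ∈ p.1 := by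
  obtain ⟨hab, hac, hae, hbc, hbe, hce, -⟩ := h
  have hS2 : ({a, b, c, e} : Finset (Fin n)) = {a, c, b, e} := by
    ext t; simp only [mem_insert, mem_singleton]; tauto
  have hS3 : ({a, b, c, e} : Finset (Fin n)) = {a, e, b, c} := by
    ext t; simp only [mem_insert, mem_singleton]; tauto
  have m2 := mkF_mem_pmSet hac hab hae hbc.symm hce hbe hS2
  have m3 := mkF_mem_pmSet hae hab hac hbe.symm hce.symm hbc hS3
  have hne : mkF a e b c ≠ mkF a c b e := by
    intro h
    have : mkE a e hae ∈ mkF a c b e := by rw [← h, mem_mkF]; exact Or.inl rfl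
    rw [mem_mkF] at this
    simp only [mkE, Sym2.eq_iff] at this
    tauto
  rw [mem_filter]
  refine ⟨?_, by simp [phi]⟩
  unfold Pr phi
  simp only [mem_sigma, mem_powersetCard, subset_univ, true_and, mem_erase]
  refine ⟨?_, m2, hne, m3⟩
  rw [card_insert_of_notMem, card_insert_of_notMem, card_pair hce]
  · simp only [mem_insert, mem_singleton]; tauto
  · simp only [mem_insert, mem_singleton]; tauto

lemma phi_inj {x : Gr (Fin n)} {a b c e b' c' e' : Fin n} (h : Sw x a b c e) (h' : Sw x a b' c' e')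
    (heq : phi a (b, c, e) = phi a (b', c', e')) : b = b' ∧ c = c' ∧ e = e' := by
  obtain ⟨hab, hac, hae, hbc, hbe, hce, -⟩ := h
  obtain ⟨hab', hac', hae', hbc', hbe', hce', -⟩ := h'
  simp only [phi, Sigma.mk.injEq, heq_eq_eq] at heq
  obtain ⟨-, h1, h2⟩ := heq
  have hc : c = c' := by
    have : mkE a c hac ∈ mkF a c' b' e' := by rw [← h1, mem_mkF]; exact Or.inl rfl
    rw [mem_mkF] at this
    simp only [mkE, Sym2.eq_iff] at this
    tauto
  have he : e = e' := by
    have : mkE a e hae ∈ mkF a e' b' c' := by rw [← h2, mem_mkF]; exact Or.inl rfl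
    rw [mem_mkF] at this
    simp only [mkE, Sym2.eq_iff] at this
    tauto
  subst hc
  subst he
  refine ⟨?_, rfl, rfl⟩
  have : mkE b e hbe ∈ mkF a c b' e := by rw [← h1, mem_mkF]; exact Or.inr rfl
  rw [mem_mkF] at this
  simp only [mkE, Sym2.eq_iff] at this
  tauto

/-- labelled switch energy at one graph vs. proposal energy -/
lemma labelled_le (f : Finset (Edge n) → ℝ) (x : Gr (Fin n)) :
    ∑ a, ∑ b, ∑ c, ∑ e, swTerm (fun y => f (ofGr y)) x a b c e
      ≤ 4 * ∑ S ∈ (univ : Finset (Fin n)).powersetCard 4, ∑ F ∈ pmSet S, ∑ F' ∈ (pmSet S).erase F,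
          (f (ofGr x) - f (switchResult (ofGr x) F F')) ^ 2 := by
  classical
  rw [← sum_Pr (fun F F' => (f (ofGr x) - f (switchResult (ofGr x) F F')) ^ 2)]
  set t : (Σ _ : Finset (Fin n), Σ _ : Finset (Edge n), Finset (Edge n)) → ℝ :=
    fun p => (f (ofGr x) - f (switchResult (ofGr x) p.2.1 p.2.2)) ^ 2 with ht
  have h1 : ∀ a : Fin n, ∑ b, ∑ c, ∑ e, swTerm (fun y => f (ofGr y)) x a b c e
      ≤ ∑ p ∈ (Pr n).filter (fun p => a ∈ p.1), t p := by
    intro a
    set L : Finset (Fin n × Fin n × Fin n) :=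
      univ.filter fun l => Sw x a l.1 l.2.1 l.2.2 with hL
    have h2 : ∑ b, ∑ c, ∑ e, swTerm (fun y => f (ofGr y)) x a b c e = ∑ l ∈ L, t (phi a l) := by
      rw [hL, sum_filter, Fintype.sum_prod_type]
      refine sum_congr rfl fun b _ => ?_
      rw [Fintype.sum_prod_type]
      refine sum_congr rfl fun c _ => sum_congr rfl fun e _ => ?_
      unfold swTerm
      by_cases hs : Sw x a b c e
      · simp only [if_pos hs, ht, phi]
        rw [sw_result hs]
      · simp only [if_neg hs]
    rw [h2, ← sum_image (f := t) (g := phi a) (s := L)]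
    · apply sum_le_sum_of_subset_of_nonneg
      · intro p hp
        rw [mem_image] at hp
        obtain ⟨⟨b, c, e⟩, hl, rfl⟩ := hp
        rw [hL, mem_filter] at hl
        exact phi_mem hl.2
      · intro p _ _
        exact sq_nonneg _
    · rintro ⟨b, c, e⟩ hl ⟨b', c', e'⟩ hl' heq
      rw [hL, mem_coe, mem_filter] at hl hl'
      obtain ⟨h3, h4, h5⟩ := phi_inj hl.2 hl'.2 heq
      simp only at h3 h4 h5
      rw [h3, h4, h5]
  refine (sum_le_sum fun a _ => h1 a).trans_eq ?_
  simp only [sum_filter]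
  rw [sum_comm, mul_sum]
  refine sum_congr rfl fun p hp => ?_
  have hp4 : p.1.card = 4 := by
    unfold Pr at hp
    rw [mem_sigma, mem_powersetCard] at hp
    exact hp.1.2
  rw [sum_ite_mem, univ_inter, sum_const, hp4]
  simp [ht]

/-- the Dirichlet form identity -/
lemma dirichlet {α : Type*} (Ω : Finset α) (K : α → α → ℝ) (hsym : ∀ x y, K x y = K y x)
    (hrow : ∀ x ∈ Ω, ∑ y ∈ Ω, K x y = 1) (f : α → ℝ) :
    ∑ x ∈ Ω, f x * (f x - ∑ y ∈ Ω, K x y * f y)
      = (1 / 2 : ℝ) * ∑ x ∈ Ω, ∑ y ∈ Ω, K x y * (f x - f y) ^ 2 := by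
  have hA : ∑ x ∈ Ω, ∑ y ∈ Ω, K x y * f x ^ 2 = ∑ x ∈ Ω, f x ^ 2 := by
    refine sum_congr rfl fun x hx => ?_
    rw [← sum_mul, hrow x hx, one_mul]
  have hB : ∑ x ∈ Ω, ∑ y ∈ Ω, K x y * f y ^ 2 = ∑ x ∈ Ω, f x ^ 2 := by
    rw [sum_comm, ← hA]
    refine sum_congr rfl fun x _ => sum_congr rfl fun y _ => ?_
    rw [hsym]
  have hexp : ∑ x ∈ Ω, ∑ y ∈ Ω, K x y * (f x - f y) ^ 2
      = ∑ x ∈ Ω, ∑ y ∈ Ω, K x y * f x ^ 2 + ∑ x ∈ Ω, ∑ y ∈ Ω, K x y * f y ^ 2
        - 2 * ∑ x ∈ Ω, ∑ y ∈ Ω, f x * (K x y * f y) := by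
    rw [mul_sum, ← sum_add_distrib, ← sum_sub_distrib]
    refine sum_congr rfl fun x _ => ?_
    rw [mul_sum, ← sum_add_distrib, ← sum_sub_distrib]
    refine sum_congr rfl fun y _ => ?_
    ring
  rw [hexp, hA, hB]
  have : ∑ x ∈ Ω, f x * (f x - ∑ y ∈ Ω, K x y * f y)
      = ∑ x ∈ Ω, f x ^ 2 - ∑ x ∈ Ω, ∑ y ∈ Ω, f x * (K x y * f y) := by
    rw [← sum_sub_distrib]
    refine sum_congr rfl fun x _ => ?_
    rw [← mul_sum]
    ring
  rw [this]
  ring

/-- proposal counts against a function on the realizations -/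
lemma sum_proposalCount_mul {d : Fin n → ℕ} {x : Finset (Edge n)} (hx : x ∈ realizations d)
    (w : Finset (Edge n) → ℝ) :
    ∑ y ∈ realizations d, (proposalCount x y : ℝ) * w y
      = ∑ S ∈ (univ : Finset (Fin n)).powersetCard 4, ∑ F ∈ pmSet S, ∑ F' ∈ (pmSet S).erase F,
          w (switchResult x F F') := by
  unfold proposalCount
  simp only [Nat.cast_sum, sum_mul]
  rw [sum_comm]
  refine sum_congr rfl fun S _ => ?_
  rw [sum_comm]
  refine sum_congr rfl fun F hF => ?_
  rw [sum_comm]
  refine sum_congr rfl fun F' hF' => ?_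
  have hm := switchResult_mem hx hF (mem_of_mem_erase hF')
  simp only [Nat.cast_ite, Nat.cast_one, Nat.cast_zero, ite_mul, one_mul, zero_mul]
  rw [sum_ite_eq, if_pos hm]

end KernelW

theorem kernelPoincare (h : Poincare) : KernelPoincare := by
  intro n hn d f
  classical
  have hC : (0 : ℝ) < (n.choose 4 : ℝ) := by exact_mod_cast KernelW.choose_pos hn
  obtain ⟨-, hsym, hrow, -, hout⟩ := kernelFacts n hn
  set Ω := realizations d with hΩ
  set PE : Finset (Edge n) → ℝ := fun G =>
    ∑ S ∈ (univ : Finset (Fin n)).powersetCard 4, ∑ F ∈ pmSet S, ∑ F' ∈ (pmSet S).erase F,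
      (f G - f (switchResult G F F')) ^ 2 with hPE
  -- row sums on `Ω`
  have hrowΩ : ∀ x ∈ Ω, ∑ y ∈ Ω, kernel n x y = 1 := by
    intro x hx
    rw [← hrow x]
    apply sum_subset (subset_univ _)
    intro y _ hy
    exact hout d x hx y hy
  -- Dirichlet form in terms of proposals
  have hD : (12 * (n.choose 4 : ℝ)) * ∑ G ∈ Ω, f G * (f G - ∑ G' ∈ Ω, kernel n G G' * f G')
      = (1 / 2 : ℝ) * ∑ G ∈ Ω, PE G := by
    rw [KernelW.dirichlet Ω (kernel n) hsym hrowΩ f, ← mul_assoc, mul_comm _ (1 / 2 : ℝ), mul_assoc,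
      mul_sum]
    congr 1
    refine sum_congr rfl fun x hx => ?_
    rw [hPE]
    simp only
    rw [← KernelW.sum_proposalCount_mul hx (fun y => (f x - f y) ^ 2), mul_sum]
    refine sum_congr rfl fun y _ => ?_
    unfold kernel
    by_cases hxy : x = y
    · subst hxy
      simp
    · rw [if_neg hxy]
      field_simp
      ring
  -- transfer of `Poincare`
  have hP := h d (fun y => f (KernelW.ofGr y))
  have hVar : ∑ G ∈ Ω, (f G - avg Ω f) ^ 2
      = ∑ x ∈ Om d, ((fun y => f (KernelW.ofGr y)) x - avg (Om d) (fun y => f (KernelW.ofGr y))) ^ 2 := by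
    have havg : avg Ω f = avg (Om d) (fun y => f (KernelW.ofGr y)) := by
      unfold avg
      rw [hΩ, KernelW.sum_realizations, KernelW.card_realizations]
    rw [havg, hΩ, KernelW.sum_realizations]
  have hE : swE d (fun y => f (KernelW.ofGr y)) ≤ 4 * ∑ G ∈ Ω, PE G := by
    rw [hΩ, KernelW.sum_realizations, mul_sum]
    unfold swE swE₂
    -- bring the `x` sum outside
    have : ∑ a, ∑ b, ∑ x ∈ Om d, ∑ c, ∑ e, swTerm (fun y => f (KernelW.ofGr y)) x a b c e
        = ∑ x ∈ Om d, ∑ a, ∑ b, ∑ c, ∑ e, swTerm (fun y => f (KernelW.ofGr y)) x a b c e := by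
      calc ∑ a, ∑ b, ∑ x ∈ Om d, ∑ c, ∑ e, swTerm (fun y => f (KernelW.ofGr y)) x a b c e
          = ∑ a, ∑ x ∈ Om d, ∑ b, ∑ c, ∑ e, swTerm (fun y => f (KernelW.ofGr y)) x a b c e :=
            sum_congr rfl fun a _ => sum_comm
        _ = _ := sum_comm
    rw [this]
    exact sum_le_sum fun x _ => KernelW.labelled_le f x
  rw [hD, hVar]
  linarith

end Crest.Agent.S0453Lib
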