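/-
W10: Bochner assembly. `Poincare` from the step statements.
-/
import Crest.Agent.S0453Lib.Spec

set_option autoImplicit false
set_option linter.unusedSectionVars false
set_option linter.unusedVariables false
set_option linter.unusedSimpArgs false
open Finset

namespace Crest.Agent.S0453Lib

section
variable {V : Type} [Fintype V] [DecidableEq V]

theorem keyP_symm' (a b : V) : keyP (V := V) a b = keyP b a := by
  funext x u v
  unfold keyP
  have h : ((u = a ∨ u = b ∨ v = a ∨ v = b) ∧ ¬((u = a ∧ v = b) ∨ (u = b ∧ v = a)))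
      ↔ ((u = b ∨ u = a ∨ v = b ∨ v = a) ∧ ¬((u = b ∧ v = a) ∨ (u = a ∧ v = b))) := by tauto
  simp only [h]

theorem DD_symm (d : V → ℕ) (f : Gr V → ℝ) (a b : V) (x : Gr V) : DD d f a b x = DD d f b a x := by
  unfold DD
  rw [keyP_symm' a b]

/-- inner product of two deviations -/
noncomputable def ip (d : V → ℕ) (f : Gr V → ℝ) (a b c e : V) : ℝ :=
  ∑ x ∈ Om d, DD d f a b x * DD d f c e x

theorem ip_symm₁ (d : V → ℕ) (f : Gr V → ℝ) (a b c e : V) : ip d f a b c e = ip d f b a c e := by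
  unfold ip; exact sum_congr rfl fun x _ => by rw [DD_symm d f a b x]

theorem ip_symm₂ (d : V → ℕ) (f : Gr V → ℝ) (a b c e : V) : ip d f a b c e = ip d f a b e c := by
  unfold ip; exact sum_congr rfl fun x _ => by rw [DD_symm d f c e x]

theorem ip_comm' (d : V → ℕ) (f : Gr V → ℝ) (a b c e : V) : ip d f a b c e = ip d f c e a b := by
  unfold ip; exact sum_congr rfl fun x _ => mul_comm _ _

theorem sum_split {a b : V} (hab : a ≠ b) (G : V → ℝ) :
    ∑ c, G c = G a + G b + ∑ c, if c ≠ a ∧ c ≠ b then G c else 0 := by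
  have h : ∀ c, G c = (if c = a then G c else 0) + (if c = b then G c else 0)
      + (if c ≠ a ∧ c ≠ b then G c else 0) := by
    intro c
    by_cases h1 : c = a
    · subst h1; simp [hab]
    · by_cases h2 : c = b
      · subst h2; simp [h1]
      · simp [h1, h2]
  calc ∑ c, G c = ∑ c, ((if c = a then G c else 0) + (if c = b then G c else 0)
      + (if c ≠ a ∧ c ≠ b then G c else 0)) := sum_congr rfl fun c _ => h c
    _ = _ := by
      rw [sum_add_distrib, sum_add_distrib]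
      simp

/-- Expansion of the inner sum for fixed `a ≠ b`. -/
theorem expand_inner (d : V → ℕ) (f : Gr V → ℝ) {a b : V} (hab : a ≠ b) :
    ∑ c, ∑ e, (if c ≠ e then ip d f a b c e else 0)
      = 2 * ip d f a b a b
        + 2 * ∑ z, (if z ≠ a ∧ z ≠ b then ip d f a b a z + ip d f a b b z else 0)
        + ∑ c, ∑ e, (if c ≠ a ∧ c ≠ b ∧ e ≠ a ∧ e ≠ b ∧ c ≠ e then ip d f a b c e else 0) := by
  set F : V → V → ℝ := fun c e => if c ≠ e then ip d f a b c e else 0 with hF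
  have h1 : ∀ c, ∑ e, F c e = F c a + F c b + ∑ e, if e ≠ a ∧ e ≠ b then F c e else 0 :=
    fun c => sum_split hab (F c)
  set R : V → ℝ := fun c => ∑ e, if e ≠ a ∧ e ≠ b then F c e else 0 with hR
  have h2 : ∑ c, ∑ e, F c e = ∑ c, F c a + ∑ c, F c b + ∑ c, R c := by
    rw [← sum_add_distrib, ← sum_add_distrib]
    exact sum_congr rfl fun c _ => h1 c
  rw [h2, sum_split hab (fun c => F c a), sum_split hab (fun c => F c b), sum_split hab R]
  have e1 : F a a = 0 := by simp [hF]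
  have e2 : F b b = 0 := by simp [hF]
  have e3 : F b a = ip d f a b a b := by
    simp only [hF, if_pos hab.symm]
    exact ip_symm₂ d f a b b a
  have e4 : F a b = ip d f a b a b := by simp only [hF, if_pos hab]
  have e5 : ∑ c, (if c ≠ a ∧ c ≠ b then F c a else 0)
      = ∑ z, if z ≠ a ∧ z ≠ b then ip d f a b a z else 0 := by
    refine sum_congr rfl fun c _ => ?_
    by_cases h : c ≠ a ∧ c ≠ b
    · simp only [h, hF, if_true, ne_eq, not_false_eq_true, and_self]
      exact ip_symm₂ d f a b c a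
    · simp only [h, if_false]
  have e6 : ∑ c, (if c ≠ a ∧ c ≠ b then F c b else 0)
      = ∑ z, if z ≠ a ∧ z ≠ b then ip d f a b b z else 0 := by
    refine sum_congr rfl fun c _ => ?_
    by_cases h : c ≠ a ∧ c ≠ b
    · simp only [h, hF, if_true, ne_eq, not_false_eq_true, and_self]
      exact ip_symm₂ d f a b c b
    · simp only [h, if_false]
  have e7 : R a = ∑ z, if z ≠ a ∧ z ≠ b then ip d f a b a z else 0 := by
    simp only [hR, hF]
    refine sum_congr rfl fun e _ => ?_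
    by_cases h : e ≠ a ∧ e ≠ b
    · simp only [h, if_true, ne_eq, not_false_eq_true, and_self]
      rw [if_pos h.1.symm]
    · simp only [h, if_false]
  have e8 : R b = ∑ z, if z ≠ a ∧ z ≠ b then ip d f a b b z else 0 := by
    simp only [hR, hF]
    refine sum_congr rfl fun e _ => ?_
    by_cases h : e ≠ a ∧ e ≠ b
    · simp only [h, if_true, ne_eq, not_false_eq_true, and_self]
      rw [if_pos h.2.symm]
    · simp only [h, if_false]
  have e9 : ∑ c, (if c ≠ a ∧ c ≠ b then R c else 0)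
      = ∑ c, ∑ e, (if c ≠ a ∧ c ≠ b ∧ e ≠ a ∧ e ≠ b ∧ c ≠ e then ip d f a b c e else 0) := by
    refine sum_congr rfl fun c _ => ?_
    by_cases h : c ≠ a ∧ c ≠ b
    · simp only [h, hR, hF, if_true, ne_eq, not_false_eq_true, and_self, true_and]
      refine sum_congr rfl fun e _ => ?_
      by_cases h' : e ≠ a ∧ e ≠ b
      · simp only [ne_eq] at h'
        by_cases h'' : c = e <;> simp [h', h'']
      · by_cases h1 : e = a <;> by_cases h2 : e = b <;> simp_all
    · simp only [h, if_false]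
      refine (sum_eq_zero fun e _ => ?_).symm
      rw [if_neg]
      tauto
  rw [e1, e2, e3, e4, e5, e6, e7, e8, e9]
  have e10 : ∑ z, (if z ≠ a ∧ z ≠ b then ip d f a b a z + ip d f a b b z else 0)
      = (∑ z, if z ≠ a ∧ z ≠ b then ip d f a b a z else 0)
        + ∑ z, if z ≠ a ∧ z ≠ b then ip d f a b b z else 0 := by
    rw [← sum_add_distrib]
    refine sum_congr rfl fun z _ => ?_
    by_cases h : z ≠ a ∧ z ≠ b <;> simp [h]
  rw [e10]
  ring

theorem sum3_rot (g : V → V → V → ℝ) :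
    ∑ a, ∑ b, ∑ c, g a b c = ∑ c, ∑ a, ∑ b, g a b c := by
  calc ∑ a, ∑ b, ∑ c, g a b c = ∑ a, ∑ c, ∑ b, g a b c :=
        sum_congr rfl fun a _ => sum_comm
    _ = ∑ c, ∑ a, ∑ b, g a b c := sum_comm

theorem sum4_swap (g : V → V → V → V → ℝ) :
    ∑ a, ∑ b, ∑ c, ∑ e, g a b c e = ∑ c, ∑ e, ∑ a, ∑ b, g a b c e := by
  calc ∑ a, ∑ b, ∑ c, ∑ e, g a b c e = ∑ a, ∑ c, ∑ b, ∑ e, g a b c e :=
        sum_congr rfl fun a _ => sum_comm
    _ = ∑ a, ∑ c, ∑ e, ∑ b, g a b c e :=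
        sum_congr rfl fun a _ => sum_congr rfl fun c _ => sum_comm
    _ = ∑ c, ∑ a, ∑ e, ∑ b, g a b c e := sum_comm
    _ = ∑ c, ∑ e, ∑ a, ∑ b, g a b c e := sum_congr rfl fun c _ => sum_comm

/-- The middle term is nonnegative. -/
theorem mid_nonneg (hT : StepTriple) (d : V → ℕ) (f : Gr V → ℝ) :
    0 ≤ ∑ a, ∑ b, (if a ≠ b then
      ∑ z, (if z ≠ a ∧ z ≠ b then ip d f a b a z + ip d f a b b z else 0) else 0) := by
  -- the triple sums
  set X1 := ∑ a, ∑ b, ∑ c, (if a ≠ b ∧ a ≠ c ∧ b ≠ c then ip d f a b a c else 0) with hX1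
  set X2 := ∑ a, ∑ b, ∑ c, (if a ≠ b ∧ a ≠ c ∧ b ≠ c then ip d f a b b c else 0) with hX2
  set X3 := ∑ a, ∑ b, ∑ c, (if a ≠ b ∧ a ≠ c ∧ b ≠ c then ip d f a c b c else 0) with hX3
  have h12 : X2 = X1 := by
    rw [hX2, hX1, sum_comm]
    refine sum_congr rfl fun a _ => sum_congr rfl fun b _ => sum_congr rfl fun c _ => ?_
    by_cases h : a ≠ b ∧ a ≠ c ∧ b ≠ c
    · have h' : b ≠ a ∧ b ≠ c ∧ a ≠ c := ⟨h.1.symm, h.2.2, h.2.1⟩
      rw [if_pos h, if_pos h']
      exact ip_symm₁ d f b a a c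
    · have h' : ¬(b ≠ a ∧ b ≠ c ∧ a ≠ c) := fun h' => h ⟨h'.1.symm, h'.2.2, h'.2.1⟩
      rw [if_neg h, if_neg h']
  have h13 : X3 = X1 := by
    rw [hX3, hX1, sum3_rot]
    refine sum_congr rfl fun a _ => sum_congr rfl fun b _ => sum_congr rfl fun c _ => ?_
    by_cases h : a ≠ b ∧ a ≠ c ∧ b ≠ c
    · have h' : b ≠ c ∧ b ≠ a ∧ c ≠ a := ⟨h.2.2, h.1.symm, h.2.1.symm⟩
      rw [if_pos h, if_pos h']
      rw [ip_symm₁ d f b a c a, ip_symm₂ d f a b c a]
    · have h' : ¬(b ≠ c ∧ b ≠ a ∧ c ≠ a) := fun h' => h ⟨h'.2.1.symm, h'.2.2.symm, h'.1⟩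
      rw [if_neg h, if_neg h']
  have hnn : 0 ≤ X1 + X2 + X3 := by
    rw [hX1, hX2, hX3, ← sum_add_distrib, ← sum_add_distrib]
    refine sum_nonneg fun a _ => ?_
    rw [← sum_add_distrib, ← sum_add_distrib]
    refine sum_nonneg fun b _ => ?_
    rw [← sum_add_distrib, ← sum_add_distrib]
    refine sum_nonneg fun c _ => ?_
    by_cases h : a ≠ b ∧ a ≠ c ∧ b ≠ c
    · rw [if_pos h, if_pos h, if_pos h]
      have := hT d f a b c h.1 h.2.1 h.2.2
      have e : ∑ x ∈ Om d, (DD d f a b x * DD d f a c x + DD d f a b x * DD d f b c x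
          + DD d f a c x * DD d f b c x) = ip d f a b a c + ip d f a b b c + ip d f a c b c := by
        unfold ip
        rw [← sum_add_distrib, ← sum_add_distrib]
      rwa [e] at this
    · rw [if_neg h, if_neg h, if_neg h]; simp
  have hX : 0 ≤ X1 := by rw [h12, h13] at hnn; linarith
  have e : ∑ a, ∑ b, (if a ≠ b then
      ∑ z, (if z ≠ a ∧ z ≠ b then ip d f a b a z + ip d f a b b z else 0) else 0) = X1 + X2 := by
    rw [hX1, hX2, ← sum_add_distrib]
    refine sum_congr rfl fun a _ => ?_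
    rw [← sum_add_distrib]
    refine sum_congr rfl fun b _ => ?_
    by_cases hab : a = b
    · subst hab; simp
    · rw [if_pos hab, ← sum_add_distrib]
      refine sum_congr rfl fun z _ => ?_
      by_cases h : z ≠ a ∧ z ≠ b
      · have h' : a ≠ b ∧ a ≠ z ∧ b ≠ z := ⟨hab, h.1.symm, h.2.symm⟩
        rw [if_pos h, if_pos h', if_pos h']
      · have h' : ¬(a ≠ b ∧ a ≠ z ∧ b ≠ z) := fun h' => h ⟨h'.2.1.symm, h'.2.2.symm⟩
        rw [if_neg h, if_neg h', if_neg h']
        simp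
  rw [e, h12]
  linarith

theorem swTerm_nonneg (f : Gr V → ℝ) (x : Gr V) (a b c e : V) : 0 ≤ swTerm f x a b c e := by
  unfold swTerm; split_ifs <;> positivity

theorem swTerm_eq_zero (f : Gr V → ℝ) (x : Gr V) {a b c e : V}
    (h : ¬(a ≠ b ∧ c ≠ a ∧ c ≠ b ∧ e ≠ a ∧ e ≠ b ∧ c ≠ e)) : swTerm f x a b c e = 0 := by
  unfold swTerm
  rw [if_neg]
  rintro ⟨h1, h2, h3, h4, h5, h6, -⟩
  exact h ⟨h1, h2.symm, h4.symm, h3.symm, h5.symm, h6⟩

theorem swE₂_nonneg (d : V → ℕ) (f : Gr V → ℝ) (a b : V) : 0 ≤ swE₂ d f a b :=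
  sum_nonneg fun x _ => sum_nonneg fun c _ => sum_nonneg fun e _ => swTerm_nonneg f x a b c e

theorem swE_eq (d : V → ℕ) (f : Gr V → ℝ) :
    swE d f = ∑ a, ∑ b, ∑ c, ∑ e,
      (if a ≠ b ∧ c ≠ a ∧ c ≠ b ∧ e ≠ a ∧ e ≠ b ∧ c ≠ e then
        ∑ x ∈ Om d, swTerm f x a b c e else 0) := by
  unfold swE swE₂
  refine sum_congr rfl fun a _ => sum_congr rfl fun b _ => ?_
  rw [sum_comm]
  refine sum_congr rfl fun c _ => ?_
  rw [sum_comm]
  refine sum_congr rfl fun e _ => ?_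
  by_cases h : a ≠ b ∧ c ≠ a ∧ c ≠ b ∧ e ≠ a ∧ e ≠ b ∧ c ≠ e
  · rw [if_pos h]
  · rw [if_neg h]
    exact sum_eq_zero fun x _ => swTerm_eq_zero f x h

/-- The disjoint term is nonnegative. -/
theorem dis_nonneg (hD : StepDisjoint) (hF : StepFrame) (d : V → ℕ) (f : Gr V → ℝ) :
    0 ≤ ∑ a, ∑ b, (if a ≠ b then ∑ c, ∑ e,
      (if c ≠ a ∧ c ≠ b ∧ e ≠ a ∧ e ≠ b ∧ c ≠ e then ip d f a b c e else 0) else 0) := by
  set P : V → V → V → V → Prop := fun a b c e =>
    a ≠ b ∧ c ≠ a ∧ c ≠ b ∧ e ≠ a ∧ e ≠ b ∧ c ≠ e with hP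
  have hPsymm : ∀ a b c e, P a b c e ↔ P c e a b := by
    intro a b c e
    simp only [hP]
    constructor
    · rintro ⟨h1, h2, h3, h4, h5, h6⟩
      exact ⟨h6, h2.symm, h4.symm, h3.symm, h5.symm, h1⟩
    · rintro ⟨h1, h2, h3, h4, h5, h6⟩
      exact ⟨h6, h2.symm, h4.symm, h3.symm, h5.symm, h1⟩
  classical
  set Dis := ∑ a, ∑ b, ∑ c, ∑ e, (if P a b c e then ip d f a b c e else 0) with hDis
  set Ps1 := ∑ a, ∑ b, ∑ c, ∑ e, (if P a b c e then Psi d f a b c e else 0) with hPs1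
  set Ps2 := ∑ a, ∑ b, ∑ c, ∑ e, (if P a b c e then Psi d f c e a b else 0) with hPs2
  set Sw' := ∑ a, ∑ b, ∑ c, ∑ e, (if P a b c e then ∑ x ∈ Om d, swTerm f x a b c e else 0) with hSw'
  have e0 : ∑ a, ∑ b, (if a ≠ b then ∑ c, ∑ e,
      (if c ≠ a ∧ c ≠ b ∧ e ≠ a ∧ e ≠ b ∧ c ≠ e then ip d f a b c e else 0) else 0) = Dis := by
    rw [hDis]
    refine sum_congr rfl fun a _ => sum_congr rfl fun b _ => ?_
    by_cases hab : a = b
    · subst hab
      simp [hP]
    · rw [if_pos hab]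
      refine sum_congr rfl fun c _ => sum_congr rfl fun e _ => ?_
      simp only [hP, hab, ne_eq, not_false_eq_true, true_and]
  have e1 : Ps2 = Ps1 := by
    rw [hPs2, hPs1, sum4_swap]
    refine sum_congr rfl fun a _ => sum_congr rfl fun b _ => sum_congr rfl fun c _ =>
      sum_congr rfl fun e _ => ?_
    simp only [hPsymm c e a b]
  have e2 : Sw' = swE d f := (swE_eq d f).symm
  have h1 : (1 / 2 : ℝ) * Sw' - (1 / 2 : ℝ) * (Ps1 + Ps2) ≤ Dis := by
    rw [hSw', hPs1, hPs2, hDis, mul_sum, ← sum_add_distrib, mul_sum, ← sum_sub_distrib]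
    refine sum_le_sum fun a _ => ?_
    rw [mul_sum, ← sum_add_distrib, mul_sum, ← sum_sub_distrib]
    refine sum_le_sum fun b _ => ?_
    rw [mul_sum, ← sum_add_distrib, mul_sum, ← sum_sub_distrib]
    refine sum_le_sum fun c _ => ?_
    rw [mul_sum, ← sum_add_distrib, mul_sum, ← sum_sub_distrib]
    refine sum_le_sum fun e _ => ?_
    by_cases h : P a b c e
    · rw [if_pos h, if_pos h, if_pos h, if_pos h]
      obtain ⟨h1, h2, h3, h4, h5, h6⟩ := h
      exact hD d f a b c e h1 h2.symm h4.symm h3.symm h5.symm h6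
    · rw [if_neg h, if_neg h, if_neg h, if_neg h]; simp
  have h2 : Ps1 ≤ (1 / 2 : ℝ) * swE d f := by
    rw [hPs1]
    unfold swE
    rw [mul_sum]
    refine sum_le_sum fun a _ => ?_
    rw [mul_sum]
    refine sum_le_sum fun b _ => ?_
    by_cases hab : a = b
    · subst hab
      have : ∀ c e, (if P a a c e then Psi d f a a c e else 0) = 0 := by
        intro c e
        rw [if_neg]
        simp [hP]
      simp only [this, sum_const_zero]
      have := swE₂_nonneg d f a a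
      linarith
    · have := hF d f a b hab
      calc _ = ∑ c, ∑ e, (if c ≠ a ∧ c ≠ b ∧ e ≠ a ∧ e ≠ b ∧ c ≠ e then Psi d f a b c e else 0) := by
            refine sum_congr rfl fun c _ => sum_congr rfl fun e _ => ?_
            simp only [hP, hab, ne_eq, not_false_eq_true, true_and]
        _ ≤ _ := this
  rw [e0]
  rw [e1, e2] at h1
  linarith

/-- The Bochner inequality. -/
theorem bochner (hT : StepTriple) (hD : StepDisjoint) (hF : StepFrame) (d : V → ℕ) (f : Gr V → ℝ) :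
    2 * ∑ p ∈ (univ : Finset (V × V)).filter (fun p => p.1 ≠ p.2), ∑ x ∈ Om d, DD d f p.1 p.2 x ^ 2
      ≤ ∑ x ∈ Om d,
          (∑ p ∈ (univ : Finset (V × V)).filter (fun p => p.1 ≠ p.2), DD d f p.1 p.2 x) ^ 2 := by
  set I := (univ : Finset (V × V)).filter (fun p => p.1 ≠ p.2) with hIdef
  have hI : ∀ G : V → V → ℝ, ∑ p ∈ I, G p.1 p.2 = ∑ a, ∑ b, if a ≠ b then G a b else 0 := by
    intro G
    rw [hIdef, sum_filter, ← univ_product_univ, sum_product]
  have h1 : ∑ x ∈ Om d, (∑ p ∈ I, DD d f p.1 p.2 x) ^ 2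
      = ∑ p ∈ I, ∑ q ∈ I, ip d f p.1 p.2 q.1 q.2 := by
    simp only [sq, sum_mul_sum]
    rw [sum_comm]
    refine sum_congr rfl fun p _ => ?_
    rw [sum_comm]
    rfl
  have h2 : ∑ p ∈ I, ∑ q ∈ I, ip d f p.1 p.2 q.1 q.2
      = 2 * ∑ a, ∑ b, (if a ≠ b then ip d f a b a b else 0)
        + 2 * ∑ a, ∑ b, (if a ≠ b then
            ∑ z, (if z ≠ a ∧ z ≠ b then ip d f a b a z + ip d f a b b z else 0) else 0)
        + ∑ a, ∑ b, (if a ≠ b then ∑ c, ∑ e,
            (if c ≠ a ∧ c ≠ b ∧ e ≠ a ∧ e ≠ b ∧ c ≠ e then ip d f a b c e else 0) else 0) := by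
    rw [hI (fun a b => ∑ q ∈ I, ip d f a b q.1 q.2)]
    simp only [mul_sum]
    simp only [← sum_add_distrib]
    refine sum_congr rfl fun a _ => sum_congr rfl fun b _ => ?_
    by_cases hab : a ≠ b
    · simp only [if_pos hab]
      rw [hI (fun c e => ip d f a b c e), expand_inner d f hab]
    · simp only [if_neg hab]
      simp
  have h3 : ∑ p ∈ I, ∑ x ∈ Om d, DD d f p.1 p.2 x ^ 2
      = ∑ a, ∑ b, (if a ≠ b then ip d f a b a b else 0) := by
    rw [← hI (fun a b => ip d f a b a b)]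
    refine sum_congr rfl fun p _ => ?_
    unfold ip
    exact sum_congr rfl fun x _ => sq _
  rw [h1, h2, h3]
  have h4 := mid_nonneg hT d f
  have h5 := dis_nonneg hD hF d f
  linarith

/-- **Main theorem.** -/
theorem poincare (hS : SpectralLemma) (hC : Connect) (hT : StepTriple) (hD : StepDisjoint)
    (hF : StepFrame) (hV : StepVar) : Poincare := by
  intro V _ _ d f
  set I := (univ : Finset (V × V)).filter (fun p => p.1 ≠ p.2) with hIdef
  have h1 := hS (Om d) I (fun p => keyP p.1 p.2) 2 (by norm_num)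
    (fun f => bochner hT hD hF d f)
    (fun f hf => hC d f (fun a b hab x hx =>
      hf (a, b) (by simp [hIdef, hab]) x hx)) f
  have h2 : ∑ i ∈ I, ∑ x ∈ Om d, dev (Om d) (keyP i.1 i.2) f x ^ 2 ≤ (1 / 4 : ℝ) * swE d f := by
    have : ∑ i ∈ I, ∑ x ∈ Om d, dev (Om d) (keyP i.1 i.2) f x ^ 2
        ≤ ∑ i ∈ I, (1 / 4 : ℝ) * swE₂ d f i.1 i.2 :=
      sum_le_sum fun p hp => hV d f p.1 p.2 (mem_filter.1 hp).2
    refine this.trans ?_
    rw [← mul_sum]
    refine mul_le_mul_of_nonneg_left ?_ (by norm_num)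
    unfold swE
    rw [← sum_product', univ_product_univ]
    exact sum_le_sum_of_subset_of_nonneg (filter_subset _ _)
      (fun p _ _ => swE₂_nonneg d f p.1 p.2)
  linarith

end

end Crest.Agent.S0453Lib
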