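/-
S0453 W12: from a Poincaré inequality to total-variation decay (abstract).
-/
import Crest.Agent.S0453Lib.Spec

set_option autoImplicit false
open Finset

namespace Crest.Agent.S0453Lib

namespace MarkovAux

variable {α : Type} [Fintype α] [DecidableEq α]

/-- The operator on functions induced by `K` on `Ω`. -/
noncomputable def opP (K : Matrix α α ℝ) (Ω : Finset α) (g : α → ℝ) (y : α) : ℝ :=
  ∑ z ∈ Ω, K y z * g z

lemma sum_on (K : Matrix α α ℝ) (Ω : Finset α) (hrow : ∀ x, ∑ y, K x y = 1)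
    (hsupp : ∀ x ∈ Ω, ∀ y, y ∉ Ω → K x y = 0) {x : α} (hx : x ∈ Ω) :
    ∑ y ∈ Ω, K x y = 1 := by
  rw [← hrow x]
  exact Finset.sum_subset (Finset.subset_univ _) fun y _ hy => hsupp x hx y hy

/-- Jensen for a probability weight. -/
lemma jensen_sq (Ω : Finset α) (w g : α → ℝ) (hw : ∀ z ∈ Ω, 0 ≤ w z) (h1 : ∑ z ∈ Ω, w z = 1) :
    (∑ z ∈ Ω, w z * g z) ^ 2 ≤ ∑ z ∈ Ω, w z * g z ^ 2 := by
  have e : ∀ c : ℝ, ∑ z ∈ Ω, w z * (g z - c) ^ 2 =
      ∑ z ∈ Ω, w z * g z ^ 2 - 2 * c * ∑ z ∈ Ω, w z * g z + c ^ 2 * ∑ z ∈ Ω, w z := by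
    intro c
    have : ∀ z, w z * (g z - c) ^ 2 = w z * g z ^ 2 - 2 * c * (w z * g z) + c ^ 2 * w z := by
      intro z; ring
    simp_rw [this]
    rw [Finset.sum_add_distrib, Finset.sum_sub_distrib, ← Finset.mul_sum, ← Finset.mul_sum]
  have h0 : 0 ≤ ∑ z ∈ Ω, w z * (g z - ∑ z ∈ Ω, w z * g z) ^ 2 :=
    Finset.sum_nonneg fun z hz => mul_nonneg (hw z hz) (sq_nonneg _)
  rw [e, h1] at h0
  nlinarith

lemma opP_contract (K : Matrix α α ℝ) (Ω : Finset α)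
    (hnn : ∀ x y, 0 ≤ K x y) (hsym : ∀ x y, K x y = K y x) (hrow : ∀ x, ∑ y, K x y = 1)
    (hdiag : ∀ x, 1 / 2 ≤ K x x) (hsupp : ∀ x ∈ Ω, ∀ y, y ∉ Ω → K x y = 0) (g : α → ℝ) :
    ∑ y ∈ Ω, opP K Ω g y ^ 2 ≤ ∑ y ∈ Ω, g y * opP K Ω g y := by
  -- the auxiliary stochastic matrix `K' = 2K - I`
  set K' : α → α → ℝ := fun y z => 2 * K y z - (if y = z then 1 else 0) with hK'
  have hK'nn : ∀ y z, 0 ≤ K' y z := by
    intro y z
    simp only [hK']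
    by_cases h : y = z
    · subst h; simp only [if_true]; linarith [hdiag y]
    · simp only [h, if_false]; linarith [hnn y z]
  have hdel : ∀ y ∈ Ω, ∑ z ∈ Ω, (if y = z then (1 : ℝ) else 0) = 1 := by
    intro y hy
    rw [Finset.sum_ite_eq]; simp [hy]
  have hK'row : ∀ y ∈ Ω, ∑ z ∈ Ω, K' y z = 1 := by
    intro y hy
    simp only [hK']
    rw [Finset.sum_sub_distrib, ← Finset.mul_sum, sum_on K Ω hrow hsupp hy, hdel y hy]
    norm_num
  have hK'col : ∀ z ∈ Ω, ∑ y ∈ Ω, K' y z = 1 := by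
    intro z hz
    have : ∀ y, K' y z = K' z y := by
      intro y
      simp only [hK', hsym y z, eq_comm]
    simp_rw [this]
    exact hK'row z hz
  -- pointwise Jensen
  have hpt : ∀ y ∈ Ω, (2 * opP K Ω g y - g y) ^ 2 ≤ ∑ z ∈ Ω, K' y z * g z ^ 2 := by
    intro y hy
    have e : 2 * opP K Ω g y - g y = ∑ z ∈ Ω, K' y z * g z := by
      simp only [opP, hK', sub_mul, ite_mul, one_mul, zero_mul]
      rw [Finset.sum_sub_distrib, Finset.sum_ite_eq, if_pos hy, Finset.mul_sum]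
      congr 1
      exact Finset.sum_congr rfl fun z _ => by ring
    rw [e]
    exact jensen_sq Ω (K' y) g (fun z _ => hK'nn y z) (hK'row y hy)
  have hsum : ∑ y ∈ Ω, (2 * opP K Ω g y - g y) ^ 2 ≤ ∑ z ∈ Ω, g z ^ 2 := by
    calc ∑ y ∈ Ω, (2 * opP K Ω g y - g y) ^ 2
        ≤ ∑ y ∈ Ω, ∑ z ∈ Ω, K' y z * g z ^ 2 := Finset.sum_le_sum hpt
      _ = ∑ z ∈ Ω, ∑ y ∈ Ω, K' y z * g z ^ 2 := Finset.sum_comm
      _ = ∑ z ∈ Ω, g z ^ 2 := by
          refine Finset.sum_congr rfl fun z hz => ?_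
          rw [← Finset.sum_mul, hK'col z hz, one_mul]
  have hexp : ∑ y ∈ Ω, (2 * opP K Ω g y - g y) ^ 2 =
      4 * ∑ y ∈ Ω, opP K Ω g y ^ 2 - 4 * ∑ y ∈ Ω, g y * opP K Ω g y + ∑ y ∈ Ω, g y ^ 2 := by
    rw [Finset.mul_sum, Finset.mul_sum, ← Finset.sum_sub_distrib, ← Finset.sum_add_distrib]
    exact Finset.sum_congr rfl fun y _ => by ring
  linarith

/-- One step decay of the `ℓ²` norm on mean-zero functions. -/
lemma opP_decay (K : Matrix α α ℝ) (Ω : Finset α) (Λ : ℝ) (hΛ : 1 ≤ Λ)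
    (hnn : ∀ x y, 0 ≤ K x y) (hsym : ∀ x y, K x y = K y x) (hrow : ∀ x, ∑ y, K x y = 1)
    (hdiag : ∀ x, 1 / 2 ≤ K x x) (hsupp : ∀ x ∈ Ω, ∀ y, y ∉ Ω → K x y = 0)
    (hP : ∀ f : α → ℝ, ∑ x ∈ Ω, (f x - avg Ω f) ^ 2
        ≤ Λ * ∑ x ∈ Ω, f x * (f x - ∑ y ∈ Ω, K x y * f y))
    (g : α → ℝ) (hg : ∑ y ∈ Ω, g y = 0) :
    ∑ y ∈ Ω, opP K Ω g y ^ 2 ≤ (1 - 1 / Λ) * ∑ y ∈ Ω, g y ^ 2 := by
  have hΛ0 : 0 < Λ := by linarith
  have h1 := opP_contract K Ω hnn hsym hrow hdiag hsupp g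
  have h2 := hP g
  have havg : avg Ω g = 0 := by simp [avg, hg]
  simp only [havg, sub_zero] at h2
  have e : ∑ x ∈ Ω, g x * (g x - ∑ y ∈ Ω, K x y * g y) =
      ∑ x ∈ Ω, g x ^ 2 - ∑ x ∈ Ω, g x * opP K Ω g x := by
    rw [← Finset.sum_sub_distrib]
    exact Finset.sum_congr rfl fun x _ => by simp only [opP]; ring
  rw [e] at h2
  have h3 : ∑ x ∈ Ω, g x * opP K Ω g x ≤ (1 - 1 / Λ) * ∑ y ∈ Ω, g y ^ 2 := by
    have : (∑ x ∈ Ω, g x ^ 2) / Λ ≤ ∑ x ∈ Ω, g x ^ 2 - ∑ x ∈ Ω, g x * opP K Ω g x := by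
      rw [div_le_iff₀ hΛ0]; linarith
    have e2 : (1 - 1 / Λ) * ∑ y ∈ Ω, g y ^ 2 = ∑ y ∈ Ω, g y ^ 2 - (∑ x ∈ Ω, g x ^ 2) / Λ := by
      field_simp
    rw [e2]; linarith
  linarith

/-- `opP` preserves mean zero. -/
lemma opP_mean (K : Matrix α α ℝ) (Ω : Finset α)
    (hsym : ∀ x y, K x y = K y x) (hrow : ∀ x, ∑ y, K x y = 1)
    (hsupp : ∀ x ∈ Ω, ∀ y, y ∉ Ω → K x y = 0) (g : α → ℝ) :
    ∑ y ∈ Ω, opP K Ω g y = ∑ y ∈ Ω, g y := by
  simp only [opP]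
  rw [Finset.sum_comm]
  refine Finset.sum_congr rfl fun z hz => ?_
  rw [← Finset.sum_mul]
  have : ∑ y ∈ Ω, K y z = 1 := by
    simp_rw [hsym _ z]
    exact sum_on K Ω hrow hsupp hz
  rw [this, one_mul]

lemma pow_zero_off (K : Matrix α α ℝ) (Ω : Finset α)
    (hsupp : ∀ x ∈ Ω, ∀ y, y ∉ Ω → K x y = 0) {x : α} (hx : x ∈ Ω) (t : ℕ) :
    ∀ y, y ∉ Ω → (K ^ t) x y = 0 := by
  induction t with
  | zero =>
    intro y hy
    have : x ≠ y := fun h => hy (h ▸ hx)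
    simp [Matrix.one_apply_ne this]
  | succ t ih =>
    intro y hy
    rw [pow_succ, Matrix.mul_apply]
    refine Finset.sum_eq_zero fun z _ => ?_
    by_cases hz : z ∈ Ω
    · rw [hsupp z hz y hy, mul_zero]
    · rw [ih z hz, zero_mul]

/-- The one-step recursion for the deviation from uniform. -/
lemma dev_step (K : Matrix α α ℝ) (Ω : Finset α) (hsym : ∀ x y, K x y = K y x)
    (hrow : ∀ x, ∑ y, K x y = 1) (hsupp : ∀ x ∈ Ω, ∀ y, y ∉ Ω → K x y = 0) {x : α} (hx : x ∈ Ω)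
    (t : ℕ) (c : ℝ) {y : α} (hy : y ∈ Ω) :
    (K ^ (t + 1)) x y - c = opP K Ω (fun z => (K ^ t) x z - c) y := by
  simp only [opP]
  rw [pow_succ, Matrix.mul_apply]
  have h1 : ∑ z, (K ^ t) x z * K z y = ∑ z ∈ Ω, K y z * (K ^ t) x z := by
    rw [← Finset.sum_subset (Finset.subset_univ Ω)]
    · exact Finset.sum_congr rfl fun z _ => by rw [hsym z y]; ring
    · intro z _ hz
      rw [pow_zero_off K Ω hsupp hx t z hz, zero_mul]
  rw [h1]
  simp_rw [mul_sub]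
  rw [Finset.sum_sub_distrib, ← Finset.sum_mul, sum_on K Ω hrow hsupp hy, one_mul]

end MarkovAux

open MarkovAux in
theorem markovTV : MarkovTV := by
  intro α _ _ K Ω Λ hΩ hΛ hnn hsym hrow hdiag hsupp hP t x hx
  have hNpos : (0 : ℝ) < (Ω.card : ℝ) := by exact_mod_cast hΩ.card_pos
  set c : ℝ := 1 / (Ω.card : ℝ) with hc
  set h : ℕ → α → ℝ := fun t z => (K ^ t) x z - c with hh
  have hΛ0 : 0 < Λ := by linarith
  have hq : 0 ≤ 1 - 1 / Λ := by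
    rw [sub_nonneg, div_le_one hΛ0]; exact hΛ
  have hcard : (Ω.card : ℝ) * c = 1 := by rw [hc]; field_simp
  -- mean zero
  have hmean : ∀ t, ∑ y ∈ Ω, h t y = 0 := by
    intro t
    induction t with
    | zero =>
      simp only [hh, pow_zero, Finset.sum_sub_distrib, Finset.sum_const, nsmul_eq_mul, hcard]
      have : ∑ y ∈ Ω, (1 : Matrix α α ℝ) x y = 1 := by
        simp only [Matrix.one_apply]
        rw [Finset.sum_ite_eq, if_pos hx]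
      rw [this]; ring
    | succ t ih =>
      have : ∑ y ∈ Ω, h (t + 1) y = ∑ y ∈ Ω, opP K Ω (h t) y :=
        Finset.sum_congr rfl fun y hy => dev_step K Ω hsym hrow hsupp hx t c hy
      rw [this, opP_mean K Ω hsym hrow hsupp, ih]
  -- the l² bound
  have hl2 : ∀ t, ∑ y ∈ Ω, h t y ^ 2 ≤ (1 - 1 / Λ) ^ t := by
    intro t
    induction t with
    | zero =>
      simp only [hh, pow_zero]
      have e : ∑ y ∈ Ω, ((1 : Matrix α α ℝ) x y - c) ^ 2 = 1 - c := by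
        have : ∀ y, ((1 : Matrix α α ℝ) x y - c) ^ 2 =
            (if x = y then (1 : ℝ) else 0) * (1 - 2 * c) + c ^ 2 := by
          intro y
          by_cases hxy : x = y
          · subst hxy; simp; ring
          · simp [Matrix.one_apply_ne hxy, hxy]
        simp_rw [this]
        rw [Finset.sum_add_distrib, ← Finset.sum_mul, Finset.sum_ite_eq, if_pos hx,
          Finset.sum_const, nsmul_eq_mul]
        have : (Ω.card : ℝ) * c ^ 2 = c := by rw [sq, ← mul_assoc, hcard, one_mul]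
        rw [this]; ring
      rw [e]
      have : 0 ≤ c := by rw [hc]; positivity
      linarith
    | succ t ih =>
      have e : ∑ y ∈ Ω, h (t + 1) y ^ 2 = ∑ y ∈ Ω, opP K Ω (h t) y ^ 2 :=
        Finset.sum_congr rfl fun y hy => by
          rw [show h (t + 1) y = opP K Ω (h t) y from dev_step K Ω hsym hrow hsupp hx t c hy]
      rw [e, pow_succ]
      have := opP_decay K Ω Λ hΛ hnn hsym hrow hdiag hsupp hP (h t) (hmean t)
      calc ∑ y ∈ Ω, opP K Ω (h t) y ^ 2 ≤ (1 - 1 / Λ) * ∑ y ∈ Ω, h t y ^ 2 := this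
        _ ≤ (1 - 1 / Λ) * (1 - 1 / Λ) ^ t := mul_le_mul_of_nonneg_left ih hq
        _ = (1 - 1 / Λ) ^ t * (1 - 1 / Λ) := by ring
  -- total variation
  unfold Crest.SwitchChain.tvDist
  have hsplit : ∑ a, |(K ^ t) x a - Crest.SwitchChain.unifOn Ω a| = ∑ a ∈ Ω, |h t a| := by
    rw [← Finset.sum_subset (Finset.subset_univ Ω)]
    · refine Finset.sum_congr rfl fun a ha => ?_
      simp only [Crest.SwitchChain.unifOn, if_pos ha, hh, hc]
    · intro a _ ha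
      simp only [Crest.SwitchChain.unifOn, if_neg ha]
      rw [pow_zero_off K Ω hsupp hx t a ha]; simp
  rw [hsplit]
  have hCS : (∑ a ∈ Ω, |h t a|) ^ 2 ≤ (Ω.card : ℝ) * ∑ a ∈ Ω, |h t a| ^ 2 :=
    sq_sum_le_card_mul_sum_sq
  simp_rw [sq_abs] at hCS
  have hle : (∑ a ∈ Ω, |h t a|) ≤ Real.sqrt ((Ω.card : ℝ) * (1 - 1 / Λ) ^ t) := by
    apply Real.le_sqrt_of_sq_le
    calc (∑ a ∈ Ω, |h t a|) ^ 2 ≤ (Ω.card : ℝ) * ∑ a ∈ Ω, h t a ^ 2 := hCS
      _ ≤ (Ω.card : ℝ) * (1 - 1 / Λ) ^ t := mul_le_mul_of_nonneg_left (hl2 t) hNpos.le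
  linarith

end Crest.Agent.S0453Lib
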