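/-
Slice (Johnson) generic lemmas and the coupling lemma for the 3-row proof.
-/
import Crest.Agent.S0453Lib.Spec

set_option autoImplicit false
open Finset

namespace Crest.Agent.S0453Lib

section Slice
variable {ι : Type*} [DecidableEq ι]

/-- The basic bijection between "(X, w ∉ X)" and "(X', w ∈ X')". -/
theorem sum_slice_insert (G : Finset ι) (κ : ℕ) (F : Finset ι → ι → ℝ) :
    ∑ X ∈ G.powersetCard κ, ∑ w ∈ G \ X, F X w
      = ∑ X' ∈ G.powersetCard (κ + 1), ∑ w ∈ X', F (X'.erase w) w := by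
  rw [Finset.sum_sigma', Finset.sum_sigma']
  refine Finset.sum_bij' (fun p _ => ⟨insert p.2 p.1, p.2⟩) (fun p _ => ⟨p.1.erase p.2, p.2⟩)
    ?_ ?_ ?_ ?_ ?_
  · rintro ⟨X, w⟩ h
    simp only [mem_sigma, mem_powersetCard, mem_sdiff] at h ⊢
    obtain ⟨⟨h1, h2⟩, h3, h4⟩ := h
    refine ⟨⟨?_, ?_⟩, mem_insert_self _ _⟩
    · exact insert_subset h3 h1
    · rw [card_insert_of_notMem h4, h2]
  · rintro ⟨X', w⟩ h
    simp only [mem_sigma, mem_powersetCard, mem_sdiff] at h ⊢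
    obtain ⟨⟨h1, h2⟩, h3⟩ := h
    refine ⟨⟨(erase_subset _ _).trans h1, ?_⟩, h1 h3, notMem_erase _ _⟩
    rw [card_erase_of_mem h3, h2]; rfl
  · rintro ⟨X, w⟩ h
    simp only [mem_sigma, mem_powersetCard, mem_sdiff] at h
    simp [erase_insert h.2.2]
  · rintro ⟨X', w⟩ h
    simp only [mem_sigma, mem_powersetCard] at h
    simp [insert_erase h.2]
  · rintro ⟨X, w⟩ h
    simp only [mem_sigma, mem_powersetCard, mem_sdiff] at h
    simp [erase_insert h.2.2]

/-- decomposition of a slice along a new element -/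
theorem sum_slice_new {z : ι} {s : Finset ι} (hz : z ∉ s) (n : ℕ) (g : Finset ι → ℝ) :
    ∑ X ∈ (insert z s).powersetCard (n + 1), g X
      = ∑ X ∈ s.powersetCard (n + 1), g X + ∑ X ∈ s.powersetCard n, g (insert z X) := by
  rw [powersetCard_succ_insert hz, sum_union, sum_image]
  · intro X hX Y hY h
    have hX' := (mem_powersetCard.1 (mem_coe.1 hX)).1
    have hY' := (mem_powersetCard.1 (mem_coe.1 hY)).1
    have := congrArg (fun A => A.erase z) h
    simpa [erase_insert (fun h => hz (hX' h)), erase_insert (fun h => hz (hY' h))] using this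
  · rw [disjoint_left]
    intro X hX hX'
    obtain ⟨Y, _, rfl⟩ := mem_image.1 hX'
    exact hz ((mem_powersetCard.1 hX).1 (mem_insert_self _ _))

/-- The full decomposition of the slice on `G + x + y`. -/
theorem sum_slice_decomp (G : Finset ι) (x y : ι) (hx : x ∉ G) (hy : y ∉ G) (hxy : x ≠ y)
    (κ : ℕ) (hκ : κ ≤ G.card) (ψ' : Finset ι → ℝ) :
    ∑ X' ∈ (insert x (insert y G)).powersetCard (κ + 1), ψ' X'
      = ∑ X ∈ G.powersetCard κ, ψ' (insert x X) + ∑ X ∈ G.powersetCard κ, ψ' (insert y X)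
        + (1 / ((κ : ℝ) + 1)) * ∑ X ∈ G.powersetCard κ, ∑ w ∈ G \ X, ψ' (insert w X)
        + (1 / ((G.card : ℝ) - κ + 1)) *
            ∑ X ∈ G.powersetCard κ, ∑ w ∈ X, ψ' (insert x (insert y (X.erase w))) := by
  have hx' : x ∉ insert y G := by simp [hxy, hx]
  have hpos1 : (0 : ℝ) < (κ : ℝ) + 1 := by positivity
  have hκ' : (κ : ℝ) ≤ G.card := by exact_mod_cast hκ
  have hpos2 : (0 : ℝ) < (G.card : ℝ) - κ + 1 := by linarith
  -- third term
  have h3 : ∑ X ∈ G.powersetCard κ, ∑ w ∈ G \ X, ψ' (insert w X)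
      = ((κ : ℝ) + 1) * ∑ X' ∈ G.powersetCard (κ + 1), ψ' X' := by
    rw [sum_slice_insert G κ (fun X w => ψ' (insert w X)), mul_sum]
    refine sum_congr rfl fun X' hX' => ?_
    have hc := (mem_powersetCard.1 hX').2
    rw [sum_congr rfl (fun w hw => by rw [insert_erase hw]), sum_const, hc]
    simp [nsmul_eq_mul]
  rw [sum_slice_new hx', h3]
  rw [show ∑ X' ∈ (insert y G).powersetCard (κ + 1), ψ' X'
      = ∑ X' ∈ G.powersetCard (κ + 1), ψ' X' + ∑ X ∈ G.powersetCard κ, ψ' (insert y X) from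
        sum_slice_new hy κ ψ']
  rcases κ with _ | κ₀
  · simp only [powersetCard_zero, sum_singleton, Nat.cast_zero, zero_add, erase_empty, sum_empty]
    ring
  · rw [sum_slice_new hy κ₀ (fun X => ψ' (insert x X))]
    have h4 : ∑ X ∈ G.powersetCard (κ₀ + 1), ∑ w ∈ X, ψ' (insert x (insert y (X.erase w)))
        = ((G.card : ℝ) - (κ₀ + 1 : ℕ) + 1) *
            ∑ X ∈ G.powersetCard κ₀, ψ' (insert x (insert y X)) := by
      have := sum_slice_insert G κ₀ (fun X _ => ψ' (insert x (insert y X)))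
      rw [← this, mul_sum]
      refine sum_congr rfl fun X hX => ?_
      have hc := (mem_powersetCard.1 hX)
      rw [sum_const, card_sdiff_of_subset hc.1, hc.2, nsmul_eq_mul]
      have hle : κ₀ ≤ G.card := hc.2 ▸ card_le_card hc.1
      rw [Nat.cast_sub hle]
      push_cast
      ring
    rw [h4]
    field_simp
    ring

end Slice

/-- The coupling lemma (one direction). -/
theorem coupling_le {ι : Type*} [DecidableEq ι] (G : Finset ι) (x y : ι) (hx : x ∉ G) (hy : y ∉ G)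
    (hxy : x ≠ y) (κ : ℕ) (hκ : κ ≤ G.card) (ψ ψ' : Finset ι → ℝ) (ℓ : ℝ)
    (E1 : ∀ X ∈ G.powersetCard κ, ψ' (insert x X) ≤ ψ X + ℓ)
    (E2 : ∀ X ∈ G.powersetCard κ, ψ' (insert y X) ≤ ψ X + ℓ)
    (E3 : ∀ X ∈ G.powersetCard κ, ∀ w ∈ G \ X, ψ' (insert w X) ≤ ψ X + ℓ)
    (E4 : ∀ X ∈ G.powersetCard κ, ∀ w ∈ X, ψ' (insert x (insert y (X.erase w))) ≤ ψ X + ℓ) :
    avg ((insert x (insert y G)).powersetCard (κ + 1)) ψ'
      ≤ avg (G.powersetCard κ) ψ + ℓ := by
  set N : ℝ := ((G.powersetCard κ).card : ℝ) with hN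
  have hNpos : 0 < N := by
    rw [hN, card_powersetCard]
    exact_mod_cast Nat.choose_pos hκ
  have hpos1 : (0 : ℝ) < (κ : ℝ) + 1 := by positivity
  have hκ' : (κ : ℝ) ≤ G.card := by exact_mod_cast hκ
  have hpos2 : (0 : ℝ) < (G.card : ℝ) - κ + 1 := by linarith
  set Θ : ℝ := 2 + ((G.card : ℝ) - κ) / ((κ : ℝ) + 1) + (κ : ℝ) / ((G.card : ℝ) - κ + 1) with hΘ
  have hΘpos : 0 < Θ := by
    have h1 : 0 ≤ ((G.card : ℝ) - κ) / ((κ : ℝ) + 1) := div_nonneg (by linarith) hpos1.le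
    have h2 : 0 ≤ (κ : ℝ) / ((G.card : ℝ) - κ + 1) := div_nonneg (by positivity) hpos2.le
    rw [hΘ]; linarith
  -- inner counts on the slice
  have hc3 : ∀ X ∈ G.powersetCard κ, ((G \ X).card : ℝ) = (G.card : ℝ) - κ := by
    intro X hX
    have hc := mem_powersetCard.1 hX
    rw [card_sdiff_of_subset hc.1, hc.2, Nat.cast_sub hκ]
  have hc4 : ∀ X ∈ G.powersetCard κ, (X.card : ℝ) = κ := by
    intro X hX
    rw [(mem_powersetCard.1 hX).2]
  -- card of the big slice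
  have hcard : (((insert x (insert y G)).powersetCard (κ + 1)).card : ℝ) = Θ * N := by
    have := sum_slice_decomp G x y hx hy hxy κ hκ (fun _ => (1 : ℝ))
    simp only [sum_const, nsmul_eq_mul, mul_one] at this
    rw [this]
    have e3 : ∑ X ∈ G.powersetCard κ, ((G \ X).card : ℝ) = N * ((G.card : ℝ) - κ) := by
      rw [sum_congr rfl hc3, sum_const, nsmul_eq_mul]
    have e4 : ∑ X ∈ G.powersetCard κ, (X.card : ℝ) = N * κ := by
      rw [sum_congr rfl hc4, sum_const, nsmul_eq_mul]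
    rw [e3, e4, hΘ]
    field_simp
    ring
  have hBig : ∑ X' ∈ (insert x (insert y G)).powersetCard (κ + 1), ψ' X'
      ≤ Θ * ∑ X ∈ G.powersetCard κ, (ψ X + ℓ) := by
    rw [sum_slice_decomp G x y hx hy hxy κ hκ ψ']
    set B := ∑ X ∈ G.powersetCard κ, (ψ X + ℓ) with hB
    have h1 : ∑ X ∈ G.powersetCard κ, ψ' (insert x X) ≤ B := sum_le_sum E1
    have h2 : ∑ X ∈ G.powersetCard κ, ψ' (insert y X) ≤ B := sum_le_sum E2
    have h3 : ∑ X ∈ G.powersetCard κ, ∑ w ∈ G \ X, ψ' (insert w X)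
        ≤ ((G.card : ℝ) - κ) * B := by
      rw [hB, mul_sum]
      refine sum_le_sum fun X hX => ?_
      calc ∑ w ∈ G \ X, ψ' (insert w X) ≤ ∑ w ∈ G \ X, (ψ X + ℓ) := sum_le_sum (E3 X hX)
        _ = ((G.card : ℝ) - κ) * (ψ X + ℓ) := by
          rw [sum_const, nsmul_eq_mul, hc3 X hX]
    have h4 : ∑ X ∈ G.powersetCard κ, ∑ w ∈ X, ψ' (insert x (insert y (X.erase w)))
        ≤ (κ : ℝ) * B := by
      rw [hB, mul_sum]
      refine sum_le_sum fun X hX => ?_
      calc ∑ w ∈ X, ψ' (insert x (insert y (X.erase w))) ≤ ∑ w ∈ X, (ψ X + ℓ) :=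
            sum_le_sum (E4 X hX)
        _ = (κ : ℝ) * (ψ X + ℓ) := by
          rw [sum_const, nsmul_eq_mul, hc4 X hX]
    have h3' := mul_le_mul_of_nonneg_left h3 (by positivity : 0 ≤ 1 / ((κ : ℝ) + 1))
    have h4' := mul_le_mul_of_nonneg_left h4
      (by positivity : 0 ≤ 1 / ((G.card : ℝ) - κ + 1))
    have e : Θ * B = B + B + 1 / ((κ : ℝ) + 1) * (((G.card : ℝ) - κ) * B)
        + 1 / ((G.card : ℝ) - κ + 1) * ((κ : ℝ) * B) := by
      rw [hΘ]; field_simp; ring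
    rw [e]
    linarith
  unfold avg
  rw [hcard, ← hN]
  rw [div_le_iff₀ (mul_pos hΘpos hNpos)]
  calc _ ≤ Θ * ∑ X ∈ G.powersetCard κ, (ψ X + ℓ) := hBig
    _ = _ := ?_
  rw [sum_add_distrib, sum_const, nsmul_eq_mul, ← hN]
  field_simp

/-- The coupling lemma with absolute values. -/
theorem coupling_abs {ι : Type*} [DecidableEq ι] (G : Finset ι) (x y : ι) (hx : x ∉ G) (hy : y ∉ G)
    (hxy : x ≠ y) (κ : ℕ) (hκ : κ ≤ G.card) (ψ ψ' : Finset ι → ℝ) (ℓ : ℝ)
    (E1 : ∀ X ∈ G.powersetCard κ, |ψ' (insert x X) - ψ X| ≤ ℓ)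
    (E2 : ∀ X ∈ G.powersetCard κ, |ψ' (insert y X) - ψ X| ≤ ℓ)
    (E3 : ∀ X ∈ G.powersetCard κ, ∀ w ∈ G \ X, |ψ' (insert w X) - ψ X| ≤ ℓ)
    (E4 : ∀ X ∈ G.powersetCard κ, ∀ w ∈ X, |ψ' (insert x (insert y (X.erase w))) - ψ X| ≤ ℓ) :
    |avg ((insert x (insert y G)).powersetCard (κ + 1)) ψ' - avg (G.powersetCard κ) ψ| ≤ ℓ := by
  rw [abs_le]
  constructor
  · have := coupling_le G x y hx hy hxy κ hκ (fun X => - ψ X) (fun X => - ψ' X) ℓ
      (fun X hX => by have := (abs_le.1 (E1 X hX)).1; linarith)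
      (fun X hX => by have := (abs_le.1 (E2 X hX)).1; linarith)
      (fun X hX w hw => by have := (abs_le.1 (E3 X hX w hw)).1; linarith)
      (fun X hX w hw => by have := (abs_le.1 (E4 X hX w hw)).1; linarith)
    have e1 : avg ((insert x (insert y G)).powersetCard (κ + 1)) (fun X => - ψ' X)
        = - avg ((insert x (insert y G)).powersetCard (κ + 1)) ψ' := by
      unfold avg; rw [sum_neg_distrib, neg_div]
    have e2 : avg (G.powersetCard κ) (fun X => - ψ X) = - avg (G.powersetCard κ) ψ := by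
      unfold avg; rw [sum_neg_distrib, neg_div]
    rw [e1, e2] at this
    linarith
  · have := coupling_le G x y hx hy hxy κ hκ ψ ψ' ℓ
      (fun X hX => by have := (abs_le.1 (E1 X hX)).2; linarith)
      (fun X hX => by have := (abs_le.1 (E2 X hX)).2; linarith)
      (fun X hX w hw => by have := (abs_le.1 (E3 X hX w hw)).2; linarith)
      (fun X hX w hw => by have := (abs_le.1 (E4 X hX w hw)).2; linarith)
    linarith

end Crest.Agent.S0453Lib
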