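/-
The 3-row lemma, part 1: tables, symmetric swaps, the eigen-equations, the same-`r` invariance.
-/
import Crest.Agent.S0453Lib.Slice

set_option autoImplicit false
open Finset

namespace Crest.Agent.S0453Lib

/-- A contraction argument on a finite set. -/
theorem contraction {β : Type*} (B : Finset β) (D : β → ℝ) (ν : ℝ) (hν : 1 < ν)
    (h : ∀ Δ : ℝ, (∀ b ∈ B, |D b| ≤ Δ) → ∀ b ∈ B, ν * |D b| ≤ Δ) :
    ∀ b ∈ B, D b = 0 := by
  intro b hb
  obtain ⟨b₀, hb₀, hmax⟩ := Finset.exists_max_image B (fun b => |D b|) ⟨b, hb⟩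
  have h1 := h |D b₀| hmax b₀ hb₀
  have h2 : |D b₀| ≤ 0 := by
    nlinarith [abs_nonneg (D b₀)]
  have h3 := hmax b hb
  exact abs_eq_zero.1 (le_antisymm (h3.trans h2) (abs_nonneg _))

theorem sum_fin3 {M : Type*} [AddCommMonoid M] {i j l : Fin 3} (hij : i ≠ j) (hil : i ≠ l)
    (hjl : j ≠ l) (F : Fin 3 → M) : ∑ m, F m = F i + F j + F l := by
  have : (univ : Finset (Fin 3)) = {i, j, l} := by
    revert i j l; decide
  rw [this, sum_insert (by simp [hij, hil]), sum_insert (by simp [hjl]), sum_singleton, add_assoc]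

theorem fin3_cases {i j l : Fin 3} (hij : i ≠ j) (hil : i ≠ l) (hjl : j ≠ l) (m : Fin 3) :
    m = i ∨ m = j ∨ m = l := by
  revert i j l m; decide

theorem exists_others (i : Fin 3) : ∃ j l : Fin 3, i ≠ j ∧ i ≠ l ∧ j ≠ l := by
  revert i; decide

set_option linter.unusedSectionVars false

section Tab
variable {ι : Type} [Fintype ι] [DecidableEq ι] {r : ι → ℕ} {k : Fin 3 → ℕ}

/-- 0/1 indicator in `ℕ` -/
def bi (p : Prop) [Decidable p] : ℕ := if p then 1 else 0

theorem col_eq {i j l : Fin 3} (hij : i ≠ j) (hil : i ≠ l) (hjl : j ≠ l) (S : Fin 3 → Finset ι)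
    (z : ι) : (univ.filter fun m => z ∈ S m).card = bi (z ∈ S i) + bi (z ∈ S j) + bi (z ∈ S l) := by
  rw [card_filter, sum_fin3 hij hil hjl]; rfl

theorem mem_tabs {S : Fin 3 → Finset ι} :
    S ∈ tabs r k ↔ (∀ z, (univ.filter fun m => z ∈ S m).card = r z) ∧ ∀ m, (S m).card = k m := by
  simp [tabs]

theorem tabs_col {i j l : Fin 3} (hij : i ≠ j) (hil : i ≠ l) (hjl : j ≠ l) {S : Fin 3 → Finset ι}
    (hS : S ∈ tabs r k) (z : ι) : bi (z ∈ S i) + bi (z ∈ S j) + bi (z ∈ S l) = r z := by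
  rw [← col_eq hij hil hjl]; exact (mem_tabs.1 hS).1 z

theorem mem_tabs_of {i j l : Fin 3} (hij : i ≠ j) (hil : i ≠ l) (hjl : j ≠ l) {S : Fin 3 → Finset ι}
    (hc : ∀ z, bi (z ∈ S i) + bi (z ∈ S j) + bi (z ∈ S l) = r z)
    (hi : (S i).card = k i) (hj : (S j).card = k j) (hl : (S l).card = k l) : S ∈ tabs r k := by
  refine mem_tabs.2 ⟨fun z => by rw [col_eq hij hil hjl]; exact hc z, fun m => ?_⟩
  rcases fin3_cases hij hil hjl m with rfl | rfl | rfl <;> assumption

/-- table with prescribed rows -/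
def mk3 (i j : Fin 3) (A B C : Finset ι) : Fin 3 → Finset ι :=
  fun m => if m = i then A else if m = j then B else C

@[simp] theorem mk3_i (i j : Fin 3) (A B C : Finset ι) : mk3 i j A B C i = A := by simp [mk3]

theorem mk3_j {i j : Fin 3} (hij : i ≠ j) (A B C : Finset ι) : mk3 i j A B C j = B := by
  simp [mk3, hij.symm]

theorem mk3_l {i j l : Fin 3} (hil : i ≠ l) (hjl : j ≠ l) (A B C : Finset ι) :
    mk3 i j A B C l = C := by
  simp [mk3, hil.symm, hjl.symm]

theorem mk3_mem {i j l : Fin 3} (hij : i ≠ j) (hil : i ≠ l) (hjl : j ≠ l) {A B C : Finset ι}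
    (hc : ∀ z, bi (z ∈ A) + bi (z ∈ B) + bi (z ∈ C) = r z)
    (hA : A.card = k i) (hB : B.card = k j) (hC : C.card = k l) :
    mk3 i j A B C ∈ tabs r k := by
  refine mem_tabs_of hij hil hjl (S := mk3 i j A B C) ?_ ?_ ?_ ?_
  · intro z; rw [mk3_i, mk3_j hij, mk3_l hil hjl]; exact hc z
  · rwa [mk3_i]
  · rwa [mk3_j hij]
  · rwa [mk3_l hil hjl]

theorem tab_eq_mk3 {i j l : Fin 3} (hij : i ≠ j) (hil : i ≠ l) (hjl : j ≠ l)
    {S S' : Fin 3 → Finset ι} (h1 : S i = S' i) (h2 : S j = S' j) (h3 : S l = S' l) : S = S' := by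
  funext m
  rcases fin3_cases hij hil hjl m with rfl | rfl | rfl <;> assumption

/-- the swap of two columns on a set of columns -/
def sw (x y : ι) (T : Finset ι) : Finset ι := T.image (Equiv.swap x y)

theorem mem_sw {x y z : ι} {T : Finset ι} : z ∈ sw x y T ↔ Equiv.swap x y z ∈ T := by
  unfold sw
  rw [mem_image]
  constructor
  · rintro ⟨w, hw, rfl⟩; simpa using hw
  · intro h; exact ⟨_, h, by simp⟩

theorem sw_sw (x y : ι) (T : Finset ι) : sw x y (sw x y T) = T := by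
  ext z; simp [mem_sw]

theorem card_sw (x y : ι) (T : Finset ι) : (sw x y T).card = T.card :=
  card_image_of_injective _ (Equiv.injective _)

theorem sw_eq_self {x y : ι} {T : Finset ι} (h : x ∈ T ↔ y ∈ T) : sw x y T = T := by
  ext z
  rw [mem_sw]
  by_cases hx : z = x
  · subst hx; simp [h]
  by_cases hy : z = y
  · subst hy; simp [h]
  rw [Equiv.swap_apply_of_ne_of_ne hx hy]

theorem sw_eq_exchange {x y : ι} {T : Finset ι} (hx : x ∈ T) (hy : y ∉ T) :
    sw x y T = insert y (T.erase x) := by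
  ext z
  rw [mem_sw, mem_insert, mem_erase]
  by_cases h1 : z = x
  · subst h1
    have hne : z ≠ y := fun h => hy (h ▸ hx)
    simp [hy, hne]
  by_cases h2 : z = y
  · subst h2; simp [hx]
  rw [Equiv.swap_apply_of_ne_of_ne h1 h2]
  simp [h1, h2]

/-- action on tables -/
def swT (x y : ι) (S : Fin 3 → Finset ι) : Fin 3 → Finset ι := fun m => sw x y (S m)

theorem swT_swT (x y : ι) (S : Fin 3 → Finset ι) : swT x y (swT x y S) = S := by
  funext m; exact sw_sw _ _ _

theorem swT_mem {x y : ι} (hr : r x = r y) {S : Fin 3 → Finset ι} (hS : S ∈ tabs r k) :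
    swT x y S ∈ tabs r k := by
  obtain ⟨h1, h2⟩ := mem_tabs.1 hS
  refine mem_tabs.2 ⟨fun z => ?_, fun m => ?_⟩
  · have : (univ.filter fun m => z ∈ swT x y S m) =
        univ.filter fun m => Equiv.swap x y z ∈ S m := by
      ext m; simp [swT, mem_sw]
    rw [this, h1]
    by_cases hx : z = x
    · subst hx; simp [hr]
    by_cases hy : z = y
    · subst hy; simp [hr]
    rw [Equiv.swap_apply_of_ne_of_ne hx hy]
  · simp only [swT]; rw [card_sw]; exact h2 m

/-- average of `h` on the fibre `S i = T` of the tables -/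
noncomputable def phi (r : ι → ℕ) (k : Fin 3 → ℕ) (h : (Fin 3 → Finset ι) → ℝ) (i : Fin 3)
    (T : Finset ι) : ℝ := avg ((tabs r k).filter fun S => S i = T) h

theorem cexp_eq_phi (h : (Fin 3 → Finset ι) → ℝ) (i : Fin 3) (S : Fin 3 → Finset ι) :
    cexp (tabs r k) (· i) h S = phi r k h i (S i) := rfl

/-- the eigen-equation on a fibre. -/
theorem eig_fibre {h : (Fin 3 → Finset ι) → ℝ} {μ : ℝ}
    (heig : ∀ S ∈ tabs r k, ∑ m, phi r k h m (S m) = μ * h S)
    {i j l : Fin 3} (hij : i ≠ j) (hil : i ≠ l) (hjl : j ≠ l) {S₀ : Fin 3 → Finset ι}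
    (hS₀ : S₀ ∈ tabs r k) :
    (μ - 1) * phi r k h i (S₀ i)
      = avg ((tabs r k).filter fun S => S i = S₀ i)
          (fun S => phi r k h j (S j) + phi r k h l (S l)) := by
  set F := (tabs r k).filter fun S => S i = S₀ i with hF
  have hne : (F.card : ℝ) ≠ 0 := by
    have : S₀ ∈ F := mem_filter.2 ⟨hS₀, rfl⟩
    exact_mod_cast (card_pos.2 ⟨S₀, this⟩).ne'
  have h1 : ∑ S ∈ F, (μ * h S)
      = ∑ S ∈ F, (phi r k h i (S₀ i) + (phi r k h j (S j) + phi r k h l (S l))) := by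
    refine sum_congr rfl fun S hS => ?_
    obtain ⟨hS1, hS2⟩ := mem_filter.1 hS
    rw [← heig S hS1, sum_fin3 hij hil hjl, hS2, add_assoc]
  rw [← mul_sum, sum_add_distrib, sum_const, nsmul_eq_mul] at h1
  have h2 : phi r k h i (S₀ i) = (∑ S ∈ F, h S) / F.card := rfl
  have h3 : avg F (fun S => phi r k h j (S j) + phi r k h l (S l))
      = (∑ S ∈ F, (phi r k h j (S j) + phi r k h l (S l))) / F.card := rfl
  rw [h3]
  have h4 : ∑ S ∈ F, h S = phi r k h i (S₀ i) * F.card := by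
    rw [h2]; field_simp
  rw [h4] at h1
  field_simp
  linarith

/-- the average over a fibre transforms under the swap. -/
theorem avg_fibre_sw {x y : ι} (hr : r x = r y) (i : Fin 3) (T : Finset ι)
    (g : (Fin 3 → Finset ι) → ℝ) :
    avg ((tabs r k).filter fun S => S i = sw x y T) g
      = avg ((tabs r k).filter fun S => S i = T) (fun S => g (swT x y S)) := by
  have hcard : ((tabs r k).filter fun S => S i = sw x y T).card
      = ((tabs r k).filter fun S => S i = T).card := by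
    refine card_bij' (fun S _ => swT x y S) (fun S _ => swT x y S) ?_ ?_ ?_ ?_
    · intro S hS
      obtain ⟨h1, h2⟩ := mem_filter.1 hS
      refine mem_filter.2 ⟨swT_mem hr h1, ?_⟩
      simp only [swT]; rw [h2, sw_sw]
    · intro S hS
      obtain ⟨h1, h2⟩ := mem_filter.1 hS
      refine mem_filter.2 ⟨swT_mem hr h1, ?_⟩
      simp only [swT]; rw [h2]
    · intro S _; exact swT_swT _ _ _
    · intro S _; exact swT_swT _ _ _
  have hsum : ∑ S ∈ (tabs r k).filter (fun S => S i = sw x y T), g S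
      = ∑ S ∈ (tabs r k).filter (fun S => S i = T), g (swT x y S) := by
    refine sum_bij' (fun S _ => swT x y S) (fun S _ => swT x y S) ?_ ?_ ?_ ?_ ?_
    · intro S hS
      obtain ⟨h1, h2⟩ := mem_filter.1 hS
      refine mem_filter.2 ⟨swT_mem hr h1, ?_⟩
      simp only [swT]; rw [h2, sw_sw]
    · intro S hS
      obtain ⟨h1, h2⟩ := mem_filter.1 hS
      refine mem_filter.2 ⟨swT_mem hr h1, ?_⟩
      simp only [swT]; rw [h2]
    · intro S _; exact swT_swT _ _ _
    · intro S _; exact swT_swT _ _ _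
    · intro S _; rw [swT_swT]
  unfold avg
  rw [hcard, hsum]

theorem avg_abs_le {β : Type*} [DecidableEq β] {F : Finset β} {g : β → ℝ} {Δ : ℝ} (hΔ : 0 ≤ Δ)
    (h : ∀ S ∈ F, |g S| ≤ Δ) : |avg F g| ≤ Δ := by
  unfold avg
  rcases F.eq_empty_or_nonempty with rfl | hne
  · simpa using hΔ
  have hc : (0 : ℝ) < F.card := by exact_mod_cast hne.card_pos
  rw [abs_div, abs_of_pos hc, div_le_iff₀ hc]
  calc |∑ x ∈ F, g x| ≤ ∑ x ∈ F, |g x| := abs_sum_le_sum_abs _ _
    _ ≤ ∑ _x ∈ F, Δ := sum_le_sum h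
    _ = Δ * F.card := by rw [sum_const, nsmul_eq_mul, mul_comm]

/-- **Step (i).** Same column sum ⇒ invariance of all `phi`. -/
theorem phi_sw {h : (Fin 3 → Finset ι) → ℝ} {μ : ℝ} (hμ : 2 < μ)
    (heig : ∀ S ∈ tabs r k, ∑ m, phi r k h m (S m) = μ * h S)
    {x y : ι} (hr : r x = r y) :
    ∀ (m : Fin 3), ∀ S ∈ tabs r k, phi r k h m (sw x y (S m)) = phi r k h m (S m) := by
  classical
  set B : Finset (Fin 3 × (Fin 3 → Finset ι)) := univ ×ˢ tabs r k with hB
  set D : Fin 3 × (Fin 3 → Finset ι) → ℝ :=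
    fun b => phi r k h b.1 (b.2 b.1) - phi r k h b.1 (sw x y (b.2 b.1)) with hD
  have key := contraction B D (μ - 1) (by linarith) ?_
  · intro m S hS
    have := key (m, S) (mem_product.2 ⟨mem_univ _, hS⟩)
    simp only [hD] at this
    linarith
  intro Δ hΔ ⟨i, S₀⟩ hb
  have hS₀ : S₀ ∈ tabs r k := (mem_product.1 hb).2
  have hΔ0 : 0 ≤ Δ := (abs_nonneg _).trans (hΔ _ hb)
  have hbd : ∀ m, ∀ S ∈ tabs r k, |phi r k h m (S m) - phi r k h m (sw x y (S m))| ≤ Δ :=
    fun m S hS => hΔ (m, S) (mem_product.2 ⟨mem_univ _, hS⟩)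
  obtain ⟨j, l, hij, hil, hjl⟩ := exists_others i
  simp only [hD]
  by_cases hsep : x ∈ S₀ i ↔ y ∈ S₀ i
  · rw [sw_eq_self hsep]; simpa using hΔ0
  -- the eigen-equations
  have e1 := eig_fibre heig hij hil hjl hS₀
  have e2 := eig_fibre heig hij hil hjl (swT_mem hr hS₀)
  have e3 : swT x y S₀ i = sw x y (S₀ i) := rfl
  rw [e3, avg_fibre_sw hr] at e2
  have e4 : (μ - 1) * (phi r k h i (S₀ i) - phi r k h i (sw x y (S₀ i)))
      = avg ((tabs r k).filter fun S => S i = S₀ i)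
          (fun S => (phi r k h j (S j) - phi r k h j (sw x y (S j)))
            + (phi r k h l (S l) - phi r k h l (sw x y (S l)))) := by
    rw [mul_sub, e1, e2]
    unfold avg
    rw [← sub_div, ← sum_sub_distrib]
    congr 1
    refine sum_congr rfl fun S _ => ?_
    simp only [swT]; ring
  have hν : 0 < μ - 1 := by linarith
  have e5 : (μ - 1) * |phi r k h i (S₀ i) - phi r k h i (sw x y (S₀ i))|
      = |(μ - 1) * (phi r k h i (S₀ i) - phi r k h i (sw x y (S₀ i)))| := by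
    rw [abs_mul, abs_of_pos hν]
  rw [e5, e4]
  refine avg_abs_le hΔ0 fun S hS => ?_
  obtain ⟨hS1, hS2⟩ := mem_filter.1 hS
  have hcx := tabs_col hij hil hjl hS1 x
  have hcy := tabs_col hij hil hjl hS1 y
  rw [hS2] at hcx hcy
  -- exactly one of the other two rows separates
  have hcase : (x ∈ S j ↔ y ∈ S j) ∨ (x ∈ S l ↔ y ∈ S l) := by
    by_contra hcon
    push_neg at hcon
    simp only [bi] at hcx hcy
    rw [← hr] at hcy
    by_cases h1 : x ∈ S₀ i <;> by_cases h2 : y ∈ S₀ i <;> by_cases h3 : x ∈ S j <;>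
      by_cases h4 : y ∈ S j <;> by_cases h5 : x ∈ S l <;> by_cases h6 : y ∈ S l <;>
      simp [h1, h2, h3, h4, h5, h6] at hcx hcy hcon hsep <;> omega
  rcases hcase with hc | hc
  · rw [sw_eq_self hc]
    simpa using hbd l S hS1
  · rw [sw_eq_self hc]
    simpa using hbd j S hS1

/-- Consequence of step (i) in exchange form. -/
theorem phi_exchange_same {h : (Fin 3 → Finset ι) → ℝ} {μ : ℝ} (hμ : 2 < μ)
    (heig : ∀ S ∈ tabs r k, ∑ m, phi r k h m (S m) = μ * h S)
    {x y : ι} (hr : r x = r y) {m : Fin 3} {S : Fin 3 → Finset ι} (hS : S ∈ tabs r k)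
    (hx : x ∈ S m) (hy : y ∉ S m) :
    phi r k h m (insert y ((S m).erase x)) = phi r k h m (S m) := by
  rw [← sw_eq_exchange hx hy]
  exact phi_sw hμ heig hr m S hS

end Tab

end Crest.Agent.S0453Lib
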