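/-
The 3-row lemma, part 2: fibre parametrisation, the mixed exchange, constancy of eigenfunctions.
-/
import Crest.Agent.S0453Lib.ThreeRow1

set_option autoImplicit false
set_option linter.unusedSectionVars false
set_option linter.unusedVariables false
set_option linter.unusedSimpArgs false
set_option linter.deprecated false
open Finset

namespace Crest.Agent.S0453Lib

section sets
variable {ι : Type} [DecidableEq ι] {W G X : Finset ι} {x y w : ι}

theorem set_E1a (hy : y ∈ W) (hxW : x ∉ W) (hxG : x ∉ G) (hyG : y ∉ G) (hX : X ⊆ G) :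
    W.erase y ∪ (insert x (insert y G) \ insert x X) = W ∪ (G \ X) := by
  grind

theorem set_E1b (hy : y ∈ W) (hxW : x ∉ W) (hxG : x ∉ G) (hyG : y ∉ G) (hX : X ⊆ G) :
    insert y ((W.erase y ∪ insert x X).erase x) = W ∪ X := by
  grind

theorem set_E2a (hy : y ∈ W) (hxW : x ∉ W) (hxG : x ∉ G) (hyG : y ∉ G) (hX : X ⊆ G) :
    W.erase y ∪ insert y X = W ∪ X := by
  grind

theorem set_E2b (hy : y ∈ W) (hxW : x ∉ W) (hxG : x ∉ G) (hyG : y ∉ G) (hX : X ⊆ G) :
    insert y ((W.erase y ∪ (insert x (insert y G) \ insert y X)).erase x) = W ∪ (G \ X) := by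
  grind

theorem set_E3a (hy : y ∈ W) (hxW : x ∉ W) (hxG : x ∉ G) (hyG : y ∉ G) (hX : X ⊆ G)
    (hw : w ∈ G \ X) (hWG : ∀ z, z ∈ W → z ∉ G) :
    W.erase y ∪ insert w X = insert w ((W ∪ X).erase y) := by
  grind

theorem set_E3b (hy : y ∈ W) (hxW : x ∉ W) (hxG : x ∉ G) (hyG : y ∉ G) (hX : X ⊆ G)
    (hw : w ∈ G \ X) (hWG : ∀ z, z ∈ W → z ∉ G) :
    W.erase y ∪ (insert x (insert y G) \ insert w X) = insert x ((W ∪ (G \ X)).erase w) := by
  grind

theorem set_E4a (hy : y ∈ W) (hxW : x ∉ W) (hxG : x ∉ G) (hyG : y ∉ G) (hX : X ⊆ G)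
    (hw : w ∈ X) (hWG : ∀ z, z ∈ W → z ∉ G) :
    W.erase y ∪ insert x (insert y (X.erase w)) = insert x ((W ∪ X).erase w) := by
  grind

theorem set_E4b (hy : y ∈ W) (hxW : x ∉ W) (hxG : x ∉ G) (hyG : y ∉ G) (hX : X ⊆ G)
    (hw : w ∈ X) (hWG : ∀ z, z ∈ W → z ∉ G) :
    W.erase y ∪ (insert x (insert y G) \ insert x (insert y (X.erase w)))
      = insert w ((W ∪ (G \ X)).erase y) := by
  grind

end sets

section Tab
variable {ι : Type} [Fintype ι] [DecidableEq ι] {r : ι → ℕ} {k : Fin 3 → ℕ}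

/-- columns with residual sum 2 given the row `T`. -/
def W2 (r : ι → ℕ) (T : Finset ι) : Finset ι := univ.filter fun z => r z = 2 + bi (z ∈ T)

/-- columns with residual sum 1 given the row `T`. -/
def G1 (r : ι → ℕ) (T : Finset ι) : Finset ι := univ.filter fun z => r z = 1 + bi (z ∈ T)

theorem mem_W2 {T : Finset ι} {z : ι} : z ∈ W2 r T ↔ r z = 2 + bi (z ∈ T) := by simp [W2]
theorem mem_G1 {T : Finset ι} {z : ι} : z ∈ G1 r T ↔ r z = 1 + bi (z ∈ T) := by simp [G1]

theorem W2_G1_disj {T : Finset ι} {z : ι} (h : z ∈ W2 r T) : z ∉ G1 r T := by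
  rw [mem_W2] at h; rw [mem_G1]; omega

/-- parametrised table -/
def tabX (r : ι → ℕ) (i j : Fin 3) (T X : Finset ι) : Fin 3 → Finset ι :=
  mk3 i j T (W2 r T ∪ X) (W2 r T ∪ (G1 r T \ X))

section fibre
variable {i j l : Fin 3} (hij : i ≠ j) (hil : i ≠ l) (hjl : j ≠ l)
include hij hil hjl

theorem mem_W2_iff {S : Fin 3 → Finset ι} (hS : S ∈ tabs r k) {z : ι} :
    z ∈ W2 r (S i) ↔ z ∈ S j ∧ z ∈ S l := by
  have h := tabs_col hij hil hjl hS z
  rw [mem_W2, ← h]
  simp only [bi]
  by_cases h1 : z ∈ S i <;> by_cases h2 : z ∈ S j <;> by_cases h3 : z ∈ S l <;> simp [h1, h2, h3]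

theorem mem_G1_iff {S : Fin 3 → Finset ι} (hS : S ∈ tabs r k) {z : ι} :
    z ∈ G1 r (S i) ↔ (z ∈ S j ∧ z ∉ S l) ∨ (z ∉ S j ∧ z ∈ S l) := by
  have h := tabs_col hij hil hjl hS z
  rw [mem_G1, ← h]
  simp only [bi]
  by_cases h1 : z ∈ S i <;> by_cases h2 : z ∈ S j <;> by_cases h3 : z ∈ S l <;> simp [h1, h2, h3]

theorem row_j_eq {S : Fin 3 → Finset ι} (hS : S ∈ tabs r k) :
    S j = W2 r (S i) ∪ (S j ∩ G1 r (S i)) := by
  ext z
  have h1 := mem_W2_iff (z := z) hij hil hjl hS
  have h2 := mem_G1_iff (z := z) hij hil hjl hS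
  simp only [mem_union, mem_inter]
  tauto

theorem row_l_eq {S : Fin 3 → Finset ι} (hS : S ∈ tabs r k) :
    S l = W2 r (S i) ∪ (G1 r (S i) \ (S j ∩ G1 r (S i))) := by
  ext z
  have h1 := mem_W2_iff (z := z) hij hil hjl hS
  have h2 := mem_G1_iff (z := z) hij hil hjl hS
  simp only [mem_union, mem_inter, mem_sdiff]
  tauto

theorem disj_W2_G1 (T X : Finset ι) (hX : X ⊆ G1 r T) : Disjoint (W2 r T) X := by
  rw [disjoint_left]
  intro z hz hz'
  exact W2_G1_disj hz (hX hz')

/-- the row `j` intersected with `G1` has the right size -/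
theorem card_X {S : Fin 3 → Finset ι} (hS : S ∈ tabs r k) :
    (S j ∩ G1 r (S i)).card = k j - (W2 r (S i)).card := by
  have h1 := row_j_eq hij hil hjl hS
  have h2 : (S j).card = k j := (mem_tabs.1 hS).2 j
  have h3 : (W2 r (S i) ∪ (S j ∩ G1 r (S i))).card
      = (W2 r (S i)).card + (S j ∩ G1 r (S i)).card :=
    card_union_of_disjoint (disj_W2_G1 hij hil hjl _ _ inter_subset_right)
  rw [← h1, h2] at h3
  omega

/-- the parametrised table is a table -/
theorem tabX_mem {S₀ : Fin 3 → Finset ι} (hS₀ : S₀ ∈ tabs r k) {X : Finset ι}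
    (hX : X ∈ (G1 r (S₀ i)).powersetCard (k j - (W2 r (S₀ i)).card)) :
    tabX r i j (S₀ i) X ∈ tabs r k := by
  obtain ⟨hX1, hX2⟩ := mem_powersetCard.1 hX
  set T := S₀ i with hT
  refine mk3_mem hij hil hjl ?_ ((mem_tabs.1 hS₀).2 i) ?_ ?_
  · intro z
    have h := tabs_col hij hil hjl hS₀ z
    have h1 := mem_W2_iff (z := z) hij hil hjl hS₀
    have h2 := mem_G1_iff (z := z) hij hil hjl hS₀
    rw [← hT] at h h1 h2
    rw [← h]
    simp only [bi, mem_union, mem_sdiff]
    have h3 : z ∈ X → z ∈ G1 r T := fun hz => hX1 hz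
    by_cases a1 : z ∈ T <;> by_cases a2 : z ∈ S₀ j <;> by_cases a3 : z ∈ S₀ l <;>
      by_cases a4 : z ∈ X <;>
      simp only [a2, a3, true_and, and_true, false_and, and_false, not_true, not_false_iff,
        or_false, false_or, iff_true, iff_false] at h1 h2 <;>
      simp [a1, a2, a3, a4, h1, h2] <;> tauto
  · rw [card_union_of_disjoint (disj_W2_G1 hij hil hjl _ _ hX1), hX2]
    have h1 := row_j_eq hij hil hjl hS₀
    have h2 : (S₀ j).card = k j := (mem_tabs.1 hS₀).2 j
    have h3 : (W2 r T).card ≤ (S₀ j).card := by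
      rw [h1]; exact card_le_card subset_union_left
    omega
  · have hl := row_l_eq hij hil hjl hS₀
    have hc := card_X hij hil hjl hS₀
    rw [← hT] at hl hc
    have h2 : (S₀ l).card = k l := (mem_tabs.1 hS₀).2 l
    rw [hl, card_union_of_disjoint (disj_W2_G1 hij hil hjl _ _ sdiff_subset),
      card_sdiff_of_subset inter_subset_right, hc] at h2
    rw [card_union_of_disjoint (disj_W2_G1 hij hil hjl _ _ sdiff_subset),
      card_sdiff_of_subset hX1, hX2]
    exact h2

/-- the slice is the fibre: generic average transport -/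
theorem avg_fibre_param {S₀ : Fin 3 → Finset ι} (hS₀ : S₀ ∈ tabs r k)
    (g : (Fin 3 → Finset ι) → ℝ) :
    avg ((tabs r k).filter fun S => S i = S₀ i) g
      = avg ((G1 r (S₀ i)).powersetCard (k j - (W2 r (S₀ i)).card))
          (fun X => g (tabX r i j (S₀ i) X)) := by
  set T := S₀ i with hT
  have himage : ((tabs r k).filter fun S => S i = T)
      = ((G1 r T).powersetCard (k j - (W2 r T).card)).image (tabX r i j T) := by
    ext S
    simp only [mem_filter, mem_image]
    constructor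
    · rintro ⟨hS, hST⟩
      refine ⟨S j ∩ G1 r T, ?_, ?_⟩
      · refine mem_powersetCard.2 ⟨inter_subset_right, ?_⟩
        have := card_X hij hil hjl hS
        rwa [hST] at this
      · refine tab_eq_mk3 hij hil hjl ?_ ?_ ?_
        · simp [tabX, hST]
        · simp only [tabX]; rw [mk3_j hij]
          have := row_j_eq hij hil hjl hS
          rw [hST] at this
          exact this.symm
        · simp only [tabX]; rw [mk3_l hil hjl]
          have := row_l_eq hij hil hjl hS
          rw [hST] at this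
          exact this.symm
    · rintro ⟨X, hX, rfl⟩
      exact ⟨tabX_mem hij hil hjl hS₀ hX, by simp [tabX]⟩
  have hinj : Set.InjOn (tabX r i j T)
      ((G1 r T).powersetCard (k j - (W2 r T).card) : Finset (Finset ι)) := by
    intro X hX X' hX' h
    have h1 := congrFun h j
    simp only [tabX] at h1
    rw [mk3_j hij, mk3_j hij] at h1
    have hX1 := (mem_powersetCard.1 (mem_coe.1 hX)).1
    have hX2 := (mem_powersetCard.1 (mem_coe.1 hX')).1
    ext z
    have a := congrArg (fun A => z ∈ A) h1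
    simp only [mem_union, eq_iff_iff] at a
    have b1 : z ∈ X → z ∉ W2 r T := fun hz hz' => W2_G1_disj hz' (hX1 hz)
    have b2 : z ∈ X' → z ∉ W2 r T := fun hz hz' => W2_G1_disj hz' (hX2 hz)
    tauto
  unfold avg
  rw [himage, sum_image hinj, card_image_of_injOn hinj]

/-- the eigen-equation in slice form -/
theorem eig_param {h : (Fin 3 → Finset ι) → ℝ} {μ : ℝ}
    (heig : ∀ S ∈ tabs r k, ∑ m, phi r k h m (S m) = μ * h S)
    {S₀ : Fin 3 → Finset ι} (hS₀ : S₀ ∈ tabs r k) :
    (μ - 1) * phi r k h i (S₀ i)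
      = avg ((G1 r (S₀ i)).powersetCard (k j - (W2 r (S₀ i)).card))
          (fun X => phi r k h j (W2 r (S₀ i) ∪ X)
            + phi r k h l (W2 r (S₀ i) ∪ (G1 r (S₀ i) \ X))) := by
  rw [eig_fibre heig hij hil hjl hS₀, avg_fibre_param hij hil hjl hS₀]
  unfold avg
  congr 1
  refine sum_congr rfl fun X _ => ?_
  simp only [tabX]
  rw [mk3_j hij, mk3_l hil hjl]

/-- the slice parameter is in range -/
theorem kappa_le {S₀ : Fin 3 → Finset ι} (hS₀ : S₀ ∈ tabs r k) :
    k j - (W2 r (S₀ i)).card ≤ (G1 r (S₀ i)).card := by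
  rw [← card_X hij hil hjl hS₀]
  exact card_le_card inter_subset_right

end fibre

/-- The row-swap of a table between rows `i` and `j`. -/
theorem rowSwap_mem {i j l : Fin 3} (hij : i ≠ j) (hil : i ≠ l) (hjl : j ≠ l)
    {S : Fin 3 → Finset ι} (hS : S ∈ tabs r k) {u v : ι} (hu : u ∈ S i) (hu' : u ∉ S j)
    (hv : v ∈ S j) (hv' : v ∉ S i) :
    mk3 i j (insert v ((S i).erase u)) (insert u ((S j).erase v)) (S l) ∈ tabs r k := by
  have huv : u ≠ v := fun h => hv' (h ▸ hu)
  refine mk3_mem hij hil hjl ?_ ?_ ?_ ((mem_tabs.1 hS).2 l)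
  · intro z
    rw [← tabs_col hij hil hjl hS z]
    simp only [bi, mem_insert, mem_erase]
    by_cases h1 : z = u
    · subst h1; simp [huv, hu, hu']
    by_cases h2 : z = v
    · subst h2; simp [huv.symm, hv, hv']
    simp [h1, h2]
  · rw [card_insert_of_notMem (by simp [hv']), card_erase_of_mem hu, (mem_tabs.1 hS).2 i]
    have : 0 < k i := by rw [← (mem_tabs.1 hS).2 i]; exact card_pos.2 ⟨u, hu⟩
    omega
  · rw [card_insert_of_notMem (by simp [hu']), card_erase_of_mem hv, (mem_tabs.1 hS).2 j]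
    have : 0 < k j := by rw [← (mem_tabs.1 hS).2 j]; exact card_pos.2 ⟨v, hv⟩
    omega

/-- **Step (ii).** The contraction estimate for the mixed exchange. -/
theorem mixed_contract {h : (Fin 3 → Finset ι) → ℝ} {μ : ℝ} (hμ : 2 < μ)
    (heig : ∀ S ∈ tabs r k, ∑ m, phi r k h m (S m) = μ * h S) (ℓ : ℝ)
    (hℓ : ∀ m, ∀ S ∈ tabs r k, ∀ u v, u ∈ S m → v ∉ S m → r u = 1 → r v = 2 →
      |phi r k h m (insert v ((S m).erase u)) - phi r k h m (S m)| ≤ ℓ)
    (i : Fin 3) {S₀ : Fin 3 → Finset ι} (hS₀ : S₀ ∈ tabs r k) {x y : ι} (hx : x ∈ S₀ i)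
    (hy : y ∉ S₀ i) (hrx : r x = 1) (hry : r y = 2) :
    (μ - 1) * |phi r k h i (insert y ((S₀ i).erase x)) - phi r k h i (S₀ i)| ≤ ℓ := by
  obtain ⟨j, l, hij, hil, hjl⟩ := exists_others i
  have hxy : x ≠ y := fun e => hy (e ▸ hx)
  set T := S₀ i with hT
  set T' := insert y (T.erase x) with hT'
  -- facts about `x` and `y` in the row structure
  have hyW : y ∈ W2 r T := by rw [mem_W2]; simp [bi, hy, hry]
  have hxW : x ∉ W2 r T := by rw [mem_W2]; simp [bi, hx, hrx]
  have hxG : x ∉ G1 r T := by rw [mem_G1]; simp [bi, hx, hrx]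
  have hyG : y ∉ G1 r T := by rw [mem_G1]; simp [bi, hy, hry]
  have hyj : y ∈ S₀ j := ((mem_W2_iff hij hil hjl hS₀).1 hyW).1
  have hxj : x ∉ S₀ j := by
    have := tabs_col hij hil hjl hS₀ x
    rw [hrx] at this
    simp only [bi, ← hT, hx, if_true] at this
    intro hxj'
    simp only [hxj', if_true] at this
    omega
  -- the other fibre
  set S₁ := mk3 i j (insert y ((S₀ i).erase x)) (insert x ((S₀ j).erase y)) (S₀ l) with hS₁def
  have hS₁ : S₁ ∈ tabs r k := rowSwap_mem hij hil hjl hS₀ hx hxj hyj hy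
  have hS₁i : S₁ i = T' := by simp [hS₁def, hT', hT]
  -- structure for `T'`
  have hW' : W2 r T' = (W2 r T).erase y := by
    ext z
    rw [mem_W2, mem_erase, mem_W2]
    by_cases h1 : z = y
    · subst h1; simp [bi, hT', hry]
    by_cases h2 : z = x
    · subst h2; simp [bi, hT', hrx, hx, h1]
    simp [bi, hT', h1, h2]
  have hG' : G1 r T' = insert x (insert y (G1 r T)) := by
    ext z
    have hmemG : z ∈ insert x (insert y (G1 r T)) ↔ z = x ∨ z = y ∨ r z = 1 + bi (z ∈ T) := by
      simp [mem_G1]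
    rw [mem_G1, hmemG]
    by_cases h1 : z = y
    · subst h1; simp [bi, hT', hry]
    by_cases h2 : z = x
    · subst h2; simp [hrx, hT', h1, bi]
    simp [bi, hT', h1, h2]
  have hyW' := hyW
  have hcardW : (W2 r T').card + 1 = (W2 r T).card := by
    rw [hW', card_erase_of_mem hyW]
    have : 0 < (W2 r T).card := card_pos.2 ⟨y, hyW⟩
    omega
  have hWle : (W2 r T).card ≤ k j := by
    have h1 := row_j_eq hij hil hjl hS₀
    have h2 : (S₀ j).card = k j := (mem_tabs.1 hS₀).2 j
    rw [← h2, h1]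
    exact card_le_card subset_union_left
  set κ := k j - (W2 r T).card with hκ
  have hκ' : k j - (W2 r T').card = κ + 1 := by omega
  have hκle : κ ≤ (G1 r T).card := kappa_le hij hil hjl hS₀
  -- the two eigen-equations
  have e1 := eig_param hij hil hjl heig hS₀
  have e2 := eig_param hij hil hjl heig hS₁
  rw [hS₁i, hκ', hG', hW'] at e2
  rw [← hT, ← hκ] at e1
  -- the tables of the fibres
  have tabS : ∀ X ∈ (G1 r T).powersetCard κ, ∃ S ∈ tabs r k, S j = W2 r T ∪ X ∧
      S l = W2 r T ∪ (G1 r T \ X) := by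
    intro X hX
    refine ⟨tabX r i j T X, tabX_mem hij hil hjl hS₀ hX, ?_, ?_⟩
    · simp only [tabX]; rw [mk3_j hij]
    · simp only [tabX]; rw [mk3_l hil hjl]
  have tabS' : ∀ X' ∈ (insert x (insert y (G1 r T))).powersetCard (κ + 1), ∃ S ∈ tabs r k,
      S j = (W2 r T).erase y ∪ X' ∧
      S l = (W2 r T).erase y ∪ (insert x (insert y (G1 r T)) \ X') := by
    intro X' hX'
    have hX'' : X' ∈ (G1 r (S₁ i)).powersetCard (k j - (W2 r (S₁ i)).card) := by
      rw [hS₁i, hκ', hG']; exact hX'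
    refine ⟨tabX r i j (S₁ i) X', tabX_mem hij hil hjl hS₁ hX'', ?_, ?_⟩
    · simp only [tabX]; rw [mk3_j hij, hS₁i, hW']
    · simp only [tabX]; rw [mk3_l hil hjl, hS₁i, hW', hG']
  have hWG : ∀ z, z ∈ W2 r T → z ∉ G1 r T := fun z hz => W2_G1_disj hz
  have hrw : ∀ w ∈ G1 r T, r w = 1 ∨ r w = 2 := by
    intro w hw
    rw [mem_G1] at hw
    by_cases hwT : w ∈ T <;> simp [bi, hwT] at hw <;> omega
  -- mixed bound in the convenient direction
  have hmix : ∀ (m : Fin 3) (S : Fin 3 → Finset ι), S ∈ tabs r k → ∀ u v A, S m = A → u ∈ A → v ∉ A →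
      r u = 1 → r v = 2 → |phi r k h m A - phi r k h m (insert v (A.erase u))| ≤ ℓ := by
    intro m S hS u v A hA hu hv hru hrv
    subst hA
    rw [abs_sub_comm]
    exact hℓ m S hS u v hu hv hru hrv
  have hsame : ∀ (m : Fin 3) (S : Fin 3 → Finset ι), S ∈ tabs r k → ∀ u v A, S m = A → u ∈ A →
      v ∉ A → r u = r v → phi r k h m (insert v (A.erase u)) = phi r k h m A := by
    intro m S hS u v A hA hu hv hruv
    subst hA
    exact phi_exchange_same hμ heig hruv hS hu hv
  -- coupling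
  have hcoup := coupling_abs (G1 r T) x y hxG hyG hxy κ hκle
    (fun X => phi r k h j (W2 r T ∪ X) + phi r k h l (W2 r T ∪ (G1 r T \ X)))
    (fun X' => phi r k h j ((W2 r T).erase y ∪ X')
      + phi r k h l ((W2 r T).erase y ∪ (insert x (insert y (G1 r T)) \ X'))) ℓ ?_ ?_ ?_ ?_
  · have hν : 0 < μ - 1 := by linarith
    have e5 : (μ - 1) * |phi r k h i T' - phi r k h i T|
        = |(μ - 1) * phi r k h i T' - (μ - 1) * phi r k h i T| := by
      rw [← mul_sub, abs_mul, abs_of_pos hν]
    rw [e5, e1, e2]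
    exact hcoup
  · -- E1
    intro X hX
    have hXG := (mem_powersetCard.1 hX).1
    have hmem : insert x X ∈ (insert x (insert y (G1 r T))).powersetCard (κ + 1) := by
      refine mem_powersetCard.2 ⟨insert_subset_insert _ (hXG.trans (subset_insert _ _)), ?_⟩
      rw [card_insert_of_notMem (fun h => hxG (hXG h)), (mem_powersetCard.1 hX).2]
    obtain ⟨S', hS', hS'j, hS'l⟩ := tabS' _ hmem
    rw [set_E1a hyW hxW hxG hyG hXG]
    have hyX : y ∉ X := fun h => hyG (hXG h)
    have h1 := hmix j S' hS' x y _ hS'j (by simp) (by simp [hxy.symm, hyX])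
      hrx hry
    rw [set_E1b hyW hxW hxG hyG hXG] at h1
    convert h1 using 2
    ring
  · -- E2
    intro X hX
    have hXG := (mem_powersetCard.1 hX).1
    have hmem : insert y X ∈ (insert x (insert y (G1 r T))).powersetCard (κ + 1) := by
      refine mem_powersetCard.2 ⟨?_, ?_⟩
      · exact (insert_subset_insert _ hXG).trans (subset_insert _ _)
      rw [card_insert_of_notMem (fun h => hyG (hXG h)), (mem_powersetCard.1 hX).2]
    obtain ⟨S', hS', hS'j, hS'l⟩ := tabS' _ hmem
    rw [set_E2a hyW hxW hxG hyG hXG]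
    have hyX : y ∉ X := fun h => hyG (hXG h)
    have hxX : x ∉ X := fun h => hxG (hXG h)
    have h1 := hmix l S' hS' x y _ hS'l (by simp [hxy, hxG, hxW, hxX])
      (by simp [hxy.symm, hyX]) hrx hry
    rw [set_E2b hyW hxW hxG hyG hXG] at h1
    convert h1 using 2
    ring
  · -- E3
    intro X hX w hw
    have hXG := (mem_powersetCard.1 hX).1
    have hwG := (mem_sdiff.1 hw).1
    have hwX := (mem_sdiff.1 hw).2
    have hwx : w ≠ x := fun e => hxG (e ▸ hwG)
    have hwy : w ≠ y := fun e => hyG (e ▸ hwG)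
    have hwW : w ∉ W2 r T := fun h => hWG _ h hwG
    have hmem : insert w X ∈ (insert x (insert y (G1 r T))).powersetCard (κ + 1) := by
      refine mem_powersetCard.2 ⟨?_, ?_⟩
      · exact (insert_subset hwG hXG).trans ((subset_insert _ _).trans (subset_insert _ _))
      rw [card_insert_of_notMem hwX, (mem_powersetCard.1 hX).2]
    obtain ⟨S', hS', hS'j, hS'l⟩ := tabS' _ hmem
    obtain ⟨S, hS, hSj, hSl⟩ := tabS _ hX
    have hA' := set_E3a hyW hxW hxG hyG hXG hw hWG
    have hC' := set_E3b hyW hxW hxG hyG hXG hw hWG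
    rw [hA'] at hS'j ⊢
    rw [hC'] at hS'l ⊢
    set A := W2 r T ∪ X with hA
    set C := W2 r T ∪ (G1 r T \ X) with hC
    have hwC : w ∈ C := by simp [hC, hw]
    have hwA : w ∉ A := by simp [hA, hwW, hwX]
    have hyA : y ∈ A := by simp [hA, hyW]
    have hxC : x ∉ C := by simp [hC, hxW, hxG]
    have hxX : x ∉ X := fun h => hxG (hXG h)
    have hxA : x ∉ A := by simp [hA, hxW, hxX]
    rcases hrw w hwG with hrw1 | hrw2
    · -- `r w = 1`
      have e1 := hsame l S hS w x C hSl hwC hxC (by rw [hrw1, hrx])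
      rw [e1]
      have e2 := hmix j S' hS' w y (insert w (A.erase y)) hS'j (by simp) (by simp [hwy.symm])
        hrw1 hry
      have e3 : insert y ((insert w (A.erase y)).erase w) = A := by
        rw [erase_insert (by simp [hwA]), insert_erase hyA]
      rw [e3] at e2
      convert e2 using 2
      ring
    · -- `r w = 2`
      have e1 := hsame j S hS y w A hSj hyA hwA (by rw [hrw2, hry])
      rw [e1]
      have e2 := hmix l S' hS' x w (insert x (C.erase w)) hS'l (by simp)
        (by simp [hwx]) hrx hrw2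
      have e3 : insert w ((insert x (C.erase w)).erase x) = C := by
        rw [erase_insert (by simp [hxC]), insert_erase hwC]
      rw [e3] at e2
      convert e2 using 2
      ring
  · -- E4
    intro X hX w hw
    have hXG := (mem_powersetCard.1 hX).1
    have hwG := hXG hw
    have hwx : w ≠ x := fun e => hxG (e ▸ hwG)
    have hwy : w ≠ y := fun e => hyG (e ▸ hwG)
    have hwW : w ∉ W2 r T := fun h => hWG _ h hwG
    have hmem : insert x (insert y (X.erase w))
        ∈ (insert x (insert y (G1 r T))).powersetCard (κ + 1) := by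
      refine mem_powersetCard.2 ⟨?_, ?_⟩
      · exact insert_subset_insert _ (insert_subset_insert _ ((erase_subset _ _).trans hXG))
      · rw [card_insert_of_notMem, card_insert_of_notMem, card_erase_of_mem hw,
          (mem_powersetCard.1 hX).2]
        · have : 0 < κ := by
            rw [← (mem_powersetCard.1 hX).2]; exact card_pos.2 ⟨w, hw⟩
          omega
        · exact fun h => hyG (hXG (mem_of_mem_erase h))
        · simp only [mem_insert, not_or]
          exact ⟨hxy, fun h => hxG (hXG (mem_of_mem_erase h))⟩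
    obtain ⟨S', hS', hS'j, hS'l⟩ := tabS' _ hmem
    obtain ⟨S, hS, hSj, hSl⟩ := tabS _ hX
    have hA' := set_E4a hyW hxW hxG hyG hXG hw hWG
    have hC' := set_E4b hyW hxW hxG hyG hXG hw hWG
    rw [hA'] at hS'j ⊢
    rw [hC'] at hS'l ⊢
    set A := W2 r T ∪ X with hA
    set C := W2 r T ∪ (G1 r T \ X) with hC
    have hwA : w ∈ A := by simp [hA, hw]
    have hwC : w ∉ C := by simp [hC, hwW, hw]
    have hyC : y ∈ C := by simp [hC, hyW]
    have hxC : x ∉ C := by simp [hC, hxW, hxG]
    have hxX : x ∉ X := fun h => hxG (hXG h)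
    have hxA : x ∉ A := by simp [hA, hxW, hxX]
    rcases hrw w hwG with hrw1 | hrw2
    · -- `r w = 1`
      have e1 := hsame j S hS w x A hSj hwA hxA (by rw [hrw1, hrx])
      rw [e1]
      have e2 := hmix l S' hS' w y (insert w (C.erase y)) hS'l (by simp) (by simp [hwy.symm])
        hrw1 hry
      have e3 : insert y ((insert w (C.erase y)).erase w) = C := by
        rw [erase_insert (by simp [hwC]), insert_erase hyC]
      rw [e3] at e2
      convert e2 using 2
      ring
    · -- `r w = 2`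
      have e1 := hsame l S hS y w C hSl hyC hwC (by rw [hrw2, hry])
      rw [e1]
      have e2 := hmix j S' hS' x w (insert x (A.erase w)) hS'j (by simp) (by simp [hwx]) hrx hrw2
      have e3 : insert w ((insert x (A.erase w)).erase x) = A := by
        rw [erase_insert (by simp [hxA]), insert_erase hwA]
      rw [e3] at e2
      convert e2 using 2
      ring

/-- Step (ii): the mixed exchange does not change `phi`. -/
theorem phi_mixed {h : (Fin 3 → Finset ι) → ℝ} {μ : ℝ} (hμ : 2 < μ)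
    (heig : ∀ S ∈ tabs r k, ∑ m, phi r k h m (S m) = μ * h S)
    (m : Fin 3) {S : Fin 3 → Finset ι} (hS : S ∈ tabs r k) {x y : ι} (hx : x ∈ S m)
    (hy : y ∉ S m) (hrx : r x = 1) (hry : r y = 2) :
    phi r k h m (insert y ((S m).erase x)) = phi r k h m (S m) := by
  classical
  set B : Finset (Fin 3 × (Fin 3 → Finset ι) × ι × ι) :=
    univ.filter (fun b => b.2.1 ∈ tabs r k ∧ b.2.2.1 ∈ b.2.1 b.1 ∧ b.2.2.2 ∉ b.2.1 b.1 ∧
      r b.2.2.1 = 1 ∧ r b.2.2.2 = 2) with hB
  set D : Fin 3 × (Fin 3 → Finset ι) × ι × ι → ℝ :=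
    fun b => phi r k h b.1 (insert b.2.2.2 ((b.2.1 b.1).erase b.2.2.1)) - phi r k h b.1 (b.2.1 b.1)
    with hD
  have key := contraction B D (μ - 1) (by linarith) ?_
  · have := key (m, S, x, y) (by simp [hB, hS, hx, hy, hrx, hry])
    simp only [hD] at this
    linarith
  intro Δ hΔ ⟨i, S₀, u, v⟩ hb
  obtain ⟨-, h1, h2, h3, h4, h5⟩ := mem_filter.1 hb
  simp only at h1 h2 h3 h4 h5
  exact mixed_contract hμ heig Δ
    (fun m S hS u v hu hv hru hrv =>
      hΔ (m, S, u, v) (by simp [hB, hS, hu, hv, hru, hrv])) i h1 h2 h3 h4 h5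

/-- A row swap does not change `phi`. -/
theorem phi_rowSwap {h : (Fin 3 → Finset ι) → ℝ} {μ : ℝ} (hμ : 2 < μ)
    (heig : ∀ S ∈ tabs r k, ∑ m, phi r k h m (S m) = μ * h S)
    {i j l : Fin 3} (hij : i ≠ j) (hil : i ≠ l) (hjl : j ≠ l)
    {S : Fin 3 → Finset ι} (hS : S ∈ tabs r k) {u v : ι} (hu : u ∈ S i) (hu' : u ∉ S j)
    (hv : v ∈ S j) (hv' : v ∉ S i) :
    phi r k h i (insert v ((S i).erase u)) = phi r k h i (S i) := by
  have huv : u ≠ v := fun h => hv' (h ▸ hu)
  have hru := tabs_col hij hil hjl hS u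
  have hrv := tabs_col hij hil hjl hS v
  simp only [bi, hu, hu', hv, hv', if_true, if_false] at hru hrv
  have hS' := rowSwap_mem hij hil hjl hS hu hu' hv hv'
  have hS'i : mk3 i j (insert v ((S i).erase u)) (insert u ((S j).erase v)) (S l) i
      = insert v ((S i).erase u) := mk3_i _ _ _ _ _
  by_cases hlu : u ∈ S l <;> by_cases hlv : v ∈ S l <;>
    simp only [hlu, hlv, if_true, if_false] at hru hrv
  · exact phi_exchange_same hμ heig (by omega) hS hu hv'
  · -- `r u = 2`, `r v = 1`
    have := phi_mixed hμ heig i hS' (x := v) (y := u) (by simp [hS'i])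
      (by simp [hS'i, huv]) (by omega) (by omega)
    rw [hS'i, erase_insert (by simp [hv']), insert_erase hu] at this
    exact this.symm
  · exact phi_mixed hμ heig i hS hu hv' (by omega) (by omega)
  · exact phi_exchange_same hμ heig (by omega) hS hu hv'

/-- `phi` is constant on the support of a row. -/
theorem phi_const {h : (Fin 3 → Finset ι) → ℝ} {μ : ℝ} (hμ : 2 < μ)
    (heig : ∀ S ∈ tabs r k, ∑ m, phi r k h m (S m) = μ * h S)
    (i : Fin 3) (n : ℕ) :
    ∀ S ∈ tabs r k, ∀ S' ∈ tabs r k, (S i \ S' i).card = n →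
      phi r k h i (S i) = phi r k h i (S' i) := by
  obtain ⟨j, l, hij, hil, hjl⟩ := exists_others i
  induction n with
  | zero =>
    intro S hS S' hS' hn
    have h1 : S i ⊆ S' i := by
      rw [← sdiff_eq_empty_iff_subset]; exact card_eq_zero.1 hn
    have h2 : (S i).card = (S' i).card := by
      rw [(mem_tabs.1 hS).2 i, (mem_tabs.1 hS').2 i]
    rw [eq_of_subset_of_card_le h1 h2.ge]
  | succ n ih =>
    intro S hS S' hS' hn
    -- pick `x ∈ S i \ S' i`, `y ∈ S' i \ S i`
    have hne : (S i \ S' i).Nonempty := by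
      rw [← card_pos]; omega
    obtain ⟨x, hx⟩ := hne
    have hcard : (S' i \ S i).card = (S i \ S' i).card := by
      have h2 : (S i).card = (S' i).card := by
        rw [(mem_tabs.1 hS).2 i, (mem_tabs.1 hS').2 i]
      have := card_sdiff_add_card_inter (S i) (S' i)
      have h3 := card_sdiff_add_card_inter (S' i) (S i)
      rw [inter_comm] at h3
      omega
    have hne' : (S' i \ S i).Nonempty := by
      rw [← card_pos, hcard]; omega
    obtain ⟨y, hy⟩ := hne'
    rw [mem_sdiff] at hx hy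
    obtain ⟨hx1, hx2⟩ := hx
    obtain ⟨hy1, hy2⟩ := hy
    have hxy : x ≠ y := fun e => hy2 (e ▸ hx1)
    -- the alternatives
    have halt : (∃ j' l', i ≠ j' ∧ i ≠ l' ∧ j' ≠ l' ∧ y ∈ S j' ∧ x ∉ S j') ∨
        (∃ j' l', i ≠ j' ∧ i ≠ l' ∧ j' ≠ l' ∧ x ∈ S' j' ∧ y ∉ S' j') := by
      by_contra hcon
      push_neg at hcon
      obtain ⟨hc1, hc2⟩ := hcon
      have a1 := hc1 j l hij hil hjl
      have a2 := hc1 l j hil hij hjl.symm
      have a3 := hc2 j l hij hil hjl
      have a4 := hc2 l j hil hij hjl.symm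
      have b1 := tabs_col hij hil hjl hS x
      have b2 := tabs_col hij hil hjl hS y
      have b3 := tabs_col hij hil hjl hS' x
      have b4 := tabs_col hij hil hjl hS' y
      simp only [bi, hx1, hx2, hy1, hy2, if_true, if_false] at b1 b2 b3 b4
      by_cases c1 : y ∈ S j <;> by_cases c2 : y ∈ S l <;> by_cases c3 : x ∈ S j <;>
        by_cases c4 : x ∈ S l <;> by_cases c5 : x ∈ S' j <;> by_cases c6 : x ∈ S' l <;>
        by_cases c7 : y ∈ S' j <;> by_cases c8 : y ∈ S' l <;>
        simp only [c1, c2, c3, c4, c5, c6, c7, c8, if_true, if_false, forall_true_left,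
          true_implies, false_implies, not_true, not_false_iff] at a1 a2 a3 a4 b1 b2 b3 b4 <;>
        first | omega | trivial | simp_all
    rcases halt with ⟨j', l', h1, h2, h3, h4, h5⟩ | ⟨j', l', h1, h2, h3, h4, h5⟩
    · -- move `S` closer
      have hS2 := rowSwap_mem h1 h2 h3 hS hx1 h5 h4 hy2
      have e := phi_rowSwap hμ heig h1 h2 h3 hS hx1 h5 h4 hy2
      rw [← e]
      have e2 := ih _ hS2 S' hS' ?_
      · rw [mk3_i] at e2; exact e2
      · rw [mk3_i]
        have : insert y ((S i).erase x) \ S' i = (S i \ S' i).erase x := by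
          ext z
          simp only [mem_sdiff, mem_insert, mem_erase]
          by_cases hz : z = y
          · subst hz; simp [hy1, hxy.symm]
          · simp [hz]; tauto
        rw [this, card_erase_of_mem (mem_sdiff.2 ⟨hx1, hx2⟩), hn]; rfl
    · -- move `S'` closer
      have hS2 := rowSwap_mem h1 h2 h3 hS' hy1 h5 h4 hx2
      have e := phi_rowSwap hμ heig h1 h2 h3 hS' hy1 h5 h4 hx2
      rw [← e]
      have e2 := ih S hS _ hS2 ?_
      · rw [mk3_i] at e2; exact e2
      · rw [mk3_i]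
        have : S i \ insert x ((S' i).erase y) = (S i \ S' i).erase x := by
          ext z
          simp only [mem_sdiff, mem_insert, mem_erase]
          by_cases hz : z = y
          · subst hz; simp [hy2]
          · by_cases hz2 : z = x
            · simp [hz2]
            · simp [hz, hz2]
        rw [this, card_erase_of_mem (mem_sdiff.2 ⟨hx1, hx2⟩), hn]; rfl

/-- **TR1.** An eigenfunction of `Σ Π_i` with eigenvalue `μ > 2` is constant. -/
theorem eig_const {h : (Fin 3 → Finset ι) → ℝ} {μ : ℝ} (hμ : 2 < μ)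
    (heig : ∀ S ∈ tabs r k, ∑ m, phi r k h m (S m) = μ * h S) :
    ∀ S ∈ tabs r k, ∀ S' ∈ tabs r k, h S = h S' := by
  intro S hS S' hS'
  have e1 := heig S hS
  have e2 := heig S' hS'
  have e3 : ∑ m, phi r k h m (S m) = ∑ m, phi r k h m (S' m) :=
    sum_congr rfl fun m _ => phi_const hμ heig m _ S hS S' hS' rfl
  rw [e1, e2] at e3
  have hμ0 : μ ≠ 0 := by linarith
  exact mul_left_cancel₀ hμ0 e3

end Tab

end Crest.Agent.S0453Lib
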