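/-
The 3-row lemma: the statement `ThreeRowLemma`.
-/
import Crest.Agent.S0453Lib.Cond
import Crest.Agent.S0453Lib.ThreeRow2

set_option autoImplicit false
set_option linter.unusedSectionVars false
set_option linter.unusedVariables false
open Finset

namespace Crest.Agent.S0453Lib

theorem threeRowLemma : ThreeRowLemma := by
  intro ι _ _ r k f
  set Ω := tabs r k with hΩ
  rcases Ω.eq_empty_or_nonempty with hemp | hne
  · rw [hemp]; simp
  set g : (Fin 3 → Finset ι) → ℝ := fun S => f S - avg Ω f with hg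
  have hg0 : ∑ S ∈ Ω, g S = 0 := sum_sub_avg hne f
  -- the operator
  set T : ((Fin 3 → Finset ι) → ℝ) → ((Fin 3 → Finset ι) → ℝ) :=
    fun h S => ∑ m : Fin 3, cexp Ω (· m) h S with hT
  have hTdev : ∀ h S, T h S = 3 * h S - ∑ m : Fin 3, dev Ω (· m) h S := by
    intro h S
    simp only [hT, dev, Fin.sum_univ_three]
    ring
  have hbound := eigBound Ω T 2
    (by
      intro u v huv S hS
      rw [hTdev, hTdev, huv S hS]
      congr 1
      exact sum_congr rfl fun m _ => dev_congr huv hS)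
    (by
      intro u v S _
      rw [hTdev, hTdev, hTdev]
      simp only [dev_add, sum_add_distrib, Pi.add_apply]
      ring)
    (by
      intro c u S _
      rw [hTdev, hTdev]
      simp only [dev_smul, Pi.smul_apply, smul_eq_mul, ← mul_sum]
      ring)
    (by
      intro u v
      simp only [hTdev, sub_mul, mul_sub, sum_sub_distrib]
      congr 1
      · exact sum_congr rfl fun S _ => by ring
      · simp only [sum_mul, mul_sum]
        rw [sum_comm]
        conv_rhs => rw [sum_comm]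
        refine sum_congr rfl fun m _ => ?_
        exact sum_dev_symm Ω (· m) u v)
    (by
      intro h μ hμ hh S hS S' hS'
      refine eig_const (r := r) (k := k) hμ ?_ S hS S' hS'
      intro S₁ hS₁
      exact hh S₁ hS₁)
    g hg0
  -- rewrite in terms of `dev`
  have hdev : ∀ m : Fin 3, ∀ S ∈ Ω, dev Ω (· m) f S = dev Ω (· m) g S := by
    intro m S hS
    have h0 := dev_sub_const (S := Ω) (fun x : Fin 3 → Finset ι => x m) f (avg Ω f) hS
    exact h0.symm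
  have hsq : ∀ m : Fin 3, ∑ S ∈ Ω, dev Ω (· m) g S ^ 2 = ∑ S ∈ Ω, g S * dev Ω (· m) g S := by
    intro m
    exact (sum_mul_dev_self Ω (· m) g).symm
  set a0 := dev Ω (· 0) g with ha0
  set a1 := dev Ω (· 1) g with ha1
  set a2 := dev Ω (· 2) g with ha2
  have hsum : ∑ S ∈ Ω, (dev Ω (· 0) f S * dev Ω (· 1) f S + dev Ω (· 0) f S * dev Ω (· 2) f S
        + dev Ω (· 1) f S * dev Ω (· 2) f S)
      = ∑ S ∈ Ω, (a0 S * a1 S + a0 S * a2 S + a1 S * a2 S) :=
    sum_congr rfl fun S hS => by rw [hdev 0 S hS, hdev 1 S hS, hdev 2 S hS]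
  rw [hsum]
  -- `hbound` becomes `Σ g² ≤ Σ g w`
  have h1 : ∑ S ∈ Ω, g S * T g S
      = 3 * ∑ S ∈ Ω, g S ^ 2 - ∑ S ∈ Ω, g S * (a0 S + a1 S + a2 S) := by
    rw [mul_sum, ← sum_sub_distrib]
    refine sum_congr rfl fun S _ => ?_
    rw [hTdev, Fin.sum_univ_three]
    ring
  rw [h1] at hbound
  have h2 : ∑ S ∈ Ω, g S * (a0 S + a1 S + a2 S)
      = ∑ S ∈ Ω, a0 S ^ 2 + ∑ S ∈ Ω, a1 S ^ 2 + ∑ S ∈ Ω, a2 S ^ 2 := by
    rw [hsq 0, hsq 1, hsq 2, ← sum_add_distrib, ← sum_add_distrib]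
    exact sum_congr rfl fun S _ => by ring
  have h3 : 2 * ∑ S ∈ Ω, (a0 S * a1 S + a0 S * a2 S + a1 S * a2 S)
      = ∑ S ∈ Ω, ((a0 S + a1 S + a2 S) - g S) ^ 2
        + (∑ S ∈ Ω, g S * (a0 S + a1 S + a2 S) - ∑ S ∈ Ω, g S ^ 2) := by
    have h4 : ∑ S ∈ Ω, ((a0 S + a1 S + a2 S) - g S) ^ 2
        = ∑ S ∈ Ω, (a0 S + a1 S + a2 S) ^ 2 - 2 * ∑ S ∈ Ω, g S * (a0 S + a1 S + a2 S)
          + ∑ S ∈ Ω, g S ^ 2 := by
      rw [mul_sum, ← sum_sub_distrib, ← sum_add_distrib]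
      exact sum_congr rfl fun S _ => by ring
    have h5 : ∑ S ∈ Ω, (a0 S + a1 S + a2 S) ^ 2
        = 2 * ∑ S ∈ Ω, (a0 S * a1 S + a0 S * a2 S + a1 S * a2 S)
          + (∑ S ∈ Ω, a0 S ^ 2 + ∑ S ∈ Ω, a1 S ^ 2 + ∑ S ∈ Ω, a2 S ^ 2) := by
      rw [mul_sum, ← sum_add_distrib, ← sum_add_distrib, ← sum_add_distrib]
      exact sum_congr rfl fun S _ => by ring
    rw [h4, h5, h2]
    ring
  have h6 : 0 ≤ ∑ S ∈ Ω, ((a0 S + a1 S + a2 S) - g S) ^ 2 :=
    sum_nonneg fun S _ => sq_nonneg _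
  linarith

end Crest.Agent.S0453Lib
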