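/-
S0453 WP W5: the two-block cross-term inequality (`TwoBlockCross`, `TwoBlockRect`).
-/
import Crest.Agent.S0453Lib.Spec

set_option autoImplicit false
set_option linter.unusedSectionVars false
open Finset

namespace Crest.Agent.S0453Lib

namespace TwoBlockAux

variable {α 𝒳 𝒵 : Type} [DecidableEq α] [DecidableEq 𝒳] [DecidableEq 𝒵]

lemma sum_eq_card_mul_avg (s : Finset α) (f : α → ℝ) : ∑ x ∈ s, f x = s.card * avg s f := by
  unfold avg
  by_cases h : s.card = 0
  · have h' : s = ∅ := Finset.card_eq_zero.mp h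
    simp [h']
  · have h' : (s.card : ℝ) ≠ 0 := by exact_mod_cast h
    field_simp

/-- sums over a set with constant cell multiplicities factor. -/
lemma sum_table (W : Finset α) (A : α → 𝒳) (C : α → 𝒵) (X : Finset 𝒳) (Z : Finset 𝒵) (m : ℕ)
    (hA : ∀ x ∈ W, A x ∈ X) (hC : ∀ x ∈ W, C x ∈ Z)
    (hcount : ∀ i ∈ X, ∀ j ∈ Z, (W.filter fun z => A z = i ∧ C z = j).card = m)
    (φ : 𝒳 → ℝ) (ψ : 𝒵 → ℝ) :
    ∑ x ∈ W, φ (A x) * ψ (C x) = m * (∑ i ∈ X, φ i) * (∑ j ∈ Z, ψ j) := by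
  have h1 : ∑ x ∈ W, φ (A x) * ψ (C x)
      = ∑ i ∈ X, ∑ j ∈ Z, ∑ x ∈ W.filter (fun z => A z = i ∧ C z = j), φ (A x) * ψ (C x) := by
    rw [← Finset.sum_fiberwise_of_maps_to hA]
    refine Finset.sum_congr rfl fun i _ => ?_
    rw [← Finset.sum_fiberwise_of_maps_to (s := W.filter (fun x => A x = i)) (t := Z) (g := C)
      (fun x hx => hC x (Finset.mem_of_mem_filter x hx))]
    refine Finset.sum_congr rfl fun j _ => ?_
    rw [Finset.filter_filter]
  rw [h1, mul_assoc, Finset.sum_mul_sum, Finset.mul_sum]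
  refine Finset.sum_congr rfl fun i hi => ?_
  rw [Finset.mul_sum]
  refine Finset.sum_congr rfl fun j hj => ?_
  have h2 : ∀ x ∈ W.filter (fun z => A z = i ∧ C z = j), φ (A x) * ψ (C x) = φ i * ψ j := by
    intro x hx
    obtain ⟨_, h3, h4⟩ := Finset.mem_filter.mp hx
    rw [h3, h4]
  rw [Finset.sum_congr rfl h2, Finset.sum_const, hcount i hi j hj, nsmul_eq_mul]

/-- values of `A` on the `τ`-part -/
def hi (S : Finset α) (A : α → 𝒳) (τ : α → Prop) [DecidablePred τ] : Finset 𝒳 :=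
  (S.filter τ).image A

/-- values of `A` on the non-`τ` part -/
def lo (S : Finset α) (A : α → 𝒳) (τ : α → Prop) [DecidablePred τ] : Finset 𝒳 :=
  (S.filter fun x => ¬ τ x).image A

/-- Hypotheses of the two-block lemma. -/
structure Table (S : Finset α) (A : α → 𝒳) (C : α → 𝒵) (τa τc : α → Prop)
    [DecidablePred τa] [DecidablePred τc] : Prop where
  ha : ∀ x ∈ S, ∀ y ∈ S, A x = A y → (τa x ↔ τa y)
  hc : ∀ x ∈ S, ∀ y ∈ S, C x = C y → (τc x ↔ τc y)
  hn : ∀ x ∈ S, ∀ y ∈ S, ((S.filter fun z => A z = A x ∧ C z = C y).card : ℕ)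
        = (if τa x then 1 else 0) + (if τc y then 1 else 0)

variable {S : Finset α} {A : α → 𝒳} {C : α → 𝒵} {τa τc : α → Prop}
  [DecidablePred τa] [DecidablePred τc]

lemma Table.swap (T : Table S A C τa τc) : Table S C A τc τa where
  ha := T.hc
  hc := T.ha
  hn := by
    intro x hx y hy
    have := T.hn y hy x hx
    rw [add_comm, ← this]
    congr 1
    ext z
    simp [and_comm]

lemma Table.no00 (T : Table S A C τa τc) {x : α} (hx : x ∈ S) : τa x ∨ τc x := by
  by_contra h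
  rw [not_or] at h
  have h1 := T.hn x hx x hx
  rw [if_neg h.1, if_neg h.2] at h1
  have h2 : x ∈ S.filter fun z => A z = A x ∧ C z = C x := by simp [hx]
  have h3 : (S.filter fun z => A z = A x ∧ C z = C x).card = 0 := h1
  rw [Finset.card_eq_zero] at h3
  rw [h3] at h2
  simp at h2

lemma mem_hi {τ : α → Prop} [DecidablePred τ] {i : 𝒳} :
    i ∈ hi S A τ ↔ ∃ x ∈ S, τ x ∧ A x = i := by
  simp [hi, Finset.mem_image, Finset.mem_filter, and_assoc]

lemma mem_lo {τ : α → Prop} [DecidablePred τ] {i : 𝒳} :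
    i ∈ lo S A τ ↔ ∃ x ∈ S, ¬ τ x ∧ A x = i := by
  simp [lo, Finset.mem_image, Finset.mem_filter, and_assoc]

/-- a point of `S` with `A`-value in `hi` has `τa`. -/
lemma Table.tau_of_hi (T : Table S A C τa τc) {x : α} (hx : x ∈ S) (h : A x ∈ hi S A τa) :
    τa x := by
  obtain ⟨y, hy, hty, hxy⟩ := mem_hi.mp h
  exact (T.ha y hy x hx hxy).mp hty

lemma Table.ntau_of_lo (T : Table S A C τa τc) {x : α} (hx : x ∈ S) (h : A x ∈ lo S A τa) :
    ¬ τa x := by
  obtain ⟨y, hy, hty, hxy⟩ := mem_lo.mp h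
  exact fun h' => hty ((T.ha y hy x hx hxy).mpr h')

lemma Table.not_mem_lo_of_hi (T : Table S A C τa τc) {i : 𝒳} (h : i ∈ hi S A τa) :
    i ∉ lo S A τa := by
  intro h'
  obtain ⟨y, hy, hty, hxy⟩ := mem_hi.mp h
  obtain ⟨y', hy', hty', hxy'⟩ := mem_lo.mp h'
  exact hty' ((T.ha y hy y' hy' (hxy.trans hxy'.symm)).mp hty)

/-- cells -/
lemma Table.cell (T : Table S A C τa τc) {x y : α} (hx : x ∈ S) (hy : y ∈ S) :
    ((S.filter fun z => A z = A x ∧ C z = C y).card : ℕ)
      = (if τa x then 1 else 0) + (if τc y then 1 else 0) := T.hn x hx y hy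

/-- the three parts -/
abbrev S11 (S : Finset α) (τa τc : α → Prop) [DecidablePred τa] [DecidablePred τc] : Finset α :=
  S.filter fun x => τa x ∧ τc x
abbrev S10 (S : Finset α) (τa τc : α → Prop) [DecidablePred τa] [DecidablePred τc] : Finset α :=
  S.filter fun x => τa x ∧ ¬ τc x
abbrev S01 (S : Finset α) (τa τc : α → Prop) [DecidablePred τa] [DecidablePred τc] : Finset α :=
  S.filter fun x => ¬ τa x ∧ τc x

lemma Table.sum_partition (T : Table S A C τa τc) (h : α → ℝ) :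
    ∑ x ∈ S, h x = ∑ x ∈ S11 S τa τc, h x + ∑ x ∈ S10 S τa τc, h x + ∑ x ∈ S01 S τa τc, h x := by
  have h1 : ∑ x ∈ S, h x = ∑ x ∈ S.filter τa, h x + ∑ x ∈ S.filter (fun x => ¬ τa x), h x :=
    (Finset.sum_filter_add_sum_filter_not S τa h).symm
  have h2 : ∑ x ∈ S.filter τa, h x = ∑ x ∈ S11 S τa τc, h x + ∑ x ∈ S10 S τa τc, h x := by
    rw [← Finset.sum_filter_add_sum_filter_not (S.filter τa) τc h, Finset.filter_filter,
      Finset.filter_filter]
  have h3 : S.filter (fun x => ¬ τa x) = S01 S τa τc := by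
    ext x
    simp only [Finset.mem_filter]
    constructor
    · rintro ⟨hx, hn⟩
      exact ⟨hx, hn, (T.no00 hx).resolve_left hn⟩
    · rintro ⟨hx, hn, _⟩
      exact ⟨hx, hn⟩
  rw [h1, h2, h3]

lemma Table.filter_a (T : Table S A C τa τc) (h : α → ℝ) :
    ∑ x ∈ S.filter τa, h x = ∑ x ∈ S11 S τa τc, h x + ∑ x ∈ S10 S τa τc, h x := by
  rw [← Finset.sum_filter_add_sum_filter_not (S.filter τa) τc h, Finset.filter_filter,
      Finset.filter_filter]

lemma Table.filter_na (T : Table S A C τa τc) (h : α → ℝ) :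
    ∑ x ∈ S.filter (fun x => ¬ τa x), h x = ∑ x ∈ S01 S τa τc, h x := by
  have h3 : S.filter (fun x => ¬ τa x) = S01 S τa τc := by
    ext x
    simp only [Finset.mem_filter]
    constructor
    · rintro ⟨hx, hn⟩
      exact ⟨hx, hn, (T.no00 hx).resolve_left hn⟩
    · rintro ⟨hx, hn, _⟩
      exact ⟨hx, hn⟩
  rw [h3]

lemma Table.filter_c (T : Table S A C τa τc) (h : α → ℝ) :
    ∑ x ∈ S.filter τc, h x = ∑ x ∈ S11 S τa τc, h x + ∑ x ∈ S01 S τa τc, h x := by
  rw [← Finset.sum_filter_add_sum_filter_not (S.filter τc) τa h, Finset.filter_filter,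
      Finset.filter_filter]
  congr 1
  · refine Finset.sum_congr ?_ fun _ _ => rfl
    ext x; simp [and_comm]
  · refine Finset.sum_congr ?_ fun _ _ => rfl
    ext x; simp [and_comm]

lemma Table.filter_nc (T : Table S A C τa τc) (h : α → ℝ) :
    ∑ x ∈ S.filter (fun x => ¬ τc x), h x = ∑ x ∈ S10 S τa τc, h x := by
  have h3 : S.filter (fun x => ¬ τc x) = S10 S τa τc := by
    ext x
    simp only [Finset.mem_filter]
    constructor
    · rintro ⟨hx, hn⟩
      exact ⟨hx, (T.no00 hx).resolve_right hn, hn⟩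
    · rintro ⟨hx, _, hn⟩
      exact ⟨hx, hn⟩
  rw [h3]

lemma Table.sum11 (T : Table S A C τa τc) (φ : 𝒳 → ℝ) (ψ : 𝒵 → ℝ) :
    ∑ x ∈ S11 S τa τc, φ (A x) * ψ (C x)
      = 2 * (∑ i ∈ hi S A τa, φ i) * (∑ j ∈ hi S C τc, ψ j) := by
  have := sum_table (S11 S τa τc) A C (hi S A τa) (hi S C τc) 2
    (fun x hx => by
      obtain ⟨hx1, hx2, _⟩ := Finset.mem_filter.mp hx
      exact mem_hi.mpr ⟨x, hx1, hx2, rfl⟩)
    (fun x hx => by
      obtain ⟨hx1, _, hx3⟩ := Finset.mem_filter.mp hx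
      exact mem_hi.mpr ⟨x, hx1, hx3, rfl⟩)
    (fun i hi' j hj' => by
      obtain ⟨x, hx, htx, rfl⟩ := mem_hi.mp hi'
      obtain ⟨y, hy, hty, rfl⟩ := mem_hi.mp hj'
      have h1 := T.hn x hx y hy
      rw [if_pos htx, if_pos hty] at h1
      rw [← show (1 + 1 : ℕ) = 2 from rfl, ← h1]
      congr 1
      ext z
      simp only [Finset.mem_filter]
      constructor
      · rintro ⟨⟨hz, _⟩, hz2⟩
        exact ⟨hz, hz2⟩
      · rintro ⟨hz, hz1, hz2⟩
        exact ⟨⟨hz, (T.ha x hx z hz hz1.symm).mp htx, (T.hc y hy z hz hz2.symm).mp hty⟩, hz1, hz2⟩)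
    φ ψ
  simpa using this

lemma Table.sum10 (T : Table S A C τa τc) (φ : 𝒳 → ℝ) (ψ : 𝒵 → ℝ) :
    ∑ x ∈ S10 S τa τc, φ (A x) * ψ (C x)
      = (∑ i ∈ hi S A τa, φ i) * (∑ j ∈ lo S C τc, ψ j) := by
  have := sum_table (S10 S τa τc) A C (hi S A τa) (lo S C τc) 1
    (fun x hx => by
      obtain ⟨hx1, hx2, _⟩ := Finset.mem_filter.mp hx
      exact mem_hi.mpr ⟨x, hx1, hx2, rfl⟩)
    (fun x hx => by
      obtain ⟨hx1, _, hx3⟩ := Finset.mem_filter.mp hx
      exact mem_lo.mpr ⟨x, hx1, hx3, rfl⟩)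
    (fun i hi' j hj' => by
      obtain ⟨x, hx, htx, rfl⟩ := mem_hi.mp hi'
      obtain ⟨y, hy, hty, rfl⟩ := mem_lo.mp hj'
      have h1 := T.hn x hx y hy
      rw [if_pos htx, if_neg hty] at h1
      rw [← show (1 + 0 : ℕ) = 1 from rfl, ← h1]
      congr 1
      ext z
      simp only [Finset.mem_filter]
      constructor
      · rintro ⟨⟨hz, _⟩, hz2⟩
        exact ⟨hz, hz2⟩
      · rintro ⟨hz, hz1, hz2⟩
        exact ⟨⟨hz, (T.ha x hx z hz hz1.symm).mp htx,
          fun h' => hty ((T.hc y hy z hz hz2.symm).mpr h')⟩, hz1, hz2⟩)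
    φ ψ
  simpa using this

lemma Table.sum01 (T : Table S A C τa τc) (φ : 𝒳 → ℝ) (ψ : 𝒵 → ℝ) :
    ∑ x ∈ S01 S τa τc, φ (A x) * ψ (C x)
      = (∑ i ∈ lo S A τa, φ i) * (∑ j ∈ hi S C τc, ψ j) := by
  have := sum_table (S01 S τa τc) A C (lo S A τa) (hi S C τc) 1
    (fun x hx => by
      obtain ⟨hx1, hx2, _⟩ := Finset.mem_filter.mp hx
      exact mem_lo.mpr ⟨x, hx1, hx2, rfl⟩)
    (fun x hx => by
      obtain ⟨hx1, _, hx3⟩ := Finset.mem_filter.mp hx
      exact mem_hi.mpr ⟨x, hx1, hx3, rfl⟩)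
    (fun i hi' j hj' => by
      obtain ⟨x, hx, htx, rfl⟩ := mem_lo.mp hi'
      obtain ⟨y, hy, hty, rfl⟩ := mem_hi.mp hj'
      have h1 := T.hn x hx y hy
      rw [if_neg htx, if_pos hty] at h1
      rw [← show (0 + 1 : ℕ) = 1 from rfl, ← h1]
      congr 1
      ext z
      simp only [Finset.mem_filter]
      constructor
      · rintro ⟨⟨hz, _⟩, hz2⟩
        exact ⟨hz, hz2⟩
      · rintro ⟨hz, hz1, hz2⟩
        exact ⟨⟨hz, fun h' => htx ((T.ha x hx z hz hz1.symm).mpr h'),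
          (T.hc y hy z hz hz2.symm).mp hty⟩, hz1, hz2⟩)
    φ ψ
  simpa using this

/-- the average of `f` on an `A`-fibre -/
noncomputable def bar (S : Finset α) (A : α → 𝒳) (f : α → ℝ) (i : 𝒳) : ℝ :=
  avg (S.filter fun z => A z = i) f

lemma cexp_eq_bar (S : Finset α) (A : α → 𝒳) (f : α → ℝ) (x : α) :
    cexp S A f x = bar S A f (A x) := rfl

lemma dev_eq_bar (S : Finset α) (A : α → 𝒳) (f : α → ℝ) (x : α) :
    dev S A f x = f x - bar S A f (A x) := rfl

/-- orthogonality: `dev` is orthogonal to functions of the key. -/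
lemma sum_dev_mul (S : Finset α) (A : α → 𝒳) (f : α → ℝ) (φ : 𝒳 → ℝ) :
    ∑ x ∈ S, dev S A f x * φ (A x) = 0 := by
  rw [← Finset.sum_fiberwise_of_maps_to (t := S.image A) (g := A)
    (fun x hx => Finset.mem_image_of_mem A hx)]
  refine Finset.sum_eq_zero fun i _ => ?_
  have h2 : ∀ x ∈ S.filter (fun z => A z = i), dev S A f x * φ (A x)
      = (f x - bar S A f i) * φ i := by
    intro x hx
    have := (Finset.mem_filter.mp hx).2
    rw [dev_eq_bar, this]
  rw [Finset.sum_congr rfl h2, ← Finset.sum_mul, Finset.sum_sub_distrib, Finset.sum_const,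
    sum_eq_card_mul_avg (S.filter fun z => A z = i) f, nsmul_eq_mul]
  simp [bar]

/-- number of points on an `A`-fibre, `i` in `hi`. -/
lemma card_filter_eq_sum (A : α → 𝒳) (S : Finset α) (i : 𝒳) :
    (((S.filter fun z => A z = i).card : ℕ) : ℝ) = ∑ x ∈ S, (if A x = i then (1 : ℝ) else 0) * 1 := by
  rw [Finset.card_filter]
  push_cast
  simp

lemma Table.card_fib_hi (T : Table S A C τa τc) {i : 𝒳} (hi' : i ∈ hi S A τa) :
    (((S.filter fun z => A z = i).card : ℕ) : ℝ)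
      = 2 * ((hi S C τc).card : ℝ) + ((lo S C τc).card : ℝ) := by
  have h11 := T.sum11 (fun i' => if i' = i then (1 : ℝ) else 0) (fun _ => 1)
  have h10 := T.sum10 (fun i' => if i' = i then (1 : ℝ) else 0) (fun _ => 1)
  have h01 := T.sum01 (fun i' => if i' = i then (1 : ℝ) else 0) (fun _ => 1)
  beta_reduce at h11 h10 h01
  rw [card_filter_eq_sum, T.sum_partition, h11, h10, h01]
  have h2 : i ∉ lo S A τa := T.not_mem_lo_of_hi hi'
  simp [Finset.sum_ite_eq', hi', h2]

lemma Table.card_fib_lo (T : Table S A C τa τc) {i : 𝒳} (hi' : i ∈ lo S A τa) :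
    (((S.filter fun z => A z = i).card : ℕ) : ℝ) = ((hi S C τc).card : ℝ) := by
  have h11 := T.sum11 (fun i' => if i' = i then (1 : ℝ) else 0) (fun _ => 1)
  have h10 := T.sum10 (fun i' => if i' = i then (1 : ℝ) else 0) (fun _ => 1)
  have h01 := T.sum01 (fun i' => if i' = i then (1 : ℝ) else 0) (fun _ => 1)
  beta_reduce at h11 h10 h01
  rw [card_filter_eq_sum, T.sum_partition, h11, h10, h01]
  have h2 : i ∉ hi S A τa := fun h => T.not_mem_lo_of_hi h hi'
  simp [Finset.sum_ite_eq', hi', h2]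

/-- sum of `f` on the `τa`-part through the fibres -/
lemma Table.sum_f_hi (T : Table S A C τa τc) (f : α → ℝ) :
    ∑ x ∈ S.filter τa, f x
      = (2 * ((hi S C τc).card : ℝ) + ((lo S C τc).card : ℝ)) * ∑ i ∈ hi S A τa, bar S A f i := by
  rw [← Finset.sum_fiberwise_of_maps_to (t := hi S A τa) (g := A)
    (fun x hx => Finset.mem_image_of_mem A hx), Finset.mul_sum]
  refine Finset.sum_congr rfl fun i hi' => ?_
  have h1 : (S.filter τa).filter (fun z => A z = i) = S.filter fun z => A z = i := by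
    ext z
    simp only [Finset.mem_filter]
    constructor
    · rintro ⟨⟨hz, _⟩, hz2⟩
      exact ⟨hz, hz2⟩
    · rintro ⟨hz, hz2⟩
      refine ⟨⟨hz, T.tau_of_hi hz (by rw [hz2]; exact hi')⟩, hz2⟩
  rw [h1, sum_eq_card_mul_avg, T.card_fib_hi hi']
  rfl

lemma Table.sum_f_lo (T : Table S A C τa τc) (f : α → ℝ) :
    ∑ x ∈ S.filter (fun x => ¬ τa x), f x
      = ((hi S C τc).card : ℝ) * ∑ i ∈ lo S A τa, bar S A f i := by
  rw [← Finset.sum_fiberwise_of_maps_to (t := lo S A τa) (g := A)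
    (fun x hx => Finset.mem_image_of_mem A hx), Finset.mul_sum]
  refine Finset.sum_congr rfl fun i hi' => ?_
  have h1 : (S.filter (fun x => ¬ τa x)).filter (fun z => A z = i) = S.filter fun z => A z = i := by
    ext z
    simp only [Finset.mem_filter]
    constructor
    · rintro ⟨⟨hz, _⟩, hz2⟩
      exact ⟨hz, hz2⟩
    · rintro ⟨hz, hz2⟩
      refine ⟨⟨hz, T.ntau_of_lo hz (by rw [hz2]; exact hi')⟩, hz2⟩
  rw [h1, sum_eq_card_mul_avg, T.card_fib_lo hi']
  rfl

/-- sum of a function of the key over the `τa`-part -/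
lemma Table.sum_hi_key (T : Table S A C τa τc) (H : 𝒳 → ℝ) :
    ∑ x ∈ S.filter τa, H (A x)
      = (2 * ((hi S C τc).card : ℝ) + ((lo S C τc).card : ℝ)) * ∑ i ∈ hi S A τa, H i := by
  rw [← Finset.sum_fiberwise_of_maps_to (t := hi S A τa) (g := A)
    (fun x hx => Finset.mem_image_of_mem A hx), Finset.mul_sum]
  refine Finset.sum_congr rfl fun i hi' => ?_
  have h1 : (S.filter τa).filter (fun z => A z = i) = S.filter fun z => A z = i := by
    ext z
    simp only [Finset.mem_filter]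
    constructor
    · rintro ⟨⟨hz, _⟩, hz2⟩
      exact ⟨hz, hz2⟩
    · rintro ⟨hz, hz2⟩
      refine ⟨⟨hz, T.tau_of_hi hz (by rw [hz2]; exact hi')⟩, hz2⟩
  rw [h1]
  have h2 : ∀ x ∈ S.filter (fun z => A z = i), H (A x) = H i :=
    fun x hx => by rw [(Finset.mem_filter.mp hx).2]
  rw [Finset.sum_congr rfl h2, Finset.sum_const, nsmul_eq_mul, T.card_fib_hi hi']

/-- the `τa`-points of a `C`-fibre over `hi` are points of `S11`. -/
lemma Table.fib_tau (T : Table S A C τa τc) {j : 𝒵} (hj : j ∈ hi S C τc) :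
    (S.filter fun z => C z = j).filter τa = (S11 S τa τc).filter fun z => C z = j := by
  ext z
  simp only [Finset.mem_filter]
  constructor
  · rintro ⟨⟨hz, hz1⟩, hz2⟩
    exact ⟨⟨hz, hz2, T.swap.tau_of_hi hz (by rw [hz1]; exact hj)⟩, hz1⟩
  · rintro ⟨⟨hz, hz1, _⟩, hz2⟩
    exact ⟨⟨hz, hz2⟩, hz1⟩

/-- the number of `S11`-points on a `C`-fibre -/
lemma Table.card_fib_tau (T : Table S A C τa τc) {j : 𝒵} (hj : j ∈ hi S C τc) :
    ((((S11 S τa τc).filter fun z => C z = j).card : ℕ) : ℝ) = 2 * ((hi S A τa).card : ℝ) := by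
  have h := T.sum11 (fun _ => (1 : ℝ)) (fun j' => if j' = j then (1 : ℝ) else 0)
  beta_reduce at h
  have h2 : ((((S11 S τa τc).filter fun z => C z = j).card : ℕ) : ℝ)
      = ∑ x ∈ S11 S τa τc, 1 * (if C x = j then (1 : ℝ) else 0) := by
    rw [Finset.card_filter]
    push_cast
    simp
  rw [h2, h]
  simp [Finset.sum_ite_eq', hj]

lemma avg_indicator_nonneg (s : Finset α) (τ : α → Prop) [DecidablePred τ] :
    0 ≤ avg s (fun y => if τ y then (1 : ℝ) else 0) := by
  unfold avg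
  refine div_nonneg (Finset.sum_nonneg fun x _ => ?_) (Nat.cast_nonneg _)
  split_ifs <;> norm_num

lemma Table.psi_nonneg (S : Finset α) (C : α → 𝒵) (τa τc : α → Prop)
    [DecidablePred τa] [DecidablePred τc] (f : α → ℝ) :
    0 ≤ ∑ x ∈ S, (if τc x then
            cov (fib S C x) f (fun y => if τa y then (1 : ℝ) else 0) ^ 2
              / avg (fib S C x) (fun y => if τa y then (1 : ℝ) else 0) else 0) := by
  refine Finset.sum_nonneg fun x _ => ?_
  split_ifs
  · exact div_nonneg (sq_nonneg _) (avg_indicator_nonneg _ _)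
  · exact le_rfl

/-- The key estimate on `Ψ₁`. -/
lemma Table.psi_bound (T : Table S A C τa τc) (f : α → ℝ) :
    (∑ x ∈ S11 S τa τc, f x - 2 * ((hi S A τa).card : ℝ) * ∑ j ∈ hi S C τc, bar S C f j) ^ 2
      ≤ 2 * ((hi S A τa).card : ℝ) * ((hi S C τc).card : ℝ) *
        ∑ x ∈ S, (if τc x then
            cov (fib S C x) f (fun y => if τa y then (1 : ℝ) else 0) ^ 2
              / avg (fib S C x) (fun y => if τa y then (1 : ℝ) else 0) else 0) := by
  set p : ℝ := ((hi S A τa).card : ℝ) with hp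
  set p0 : ℝ := ((lo S A τa).card : ℝ) with hp0
  set q : ℝ := ((hi S C τc).card : ℝ) with hq
  have hp_nn : 0 ≤ p := Nat.cast_nonneg _
  have hp0_nn : 0 ≤ p0 := Nat.cast_nonneg _
  have hq_nn : 0 ≤ q := Nat.cast_nonneg _
  by_cases hp_zero : p = 0
  · -- no `τa` at all
    have h1 : ∑ x ∈ S11 S τa τc, f x = 0 := by
      refine Finset.sum_eq_zero fun x hx => ?_
      exfalso
      obtain ⟨hx1, hx2, _⟩ := Finset.mem_filter.mp hx
      have : (hi S A τa).card = 0 := Nat.cast_eq_zero.mp hp_zero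
      rw [Finset.card_eq_zero] at this
      have h3 : A x ∈ hi S A τa := mem_hi.mpr ⟨x, hx1, hx2, rfl⟩
      rw [this] at h3
      simp at h3
    rw [h1, hp_zero]
    simp
  have hp_pos : 0 < p := lt_of_le_of_ne hp_nn (Ne.symm hp_zero)
  have hl_pos : 0 < 2 * p + p0 := by linarith
  -- the values of the fibre terms
  set H : 𝒵 → ℝ := fun j => cov (S.filter fun z => C z = j) f (fun y => if τa y then (1 : ℝ) else 0) ^ 2
      / avg (S.filter fun z => C z = j) (fun y => if τa y then (1 : ℝ) else 0) with hH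
  set W : 𝒵 → ℝ := fun j => ∑ z ∈ (S11 S τa τc).filter (fun z => C z = j), f z with hW
  have hPsi : ∑ x ∈ S, (if τc x then
            cov (fib S C x) f (fun y => if τa y then (1 : ℝ) else 0) ^ 2
              / avg (fib S C x) (fun y => if τa y then (1 : ℝ) else 0) else 0)
      = (2 * p + p0) * ∑ j ∈ hi S C τc, H j := by
    rw [← T.swap.sum_hi_key H, Finset.sum_filter]
    rfl
  have hterm : ∀ j ∈ hi S C τc, 2 * p * ((2 * p + p0) * H j) = (W j - 2 * p * bar S C f j) ^ 2 := by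
    intro j hj
    set φ := S.filter fun z => C z = j with hφ
    have hcard : ((φ.card : ℕ) : ℝ) = 2 * p + p0 := T.swap.card_fib_hi hj
    have hft := T.fib_tau hj
    have hs1 : ∑ z ∈ φ, (if τa z then (1 : ℝ) else 0) = 2 * p := by
      have h1 : ∑ z ∈ φ, (if τa z then (1 : ℝ) else 0) = ((φ.filter τa).card : ℝ) := by
        rw [Finset.card_filter]
        push_cast
        rfl
      rw [h1, hft, T.card_fib_tau hj]
    have hs2 : ∑ z ∈ φ, f z * (if τa z then (1 : ℝ) else 0) = W j := by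
      have h1 : ∑ z ∈ φ, f z * (if τa z then (1 : ℝ) else 0) = ∑ z ∈ φ.filter τa, f z := by
        rw [Finset.sum_filter τa f]
        refine Finset.sum_congr rfl fun z _ => ?_
        split_ifs <;> simp
      rw [h1, hft]
    have hav1 : avg φ (fun y => if τa y then (1 : ℝ) else 0) = 2 * p / (2 * p + p0) := by
      unfold avg
      rw [hs1, hcard]
    have hav2 : avg φ (fun x => f x * (if τa x then (1 : ℝ) else 0)) = W j / (2 * p + p0) := by
      unfold avg
      rw [hs2, hcard]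
    have hcov : cov φ f (fun y => if τa y then (1 : ℝ) else 0)
        = (W j - 2 * p * bar S C f j) / (2 * p + p0) := by
      unfold cov
      rw [hav1, hav2]
      change W j / (2 * p + p0) - bar S C f j * (2 * p / (2 * p + p0)) = _
      field_simp
    have hHj : H j = ((W j - 2 * p * bar S C f j) / (2 * p + p0)) ^ 2 / (2 * p / (2 * p + p0)) := by
      change cov φ f (fun y => if τa y then (1 : ℝ) else 0) ^ 2
        / avg φ (fun y => if τa y then (1 : ℝ) else 0) = _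
      rw [hcov, hav1]
    rw [hHj]
    field_simp
  -- Cauchy--Schwarz
  have hsumW : ∑ j ∈ hi S C τc, W j = ∑ x ∈ S11 S τa τc, f x := by
    refine Finset.sum_fiberwise_of_maps_to (fun x hx => ?_) f
    obtain ⟨hx1, _, hx3⟩ := Finset.mem_filter.mp hx
    exact mem_hi.mpr ⟨x, hx1, hx3, rfl⟩
  have hCS := sq_sum_le_card_mul_sum_sq (s := hi S C τc) (f := fun j => W j - 2 * p * bar S C f j)
  have hsum1 : ∑ j ∈ hi S C τc, (W j - 2 * p * bar S C f j)
      = ∑ x ∈ S11 S τa τc, f x - 2 * p * ∑ j ∈ hi S C τc, bar S C f j := by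
    rw [Finset.sum_sub_distrib, hsumW, Finset.mul_sum]
  rw [hsum1] at hCS
  have hsum2 : ∑ j ∈ hi S C τc, (W j - 2 * p * bar S C f j) ^ 2
      = 2 * p * ((2 * p + p0) * ∑ j ∈ hi S C τc, H j) := by
    rw [← Finset.sum_congr rfl hterm, Finset.mul_sum, Finset.mul_sum]
  rw [hsum2] at hCS
  rw [hPsi]
  calc _ ≤ _ := hCS
    _ = _ := by ring

lemma sq_sub_le_aux (u v : ℝ) : (u - v) ^ 2 ≤ 2 * (u ^ 2 + v ^ 2) := by
  nlinarith [sq_nonneg (u + v)]

lemma alg_final_aux (w X Y Ψ₁ Ψ₂ R Δ : ℝ) (hw : 0 ≤ w) (h1 : w * Y ^ 2 ≤ Ψ₁) (h2 : w * X ^ 2 ≤ Ψ₂)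
    (h3 : Δ ≤ 2 * R) : (1 / 2 : ℝ) * Δ - (1 / 2 : ℝ) * (Ψ₁ + Ψ₂) ≤ R + w * X * Y := by
  nlinarith [mul_nonneg hw (sq_nonneg (X + Y))]

set_option maxHeartbeats 2000000 in
/-- The main inequality. -/
theorem Table.main (T : Table S A C τa τc) (f : α → ℝ) (D : Finset α) (ν : α → α)
    (hD : D ⊆ S)
    (hν : ∀ x ∈ D, τa x ∧ τc x ∧ ν x ∈ S ∧ ν x ∉ D ∧ A (ν x) = A x ∧ C (ν x) = C x) :
    (1 / 2 : ℝ) * ∑ x ∈ D, (f x - f (ν x)) ^ 2
      - (1 / 2 : ℝ) * (∑ x ∈ S, (if τc x then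
            cov (fib S C x) f (fun y => if τa y then 1 else 0) ^ 2
              / avg (fib S C x) (fun y => if τa y then 1 else 0) else 0)
          + ∑ x ∈ S, (if τa x then
            cov (fib S A x) f (fun y => if τc y then 1 else 0) ^ 2
              / avg (fib S A x) (fun y => if τc y then 1 else 0) else 0))
      ≤ ∑ x ∈ S, dev S C f x * dev S A f x := by
  set p : ℝ := ((hi S A τa).card : ℝ) with hp
  set p0 : ℝ := ((lo S A τa).card : ℝ) with hp0
  set q : ℝ := ((hi S C τc).card : ℝ) with hq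
  set q0 : ℝ := ((lo S C τc).card : ℝ) with hq0
  have hp_nn : 0 ≤ p := Nat.cast_nonneg _
  have hq_nn : 0 ≤ q := Nat.cast_nonneg _
  set a : 𝒳 → ℝ := bar S A f with ha
  set c : 𝒵 → ℝ := bar S C f with hc
  set SA : ℝ := ∑ i ∈ hi S A τa, a i with hSA
  set SA0 : ℝ := ∑ i ∈ lo S A τa, a i with hSA0
  set SC : ℝ := ∑ j ∈ hi S C τc, c j with hSC
  set SC0 : ℝ := ∑ j ∈ lo S C τc, c j with hSC0
  set F11 : ℝ := ∑ x ∈ S11 S τa τc, f x with hF11
  set F10 : ℝ := ∑ x ∈ S10 S τa τc, f x with hF10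
  set F01 : ℝ := ∑ x ∈ S01 S τa τc, f x with hF01
  have e1 : F11 + F10 = (2 * q + q0) * SA := (T.filter_a f).symm.trans (T.sum_f_hi f)
  have e2 : F01 = q * SA0 := (T.filter_na f).symm.trans (T.sum_f_lo f)
  have e3 : F11 + F01 = (2 * p + p0) * SC := (T.filter_c f).symm.trans (T.swap.sum_f_hi f)
  have e4 : F10 = p * SC0 := (T.filter_nc f).symm.trans (T.swap.sum_f_lo f)
  -- table sums
  have t11 : ∑ x ∈ S11 S τa τc, a (A x) * c (C x) = 2 * SA * SC := T.sum11 a c
  have t10 : ∑ x ∈ S10 S τa τc, a (A x) * c (C x) = SA * SC0 := T.sum10 a c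
  have t01 : ∑ x ∈ S01 S τa τc, a (A x) * c (C x) = SA0 * SC := T.sum01 a c
  have t11a : ∑ x ∈ S11 S τa τc, a (A x) = 2 * SA * q := by
    have h := T.sum11 a (fun _ => (1 : ℝ))
    simp only [mul_one, Finset.sum_const, nsmul_eq_mul] at h
    exact h
  have t10a : ∑ x ∈ S10 S τa τc, a (A x) = SA * q0 := by
    have h := T.sum10 a (fun _ => (1 : ℝ))
    simp only [mul_one, Finset.sum_const, nsmul_eq_mul] at h
    exact h
  have t01a : ∑ x ∈ S01 S τa τc, a (A x) = SA0 * q := by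
    have h := T.sum01 a (fun _ => (1 : ℝ))
    simp only [mul_one, Finset.sum_const, nsmul_eq_mul] at h
    exact h
  have t11c : ∑ x ∈ S11 S τa τc, c (C x) = 2 * p * SC := by
    have h := T.sum11 (fun _ => (1 : ℝ)) c
    simp only [one_mul, mul_one, Finset.sum_const, nsmul_eq_mul] at h
    exact h
  have t10c : ∑ x ∈ S10 S τa τc, c (C x) = p * SC0 := by
    have h := T.sum10 (fun _ => (1 : ℝ)) c
    simp only [one_mul, mul_one, Finset.sum_const, nsmul_eq_mul] at h
    exact h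
  have t01c : ∑ x ∈ S01 S τa τc, c (C x) = p0 * SC := by
    have h := T.sum01 (fun _ => (1 : ℝ)) c
    simp only [one_mul, mul_one, Finset.sum_const, nsmul_eq_mul] at h
    exact h
  have t11n : ((S11 S τa τc).card : ℝ) = 2 * p * q := by
    have h := T.sum11 (fun _ => (1 : ℝ)) (fun _ => (1 : ℝ))
    simp only [one_mul, mul_one, Finset.sum_const, nsmul_eq_mul] at h
    exact h
  have t10n : ((S10 S τa τc).card : ℝ) = p * q0 := by
    have h := T.sum10 (fun _ => (1 : ℝ)) (fun _ => (1 : ℝ))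
    simp only [one_mul, mul_one, Finset.sum_const, nsmul_eq_mul] at h
    exact h
  have t01n : ((S01 S τa τc).card : ℝ) = p0 * q := by
    have h := T.sum01 (fun _ => (1 : ℝ)) (fun _ => (1 : ℝ))
    simp only [one_mul, mul_one, Finset.sum_const, nsmul_eq_mul] at h
    exact h
  -- the numbers `E`, `G`, `g`
  obtain ⟨E, hE⟩ : ∃ E : ℝ, SA = p * E := by
    by_cases h : p = 0
    · refine ⟨0, ?_⟩
      have : (hi S A τa).card = 0 := Nat.cast_eq_zero.mp h
      rw [Finset.card_eq_zero] at this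
      rw [mul_zero, hSA, this, Finset.sum_empty]
    · exact ⟨SA / p, by field_simp⟩
  obtain ⟨G, hG⟩ : ∃ G : ℝ, SC = q * G := by
    by_cases h : q = 0
    · refine ⟨0, ?_⟩
      have : (hi S C τc).card = 0 := Nat.cast_eq_zero.mp h
      rw [Finset.card_eq_zero] at this
      rw [mul_zero, hSC, this, Finset.sum_empty]
    · exact ⟨SC / q, by field_simp⟩
  obtain ⟨g, hg⟩ : ∃ g : ℝ, F11 = 2 * p * q * g := by
    by_cases h : 2 * p * q = 0
    · refine ⟨0, ?_⟩
      rw [mul_zero]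
      have h1 : ((S11 S τa τc).card : ℝ) = 0 := by
        rw [t11n]; exact h
      have h2 : (S11 S τa τc).card = 0 := by exact_mod_cast h1
      rw [Finset.card_eq_zero] at h2
      rw [hF11, h2, Finset.sum_empty]
    · exact ⟨F11 / (2 * p * q), by
        rw [mul_div_cancel₀ _ h]⟩
  -- the residual
  set θ : α → ℝ := fun x => if τa x then (if τc x then E + G - g else E) else G with hθ
  set ρ : α → ℝ := fun x => f x - c (C x) - a (A x) + θ x with hρ
  have hdevC : ∀ x, dev S C f x = f x - c (C x) := fun x => rfl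
  have hdevA : ∀ x, dev S A f x = f x - a (A x) := fun x => rfl
  -- Step 1: the identity
  have hid : ∑ x ∈ S, dev S C f x * dev S A f x
      = ∑ x ∈ S, ρ x ^ 2 + 2 * p * q * (g - E) * (g - G) := by
    have h1 : ∀ x ∈ S, ρ x ^ 2 = dev S C f x * dev S A f x - dev S C f x * c (C x)
        - dev S A f x * a (A x) + (a (A x) * c (C x) + 2 * θ x * (f x - a (A x) - c (C x)) + θ x ^ 2) := by
      intro x _
      simp only [hdevC, hdevA, hρ]
      ring
    have h2 : ∑ x ∈ S, ρ x ^ 2 = ∑ x ∈ S, dev S C f x * dev S A f x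
        + ∑ x ∈ S, (a (A x) * c (C x) + 2 * θ x * (f x - a (A x) - c (C x)) + θ x ^ 2) := by
      rw [Finset.sum_congr rfl h1, Finset.sum_add_distrib, Finset.sum_sub_distrib,
        Finset.sum_sub_distrib, sum_dev_mul S C f c, sum_dev_mul S A f a]
      ring
    have hgen : ∀ (W : Finset α) (t : ℝ), (∀ x ∈ W, θ x = t) →
        ∑ x ∈ W, (a (A x) * c (C x) + 2 * θ x * (f x - a (A x) - c (C x)) + θ x ^ 2)
          = ∑ x ∈ W, a (A x) * c (C x) + 2 * t * (∑ x ∈ W, f x - ∑ x ∈ W, a (A x) - ∑ x ∈ W, c (C x))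
            + t ^ 2 * (W.card : ℝ) := by
      intro W t ht
      have h3 : ∀ x ∈ W, (a (A x) * c (C x) + 2 * θ x * (f x - a (A x) - c (C x)) + θ x ^ 2)
          = a (A x) * c (C x) + 2 * t * (f x - a (A x) - c (C x)) + t ^ 2 := by
        intro x hx
        rw [ht x hx]
      rw [Finset.sum_congr rfl h3, Finset.sum_add_distrib, Finset.sum_add_distrib,
        ← Finset.mul_sum, Finset.sum_sub_distrib, Finset.sum_sub_distrib, Finset.sum_const,
        nsmul_eq_mul]
      ring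
    have h11 := hgen (S11 S τa τc) (E + G - g) (fun x hx => by
          obtain ⟨_, h2, h3⟩ := Finset.mem_filter.mp hx
          simp [hθ, h2, h3])
    have h10 := hgen (S10 S τa τc) E (fun x hx => by
          obtain ⟨_, h2, h3⟩ := Finset.mem_filter.mp hx
          simp [hθ, h2, h3])
    have h01 := hgen (S01 S τa τc) G (fun x hx => by
          obtain ⟨_, h2, h3⟩ := Finset.mem_filter.mp hx
          simp [hθ, h2, h3])
    rw [t11, t11a, t11c, t11n, ← hF11] at h11
    rw [t10, t10a, t10c, t10n, ← hF10] at h10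
    rw [t01, t01a, t01c, t01n, ← hF01] at h01
    have h3 : ∑ x ∈ S, (a (A x) * c (C x) + 2 * θ x * (f x - a (A x) - c (C x)) + θ x ^ 2)
        = - (2 * p * q * (g - E) * (g - G)) := by
      rw [T.sum_partition, h11, h10, h01]
      rw [hE] at e1
      rw [hG] at e3
      rw [hg] at e1 e3
      rw [hE, hG, hg]
      linear_combination E * e4 + E * e1 + G * e2 + G * e3
    rw [h2, h3]
    ring
  -- Step 2: the two-point cells
  have hinj : Set.InjOn ν D := by
    intro x hx y hy hxy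
    by_contra hne
    obtain ⟨hx1, hx2, hx3, hx4, hx5, hx6⟩ := hν x hx
    obtain ⟨hy1, hy2, hy3, hy4, hy5, hy6⟩ := hν y hy
    have hxS := hD hx
    have hyS := hD hy
    have hcell := T.hn x hxS x hxS
    rw [if_pos hx1, if_pos hx2] at hcell
    have hsub : ({x, y, ν x} : Finset α) ⊆ S.filter fun z => A z = A x ∧ C z = C x := by
      intro z hz
      simp only [Finset.mem_insert, Finset.mem_singleton] at hz
      rcases hz with rfl | rfl | rfl
      · simp [hxS]
      · simp only [Finset.mem_filter]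
        refine ⟨hyS, ?_, ?_⟩
        · rw [← hy5, ← hxy, hx5]
        · rw [← hy6, ← hxy, hx6]
      · simp [hx3, hx5, hx6]
    have hcard3 : ({x, y, ν x} : Finset α).card = 3 := by
      have h1 : x ≠ ν x := fun h => hx4 (h ▸ hx)
      have h2 : y ≠ ν x := fun h => hx4 (h ▸ hy)
      rw [Finset.card_insert_of_notMem (by simp [hne, h1]),
        Finset.card_insert_of_notMem (by simp [h2]), Finset.card_singleton]
    have := Finset.card_le_card hsub
    omega
  have hcells : ∑ x ∈ D, (f x - f (ν x)) ^ 2 ≤ 2 * ∑ x ∈ S, ρ x ^ 2 := by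
    have h1 : ∀ x ∈ D, (f x - f (ν x)) ^ 2 ≤ 2 * (ρ x ^ 2 + ρ (ν x) ^ 2) := by
      intro x hx
      obtain ⟨hx1, hx2, hx3, hx4, hx5, hx6⟩ := hν x hx
      have h2 : τa (ν x) := (T.ha x (hD hx) (ν x) hx3 hx5.symm).mp hx1
      have h3 : τc (ν x) := (T.hc x (hD hx) (ν x) hx3 hx6.symm).mp hx2
      have h4 : ρ x - ρ (ν x) = f x - f (ν x) := by
        simp only [hρ, hθ, if_pos hx1, if_pos hx2, if_pos h2, if_pos h3, hx5, hx6]
        ring
      rw [← h4]
      exact sq_sub_le_aux _ _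
    have h2 : ∑ x ∈ D, ρ (ν x) ^ 2 = ∑ y ∈ D.image ν, ρ y ^ 2 :=
      (Finset.sum_image (f := fun y => ρ y ^ 2) hinj).symm
    have hdisj : Disjoint D (D.image ν) := by
      rw [Finset.disjoint_right]
      intro y hy
      obtain ⟨x, hx, rfl⟩ := Finset.mem_image.mp hy
      exact (hν x hx).2.2.2.1
    have h3 : ∑ x ∈ D, ρ x ^ 2 + ∑ y ∈ D.image ν, ρ y ^ 2 ≤ ∑ x ∈ S, ρ x ^ 2 := by
      rw [← Finset.sum_union hdisj]
      refine Finset.sum_le_sum_of_subset_of_nonneg ?_ (fun _ _ _ => sq_nonneg _)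
      intro y hy
      rcases Finset.mem_union.mp hy with hy | hy
      · exact hD hy
      · obtain ⟨x, hx, rfl⟩ := Finset.mem_image.mp hy
        exact (hν x hx).2.2.1
    calc ∑ x ∈ D, (f x - f (ν x)) ^ 2 ≤ ∑ x ∈ D, 2 * (ρ x ^ 2 + ρ (ν x) ^ 2) :=
          Finset.sum_le_sum h1
      _ = 2 * (∑ x ∈ D, ρ x ^ 2 + ∑ x ∈ D, ρ (ν x) ^ 2) := by
          rw [← Finset.mul_sum, Finset.sum_add_distrib]
      _ ≤ 2 * ∑ x ∈ S, ρ x ^ 2 := by
          rw [h2]; linarith
  -- Step 3: the `Ψ` bounds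
  set Ψ₁ : ℝ := ∑ x ∈ S, (if τc x then
            cov (fib S C x) f (fun y => if τa y then 1 else 0) ^ 2
              / avg (fib S C x) (fun y => if τa y then 1 else 0) else 0) with hΨ₁
  set Ψ₂ : ℝ := ∑ x ∈ S, (if τa x then
            cov (fib S A x) f (fun y => if τc y then 1 else 0) ^ 2
              / avg (fib S A x) (fun y => if τc y then 1 else 0) else 0) with hΨ₂
  have hΨ₁nn : 0 ≤ Ψ₁ := Table.psi_nonneg S C τa τc f
  have hΨ₂nn : 0 ≤ Ψ₂ := Table.psi_nonneg S A τc τa f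
  have hb₁ : (F11 - 2 * p * SC) ^ 2 ≤ 2 * p * q * Ψ₁ := T.psi_bound f
  have hb₂ : (F11 - 2 * q * SA) ^ 2 ≤ 2 * q * p * Ψ₂ := by
    have h := T.swap.psi_bound f
    have h1 : ∑ x ∈ S11 S τc τa, f x = F11 := by
      refine Finset.sum_congr ?_ fun _ _ => rfl
      ext x; simp [and_comm]
    rw [h1] at h
    exact h
  have hpq : 0 ≤ 2 * p * q := by positivity
  have hk₁ : 2 * p * q * (g - G) ^ 2 ≤ Ψ₁ := by
    by_cases h : 2 * p * q = 0
    · rw [h, zero_mul]; exact hΨ₁nn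
    · have hpos : 0 < 2 * p * q := lt_of_le_of_ne hpq (Ne.symm h)
      refine le_of_mul_le_mul_left ?_ hpos
      have : F11 - 2 * p * SC = 2 * p * q * (g - G) := by rw [hg, hG]; ring
      rw [this] at hb₁
      calc _ = (2 * p * q * (g - G)) ^ 2 := by ring
        _ ≤ _ := hb₁
  have hk₂ : 2 * p * q * (g - E) ^ 2 ≤ Ψ₂ := by
    by_cases h : 2 * p * q = 0
    · rw [h, zero_mul]; exact hΨ₂nn
    · have hpos : 0 < 2 * p * q := lt_of_le_of_ne hpq (Ne.symm h)
      refine le_of_mul_le_mul_left ?_ hpos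
      have : F11 - 2 * q * SA = 2 * p * q * (g - E) := by rw [hg, hE]; ring
      rw [this] at hb₂
      calc _ = (2 * p * q * (g - E)) ^ 2 := by ring
        _ ≤ _ := hb₂
        _ = _ := by ring
  rw [hid]
  exact alg_final_aux _ _ _ _ _ _ _ hpq hk₁ hk₂ hcells

end TwoBlockAux

open TwoBlockAux in
theorem twoBlockCross : TwoBlockCross := by
  intro α 𝒳 𝒵 _ _ _ S A C τa τc _ _ f D ν ha hc hn hD hν
  exact (Table.mk ha hc hn).main f D ν hD hν

theorem twoBlockRect : TwoBlockRect := by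
  intro α 𝒳 𝒵 _ _ _ S A C f hn
  have h := twoBlockCross S A C (fun _ => True) (fun _ => False) f ∅ id
    (fun _ _ _ _ _ => Iff.rfl) (fun _ _ _ _ _ => Iff.rfl)
    (fun x hx y hy => by simpa using hn x hx y hy)
    (Finset.empty_subset _) (fun x hx => absurd hx (Finset.notMem_empty x))
  simpa [avg] using h

end Crest.Agent.S0453Lib
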